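import Vale.Agent.P171.Kernel

open MeasureTheory Filter Topology
open scoped ENNReal

namespace Vale.Agent.P171

theorem Rk_pos (k : ℕ) : 0 < Rk k := by unfold Rk; positivity

theorem lk_pos (k : ℕ) : 0 < lk k := by unfold lk; positivity

theorem chi_nonneg (R : ℕ) (r : ℝ) : 0 ≤ chi R r := by
  unfold chi; split_ifs <;> positivity

theorem chi_le_one {R : ℕ} (hR : 1 ≤ R) (r : ℝ) : chi R r ≤ 1 := by
  unfold chi; split_ifs
  · have : (1 : ℝ) ≤ R := by exact_mod_cast hR
    exact inv_le_one_of_one_le₀ (one_le_pow₀ this)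
  · exact zero_le_one

theorem chi_zero (R : ℕ) : chi R 0 = 0 := by simp [chi]

theorem phi0_zero : phi0 0 = 0 := by simp [phi0]

theorem phi0_nonneg (r : ℝ) : 0 ≤ phi0 r := by
  unfold phi0; split_ifs with h
  · have := h.1; positivity
  · exact le_rfl

theorem phi0_of_one_le {r : ℝ} (hr : 1 ≤ r) : phi0 r = 0 := by
  unfold phi0; rw [if_neg]; intro h; linarith [h.2]

theorem summable_psi {t : ℕ → ℝ} (ht : Summable t) (h0 : ∀ k, 0 ≤ t k) (r : ℝ) :
    Summable fun k => t k * chi (Rk k) r := by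
  refine Summable.of_nonneg_of_le (fun k => mul_nonneg (h0 k) (chi_nonneg _ _)) (fun k => ?_) ht
  exact mul_le_of_le_one_right (h0 k) (chi_le_one (Rk_pos k) r)

theorem psi_nonneg {t : ℕ → ℝ} (h0 : ∀ k, 0 ≤ t k) (r : ℝ) : 0 ≤ psi t r :=
  tsum_nonneg fun k => mul_nonneg (h0 k) (chi_nonneg _ _)

theorem psi_le {t : ℕ → ℝ} (ht : Summable t) (h0 : ∀ k, 0 ≤ t k) (r : ℝ) :
    psi t r ≤ ∑' k, t k :=
  (summable_psi ht h0 r).tsum_le_tsum
    (fun k => mul_le_of_le_one_right (h0 k) (chi_le_one (Rk_pos k) r)) ht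

theorem psi_zero (t : ℕ → ℝ) : psi t 0 = 0 := by simp [psi, chi_zero]

theorem phi_zero (t : ℕ → ℝ) : phi t 0 = 0 := by simp [phi, phi0_zero, psi_zero]

theorem phi_nonpos {t : ℕ → ℝ} (h0 : ∀ k, 0 ≤ t k) {r : ℝ} (hr : 1 ≤ r) : phi t r ≤ 0 := by
  unfold phi; rw [phi0_of_one_le hr]; linarith [psi_nonneg h0 r]

theorem wt_symm (t : ℕ → ℝ) (x y : R3) : wt t x y = wt t y x := by
  unfold wt; rw [norm_sub_rev]

theorem wt_nonneg {t : ℕ → ℝ} (h0 : ∀ k, 0 ≤ t k) {x y : R3} (h : 1 ≤ ‖x - y‖) :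
    0 ≤ wt t x y := by
  unfold wt; linarith [phi_nonpos h0 h]

theorem energy_eq (t : ℕ → ℝ) {N : ℕ} (x : Fin N → R3) : energy (phi t) x = -psum (wt t) x := by
  unfold energy psum
  have h : ∀ i j : Fin N, wt t (x i) (x j) =
      -(1 / 2) * ((if i < j then phi t ‖x i - x j‖ else 0) +
        (if j < i then phi t ‖x j - x i‖ else 0)) := by
    intro i j
    rcases lt_trichotomy i j with hij | hij | hij
    · rw [if_pos hij, if_neg hij.asymm]; unfold wt; ring
    · subst hij; simp [wt, phi_zero]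
    · rw [if_neg hij.asymm, if_pos hij]; unfold wt; rw [norm_sub_rev]; ring
  simp_rw [h]
  simp_rw [← Finset.mul_sum, Finset.sum_add_distrib]
  rw [Finset.sum_comm (f := fun i j => if j < i then phi t ‖x j - x i‖ else 0)]
  ring

theorem measurable_chi (R : ℕ) : Measurable (chi R) := by
  unfold chi
  refine Measurable.ite ?_ measurable_const measurable_const
  exact (measurableSet_Ioi (a := (0 : ℝ))).inter (measurableSet_Iic (a := (R : ℝ)))

theorem measurable_phi0 : Measurable phi0 := by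
  unfold phi0
  refine Measurable.ite ?_ (by fun_prop) measurable_const
  exact (measurableSet_Ioi (a := (0 : ℝ))).inter (measurableSet_Iio (a := (1 : ℝ)))

theorem measurable_psi {t : ℕ → ℝ} (ht : Summable t) (h0 : ∀ k, 0 ≤ t k) : Measurable (psi t) := by
  refine measurable_of_tendsto_metrizable (f := fun n r => ∑ k ∈ Finset.range n, t k * chi (Rk k) r)
    (fun n => Finset.measurable_sum _ fun k _ => (measurable_chi _).const_mul _) ?_
  rw [tendsto_pi_nhds]
  intro r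
  exact (summable_psi ht h0 r).hasSum.tendsto_sum_nat

theorem measurable_phi {t : ℕ → ℝ} (ht : Summable t) (h0 : ∀ k, 0 ≤ t k) : Measurable (phi t) :=
  measurable_phi0.sub (measurable_psi ht h0)

theorem measurable_wt {t : ℕ → ℝ} (ht : Summable t) (h0 : ∀ k, 0 ≤ t k) :
    Measurable (Function.uncurry (wt t)) := by
  unfold wt
  have : Measurable (fun p : R3 × R3 => ‖p.1 - p.2‖) := by fun_prop
  exact ((measurable_phi ht h0).comp this).neg.div_const 2

theorem psum_wt {t : ℕ → ℝ} {N : ℕ} (x : Fin N → R3) :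
    psum (wt t) x = -(1 / 2) * (∑ i, ∑ j, phi0 ‖x i - x j‖) +
      1 / 2 * ∑ i, ∑ j, psi t ‖x i - x j‖ := by
  unfold psum wt phi
  simp_rw [Finset.mul_sum, ← Finset.sum_add_distrib]
  refine Finset.sum_congr rfl fun i _ => Finset.sum_congr rfl fun j _ => by ring

theorem sum_psi {t : ℕ → ℝ} (ht : Summable t) (h0 : ∀ k, 0 ≤ t k) {N : ℕ} (x : Fin N → R3) :
    ∑ i, ∑ j, psi t ‖x i - x j‖ = ∑' k, t k * ∑ i, ∑ j, chi (Rk k) ‖x i - x j‖ := by
  unfold psi
  have h1 : ∀ i : Fin N, ∑ j, ∑' k, t k * chi (Rk k) ‖x i - x j‖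
      = ∑' k, ∑ j, t k * chi (Rk k) ‖x i - x j‖ := fun i =>
    (Summable.tsum_finsetSum fun j _ => summable_psi ht h0 _).symm
  simp_rw [h1]
  rw [← Summable.tsum_finsetSum fun i _ => summable_sum fun j _ => summable_psi ht h0 _]
  simp_rw [Finset.mul_sum]

theorem psi_add {t u : ℕ → ℝ} (ht : Summable t) (h0 : ∀ k, 0 ≤ t k) (hu : Summable u)
    (hu0 : ∀ k, 0 ≤ u k) (r : ℝ) : psi (fun k => t k + u k) r = psi t r + psi u r := by
  unfold psi
  rw [← (summable_psi ht h0 r).tsum_add (summable_psi hu hu0 r)]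
  simp_rw [add_mul]

theorem psi_smul (t : ℕ → ℝ) (c : ℝ) (r : ℝ) : psi (fun k => c * t k) r = c * psi t r := by
  unfold psi
  rw [← tsum_mul_left]
  simp_rw [mul_assoc]

theorem psi_mono {t u : ℕ → ℝ} (h0 : ∀ k, 0 ≤ t k) (hu : Summable u)
    (h : ∀ k, t k ≤ u k) (r : ℝ) : psi t r ≤ psi u r := by
  have hu0 : ∀ k, 0 ≤ u k := fun k => (h0 k).trans (h k)
  have ht : Summable t := Summable.of_nonneg_of_le h0 h hu
  exact (summable_psi ht h0 r).tsum_le_tsum
    (fun k => mul_le_mul_of_nonneg_right (h k) (chi_nonneg _ _)) (summable_psi hu hu0 r)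

end Vale.Agent.P171
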