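import Vale.Agent.P171.Pres2

open MeasureTheory Filter Topology
open scoped ENNReal

namespace Vale.Agent.P171

/-- integer shift vector attached to a block -/
noncomputable def bshift (l : ℕ) (a v : Fin 3 → ℤ) : R3 :=
  WithLp.toLp 2 fun i => ((a i + l * v i : ℤ) : ℝ)

theorem cell_add_int (x : R3) (g : Fin 3 → ℤ) :
    cell (x + WithLp.toLp 2 fun i => ((g i : ℤ) : ℝ)) = fun i => cell x i + g i := by
  funext i
  unfold cell
  simp

theorem w2_translate (t : ℕ → ℝ) (κ τ : ℝ) (l : ℕ) (a v : Fin 3 → ℤ) (x y : R3) :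
    w2 t κ τ (x + bshift l a v) (y + bshift l a v) = w2 t κ τ x y := by
  unfold w2 bshift
  rw [wt_translate, cell_add_int, cell_add_int]
  have : ((fun i => cell x i + (a i + l * v i)) = fun i => cell y i + (a i + l * v i)) ↔
      cell x = cell y := by
    constructor
    · intro h
      funext i
      have := congrFun h i
      omega
    · intro h; rw [h]
  simp only [this]

theorem measurable_blk (l : ℕ) (a : Fin 3 → ℤ) : Measurable fun x : R3 => blk l a (cell x) := by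
  have : Measurable (blk l a) := measurable_of_countable _
  exact this.comp measurable_cell

theorem measurable_wblk {t : ℕ → ℝ} (h : Good t) (κ σ : ℝ) (l : ℕ) (a : Fin 3 → ℤ) :
    Measurable (Function.uncurry (wblk t κ σ l a)) := by
  unfold wblk
  refine Measurable.ite ?_ ?_ measurable_const
  · exact measurableSet_eq_fun ((measurable_blk l a).comp measurable_fst)
      ((measurable_blk l a).comp measurable_snd)
  · exact measurable_w2 h κ (σ / (l : ℝ) ^ 3)

theorem GZ_wblk {t : ℕ → ℝ} (h : Good t) (κ σ : ℝ) {l : ℕ} (hl : 0 < l) (a : Fin 3 → Fin l)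
    (μ : ℝ) {L : ℝ} (hL : 0 ≤ L) :
    GZ (box L) (wblk t κ σ l fun i => ((a i : ℕ) : ℤ)) μ ≤
      (GZ (box l) (w2 t κ (σ / (l : ℝ) ^ 3)) μ) ^ ((⌊L / l⌋₊ + 2) ^ 3) := by
  classical
  set n := ⌊L / l⌋₊ + 2 with hn
  set a' : Fin 3 → ℤ := fun i => ((a i : ℕ) : ℤ) with ha'
  set B : (Fin 3 → Fin n) → Set R3 := fun v =>
    {x | blk l a' (cell x) = fun i => ((v i : ℕ) : ℤ) - 1} with hB
  have hlZ : (0 : ℤ) < l := by exact_mod_cast hl
  have hlR : (0 : ℝ) < l := by exact_mod_cast hl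
  have hBm : ∀ v, MeasurableSet (B v) := fun v =>
    measurable_blk l a' (measurableSet_singleton _)
  have hdisj : ∀ b ∈ (Finset.univ : Finset (Fin 3 → Fin n)),
      ∀ c ∈ (Finset.univ : Finset (Fin 3 → Fin n)), b ≠ c → Disjoint (B b) (B c) := by
    intro b _ c _ hbc
    rw [Set.disjoint_left]
    intro x hxb hxc
    apply hbc
    have h1 : (fun i => ((b i : ℕ) : ℤ) - 1) = fun i => ((c i : ℕ) : ℤ) - 1 :=
      Eq.trans (Eq.symm hxb) hxc
    funext i
    have hi := congrFun h1 i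
    exact Fin.ext (by omega)
  have hcross : ∀ b ∈ (Finset.univ : Finset (Fin 3 → Fin n)),
      ∀ c ∈ (Finset.univ : Finset (Fin 3 → Fin n)), b ≠ c →
      ∀ x ∈ B b, ∀ y ∈ B c, wblk t κ σ l a' x y = 0 := by
    intro b _ c _ hbc x hx y hy
    unfold wblk
    rw [if_neg]
    have hx' : blk l a' (cell x) = fun i => ((b i : ℕ) : ℤ) - 1 := hx
    have hy' : blk l a' (cell y) = fun i => ((c i : ℕ) : ℤ) - 1 := hy
    rw [hx', hy']
    intro h1
    apply hbc
    funext i
    have hi := congrFun h1 i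
    exact Fin.ext (by omega)
  have hcover : box L ⊆ ⋃ b ∈ (Finset.univ : Finset (Fin 3 → Fin n)), B b := by
    intro x hx
    simp only [Finset.mem_univ, Set.iUnion_true, Set.mem_iUnion]
    have hlow : ∀ i, -1 ≤ blk l a' (cell x) i := by
      intro i
      unfold blk cell
      rw [Int.le_ediv_iff_mul_le hlZ]
      have h1 : (0 : ℤ) ≤ ⌊x i⌋ := Int.floor_nonneg.2 (hx i).1
      have h2 := (a i).2
      have h3 : a' i < l := by
        show ((a i : ℕ) : ℤ) < l
        exact_mod_cast h2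
      linarith
    have hhigh : ∀ i, blk l a' (cell x) i < (n : ℤ) - 1 := by
      intro i
      unfold blk cell
      rw [Int.ediv_lt_iff_lt_mul hlZ]
      have h1 : ((⌊x i⌋ : ℤ) : ℝ) ≤ L := (Int.floor_le _).trans (hx i).2
      have h2 : L / l < (⌊L / l⌋₊ : ℝ) + 1 := Nat.lt_floor_add_one _
      have h3 : L < ((⌊L / l⌋₊ : ℝ) + 1) * l := by rwa [div_lt_iff₀ hlR] at h2
      have h4 : ((⌊x i⌋ : ℤ) : ℝ) < ((((⌊L / l⌋₊ : ℕ) : ℤ) + 1) * l : ℤ) := by
        push_cast
        linarith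
      have h5 : ⌊x i⌋ < ((((⌊L / l⌋₊ : ℕ) : ℤ) + 1) * l : ℤ) := by exact_mod_cast h4
      have h6 : 0 ≤ a' i := by
        show (0 : ℤ) ≤ ((a i : ℕ) : ℤ)
        positivity
      rw [hn]
      push_cast
      linarith
    refine ⟨fun i => ⟨(blk l a' (cell x) i + 1).toNat, ?_⟩, ?_⟩
    · have h1 := hlow i
      have h2 := hhigh i
      omega
    · show blk l a' (cell x) = _
      funext i
      have h1 := hlow i
      simp only
      rw [Int.toNat_of_nonneg (by linarith)]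
      ring
  have hprod := GZ_biUnion (Finset.univ : Finset (Fin 3 → Fin n)) B (fun b _ => hBm b) hdisj
    (measurable_wblk h κ σ l a') hcross μ
  refine (GZ_mono_set hcover _ μ).trans ?_
  rw [hprod]
  have heach : ∀ v, GZ (B v) (wblk t κ σ l a') μ ≤ GZ (box l) (w2 t κ (σ / (l : ℝ) ^ 3)) μ := by
    intro v
    have e1 : GZ (B v) (wblk t κ σ l a') μ = GZ (B v) (w2 t κ (σ / (l : ℝ) ^ 3)) μ := by
      refine GZ_congr (hBm v) (fun x hx y hy => ?_) μ
      unfold wblk w2
      rw [if_pos (Eq.trans hx (Eq.symm hy))]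
    rw [e1]
    have hsub : B v ⊆ (fun x => x + bshift l a' fun i => ((v i : ℕ) : ℤ) - 1) '' box l := by
      intro x hx
      refine ⟨x - bshift l a' fun i => ((v i : ℕ) : ℤ) - 1, ?_, by simp⟩
      intro i
      have h1 : blk l a' (cell x) i = ((v i : ℕ) : ℤ) - 1 := congrFun hx i
      unfold blk cell at h1
      have h2 := Int.emod_add_mul_ediv (⌊x i⌋ - a' i) l
      have h3 := Int.emod_nonneg (⌊x i⌋ - a' i) hlZ.ne'
      have h4 := Int.emod_lt_of_pos (⌊x i⌋ - a' i) hlZ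
      rw [h1] at h2
      have h5 : a' i + l * (((v i : ℕ) : ℤ) - 1) ≤ ⌊x i⌋ := by linarith
      have h6 : ⌊x i⌋ + 1 ≤ a' i + l * (((v i : ℕ) : ℤ) - 1) + l := by linarith
      have h7 : ((a' i + l * (((v i : ℕ) : ℤ) - 1) : ℤ) : ℝ) ≤ x i :=
        le_trans (by exact_mod_cast h5) (Int.floor_le _)
      have h8 : x i < ((a' i + l * (((v i : ℕ) : ℤ) - 1) : ℤ) : ℝ) + l := by
        refine lt_of_lt_of_le (Int.lt_floor_add_one (x i)) ?_
        have h9 : ((⌊x i⌋ + 1 : ℤ) : ℝ) ≤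
            ((a' i + l * (((v i : ℕ) : ℤ) - 1) + l : ℤ) : ℝ) := Int.cast_le.2 h6
        push_cast at h9 ⊢
        linarith
      simp only [bshift, PiLp.sub_apply]
      constructor <;> linarith
    refine (GZ_mono_set hsub _ μ).trans (le_of_eq ?_)
    exact GZ_translate _ (measurableSet_box l) (fun x _ y _ => w2_translate _ _ _ _ _ _ _ _) μ
  calc ∏ b : Fin 3 → Fin n, GZ (B b) (wblk t κ σ l a') μ
      ≤ ∏ _b : Fin 3 → Fin n, GZ (box l) (w2 t κ (σ / (l : ℝ) ^ 3)) μ :=
        Finset.prod_le_prod' fun v _ => heach v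
    _ = _ := by
        rw [Finset.prod_const, Finset.card_univ, Fintype.card_fun, Fintype.card_fin,
          Fintype.card_fin]

/-- perturbation of one coefficient -/
theorem good_single {s : ℝ} (hs : 0 ≤ s) (k : ℕ) : Good fun j => if j = k then s else 0 := by
  refine ⟨?_, fun j => by split_ifs <;> simp [hs]⟩
  exact (hasSum_ite_eq k s).summable

theorem GZ_block {t : ℕ → ℝ} (h : Good t) (k : ℕ) {s : ℝ} (hs : 0 ≤ s) (μ : ℝ) {L : ℝ}
    (hL : 0 ≤ L) :
    GZ (box L) (wt fun j => t j + if j = k + 1 then s else 0) μ ≤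
      (lk (k + 1) : ℝ≥0∞) ^ 3 *
      (GZ (box (lk (k + 1)))
        (w2 t (27 / 2 * ((∑' j, t (j + (k + 1))) + 6 * (∑' j, t j) * (1 / 2) ^ (k + 2)))
          (27 / 2 * s / (lk (k + 1) : ℝ) ^ 3)) μ) ^ ((⌊L / lk (k + 1)⌋₊ + 2) ^ 3) := by
  set κ := 27 / 2 * ((∑' j, t (j + (k + 1))) + 6 * (∑' j, t j) * (1 / 2) ^ (k + 2))
  have h1 := GZ_le_sum (measurableSet_box L) (Finset.univ : Finset (Fin 3 → Fin (lk (k + 1))))
    (w := wt fun j => t j + if j = k + 1 then s else 0)
    (fun a => wblk t κ (27 / 2 * s) (lk (k + 1)) fun i => ((a i : ℕ) : ℤ))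
    (fun a _ => measurable_wblk h _ _ _ _)
    (fun N x _ _ => by
      obtain ⟨a, ha⟩ := block_ineq t h.nonneg h.summable k s hs x
      exact ⟨a, Finset.mem_univ _, ha⟩) μ
  refine h1.trans ?_
  calc _ ≤ ∑ _a : Fin 3 → Fin (lk (k + 1)),
      (GZ (box (lk (k + 1))) (w2 t κ (27 / 2 * s / (lk (k + 1) : ℝ) ^ 3)) μ) ^
        ((⌊L / lk (k + 1)⌋₊ + 2) ^ 3) :=
        Finset.sum_le_sum fun a _ => GZ_wblk h κ (27 / 2 * s) (lk_pos _) a μ hL
    _ = _ := by
        rw [Finset.sum_const, Finset.card_univ, Fintype.card_fun, Fintype.card_fin,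
          Fintype.card_fin, nsmul_eq_mul]
        push_cast
        rfl

end Vale.Agent.P171
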