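import Vale.Agent.P171.Defs

open MeasureTheory Filter Topology

namespace Vale.Agent.P171

/-- Lemma `near_sum`: pairs whose cells differ by an element of `D`. -/
theorem near_sum {ι G : Type*} [Fintype ι] [AddCommGroup G] [DecidableEq G]
    (D : Finset G) (c : ι → G) (L : G → Prop) [DecidablePred L] :
    (∑ i, ∑ j, if (L (c i) ∧ L (c j) ∧ c j - c i ∈ D) then (1 : ℝ) else 0)
      ≤ D.card * ∑ i, ∑ j, if (c i = c j ∧ L (c i)) then (1 : ℝ) else 0 := by
  classical
  let n : G → ℝ := fun g => ∑ j, if (c j = g ∧ L g) then (1 : ℝ) else 0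
  let Gs : Finset G := Finset.univ.image c
  have hn0 : ∀ g, g ∉ Gs → n g = 0 := by
    intro g hg
    refine Finset.sum_eq_zero fun j _ => ?_
    rw [if_neg]
    rintro ⟨h, -⟩
    exact hg (Finset.mem_image.2 ⟨j, Finset.mem_univ _, h⟩)
  -- sums over points are sums over cells
  have hcell : ∀ f : G → ℝ, (∑ i, if L (c i) then f (c i) else 0) = ∑ g ∈ Gs, n g * f g := by
    intro f
    have h1 : ∀ i, (if L (c i) then f (c i) else 0)
        = ∑ g ∈ Gs, (if (c i = g ∧ L g) then (1 : ℝ) else 0) * f g := by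
      intro i
      rw [Finset.sum_eq_single (c i)]
      · by_cases h : L (c i) <;> simp [h]
      · intro b _ hb
        rw [if_neg, zero_mul]
        rintro ⟨h, -⟩
        exact hb h.symm
      · intro h
        exact absurd (Finset.mem_image.2 ⟨i, Finset.mem_univ _, rfl⟩) h
    simp_rw [h1]
    rw [Finset.sum_comm]
    refine Finset.sum_congr rfl fun g _ => ?_
    rw [← Finset.sum_mul]
  have hR : (∑ i, ∑ j, if (c i = c j ∧ L (c i)) then (1 : ℝ) else 0) = ∑ g ∈ Gs, n g * n g := by
    rw [← hcell n]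
    refine Finset.sum_congr rfl fun i _ => ?_
    by_cases h : L (c i)
    · simp only [h, and_true, if_true, n]
      refine Finset.sum_congr rfl fun j _ => ?_
      simp only [eq_comm]
    · simp [h]
  have hL : (∑ i, ∑ j, if (L (c i) ∧ L (c j) ∧ c j - c i ∈ D) then (1 : ℝ) else 0)
      = ∑ d ∈ D, ∑ g ∈ Gs, n g * n (g + d) := by
    have h1 : ∀ i, (∑ j, if (L (c i) ∧ L (c j) ∧ c j - c i ∈ D) then (1 : ℝ) else 0)
        = ∑ d ∈ D, if L (c i) then n (c i + d) else 0 := by
      intro i
      by_cases h : L (c i)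
      · simp only [h, true_and, if_true, n]
        rw [Finset.sum_comm]
        refine Finset.sum_congr rfl fun j _ => ?_
        by_cases h2 : L (c j) ∧ c j - c i ∈ D
        · rw [if_pos h2, Finset.sum_eq_single (c j - c i)]
          · rw [if_pos]
            refine ⟨by abel, ?_⟩
            have : c i + (c j - c i) = c j := by abel
            rw [this]
            exact h2.1
          · intro b _ hb
            rw [if_neg]
            rintro ⟨h3, -⟩
            apply hb
            rw [h3]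
            abel
          · intro h3
            exact absurd h2.2 h3
        · rw [if_neg h2]
          symm
          refine Finset.sum_eq_zero fun d hd => ?_
          rw [if_neg]
          rintro ⟨h3, h4⟩
          apply h2
          refine ⟨by rw [h3]; exact h4, ?_⟩
          have : c j - c i = d := by rw [h3]; abel
          rw [this]
          exact hd
      · simp [h]
    simp_rw [h1]
    rw [Finset.sum_comm]
    refine Finset.sum_congr rfl fun d _ => ?_
    exact hcell fun g => n (g + d)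
  rw [hL, hR]
  have hd : ∀ d ∈ D, ∑ g ∈ Gs, n g * n (g + d) ≤ ∑ g ∈ Gs, n g * n g := by
    intro d _
    have h1 : ∑ g ∈ Gs, n (g + d) * n (g + d) ≤ ∑ g ∈ Gs, n g * n g := by
      have h2 : ∑ g ∈ Gs, n (g + d) * n (g + d) = ∑ g ∈ Gs.image (· + d), n g * n g := by
        exact (Finset.sum_image (f := fun g => n g * n g) (g := (· + d))
          (fun a _ b _ hab => add_right_cancel hab)).symm
      rw [h2]
      have h3 : ∑ g ∈ Gs.image (· + d), n g * n g
          = ∑ g ∈ (Gs.image (· + d)).filter (· ∈ Gs), n g * n g := by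
        rw [Finset.sum_filter]
        refine Finset.sum_congr rfl fun g _ => ?_
        by_cases h : g ∈ Gs
        · simp [h]
        · simp [h, hn0 g h]
      rw [h3]
      apply Finset.sum_le_sum_of_subset_of_nonneg
      · intro g hg
        exact (Finset.mem_filter.1 hg).2
      · intro g _ _
        exact mul_self_nonneg _
    have h4 : ∑ g ∈ Gs, n g * n (g + d)
        ≤ ∑ g ∈ Gs, (n g * n g + n (g + d) * n (g + d)) / 2 := by
      refine Finset.sum_le_sum fun g _ => ?_
      nlinarith [sq_nonneg (n g - n (g + d))]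
    rw [← Finset.sum_div, Finset.sum_add_distrib] at h4
    linarith
  calc ∑ d ∈ D, ∑ g ∈ Gs, n g * n (g + d) ≤ ∑ _d ∈ D, ∑ g ∈ Gs, n g * n g :=
        Finset.sum_le_sum hd
    _ = D.card * ∑ g ∈ Gs, n g * n g := by rw [Finset.sum_const, nsmul_eq_mul]

/-- Lemma `same_sum_le`: pigeonhole/Cauchy–Schwarz for a refinement of cells. -/
theorem same_sum_le {ι α β : Type*} [Fintype ι] [DecidableEq α] [DecidableEq β]
    (c : ι → α) (d : ι → β) (T : Finset β) (hd : ∀ i, d i ∈ T) :
    (∑ i, ∑ j, if c i = c j then (1 : ℝ) else 0)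
      ≤ T.card * ∑ i, ∑ j, if (c i = c j ∧ d i = d j) then (1 : ℝ) else 0 := by
  let m : α → β → ℝ := fun g t => ∑ j, if (c j = g ∧ d j = t) then (1 : ℝ) else 0
  let M : α → ℝ := fun g => ∑ j, if c j = g then (1 : ℝ) else 0
  let Gs : Finset α := Finset.univ.image c
  have hM : ∀ g, M g = ∑ t ∈ T, m g t := by
    intro g
    simp only [M, m]
    rw [Finset.sum_comm]
    refine Finset.sum_congr rfl fun j _ => ?_
    by_cases h : c j = g
    · simp only [h, true_and, if_true]
      rw [Finset.sum_ite_eq]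
      simp [hd j]
    · simp [h]
  have hLs : (∑ i, ∑ j, if c i = c j then (1 : ℝ) else 0) = ∑ g ∈ Gs, M g ^ 2 := by
    have h1 : ∀ i, (∑ j, if c i = c j then (1 : ℝ) else 0)
        = ∑ g ∈ Gs, (if c i = g then (1 : ℝ) else 0) * M g := by
      intro i
      rw [Finset.sum_eq_single (c i)]
      · simp only [if_true, one_mul, M]
        refine Finset.sum_congr rfl fun j _ => ?_
        simp only [eq_comm]
      · intro b _ hb
        rw [if_neg (fun h => hb h.symm), zero_mul]
      · intro h
        exact absurd (Finset.mem_image.2 ⟨i, Finset.mem_univ _, rfl⟩) h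
    simp_rw [h1]
    rw [Finset.sum_comm]
    refine Finset.sum_congr rfl fun g _ => ?_
    rw [← Finset.sum_mul, sq]
  have hRs : (∑ i, ∑ j, if (c i = c j ∧ d i = d j) then (1 : ℝ) else 0)
      = ∑ g ∈ Gs, ∑ t ∈ T, m g t ^ 2 := by
    have h1 : ∀ i, (∑ j, if (c i = c j ∧ d i = d j) then (1 : ℝ) else 0)
        = ∑ g ∈ Gs, ∑ t ∈ T, (if (c i = g ∧ d i = t) then (1 : ℝ) else 0) * m g t := by
      intro i
      rw [Finset.sum_eq_single (c i)]
      · rw [Finset.sum_eq_single (d i)]
        · simp only [and_self, if_true, one_mul, m]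
          refine Finset.sum_congr rfl fun j _ => ?_
          simp only [eq_comm]
        · intro b _ hb
          rw [if_neg (fun h => hb h.2.symm), zero_mul]
        · intro h
          exact absurd (hd i) h
      · intro b _ hb
        refine Finset.sum_eq_zero fun t _ => ?_
        rw [if_neg (fun h => hb h.1.symm), zero_mul]
      · intro h
        exact absurd (Finset.mem_image.2 ⟨i, Finset.mem_univ _, rfl⟩) h
    simp_rw [h1]
    rw [Finset.sum_comm]
    refine Finset.sum_congr rfl fun g _ => ?_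
    rw [Finset.sum_comm]
    refine Finset.sum_congr rfl fun t _ => ?_
    rw [← Finset.sum_mul, sq]
  rw [hLs, hRs, Finset.mul_sum]
  refine Finset.sum_le_sum fun g _ => ?_
  rw [hM]
  exact sq_sum_le_card_mul_sum_sq

/-- the boundary layer of thickness `r` of the blocks of side `l` with offset `a`,
in terms of the integer unit cell `g`. -/
def Lay (l r : ℕ) (a g : Fin 3 → ℤ) : Prop :=
  ∃ i, (g i - a i) % (l : ℤ) < r ∨ (l : ℤ) - r ≤ (g i - a i) % (l : ℤ)

theorem card_fin_layer (l r : ℕ) (hl : 0 < l) (g : ℤ) :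
    (Finset.univ.filter fun b : Fin l =>
      ((g - ((b : ℕ) : ℤ)) % (l : ℤ) < r ∨ (l : ℤ) - r ≤ (g - ((b : ℕ) : ℤ)) % (l : ℤ))).card
      ≤ 2 * r := by
  have hl' : (0 : ℤ) < l := by exact_mod_cast hl
  have h1 : (Finset.univ.filter fun b : Fin l =>
      ((g - ((b : ℕ) : ℤ)) % (l : ℤ) < r ∨ (l : ℤ) - r ≤ (g - ((b : ℕ) : ℤ)) % (l : ℤ))).card
      ≤ (Finset.Ico (0 : ℤ) r ∪ Finset.Ico ((l : ℤ) - r) l).card := by
    apply Finset.card_le_card_of_injOn (fun b : Fin l => (g - ((b : ℕ) : ℤ)) % (l : ℤ))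
    · intro b hb
      have hb' := (Finset.mem_filter.1 hb).2
      have h0 := Int.emod_nonneg (g - ((b : ℕ) : ℤ)) hl'.ne'
      have h2 := Int.emod_lt_of_pos (g - ((b : ℕ) : ℤ)) hl'
      rw [Finset.mem_coe, Finset.mem_union, Finset.mem_Ico, Finset.mem_Ico]
      rcases hb' with h | h
      · exact Or.inl ⟨h0, h⟩
      · exact Or.inr ⟨h, h2⟩
    · intro b _ b' _ h
      have h3 : (g - ((b : ℕ) : ℤ)) ≡ (g - ((b' : ℕ) : ℤ)) [ZMOD l] := h
      have h4 : (((b : ℕ) : ℤ)) ≡ (((b' : ℕ) : ℤ)) [ZMOD l] := by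
        have := (Int.ModEq.refl g).sub h3
        simpa using this
      have h5 : ((b : ℕ) : ℤ) % l = ((b' : ℕ) : ℤ) % l := h4
      rw [Int.emod_eq_of_lt (by positivity) (by exact_mod_cast b.2),
        Int.emod_eq_of_lt (by positivity) (by exact_mod_cast b'.2)] at h5
      exact Fin.ext (by exact_mod_cast h5)
  refine h1.trans ((Finset.card_union_le _ _).trans ?_)
  simp only [Int.card_Ico]
  have : ((l : ℤ) - ((l : ℤ) - r)).toNat = r := by
    have : (l : ℤ) - ((l : ℤ) - r) = r := by ring
    rw [this]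
    simp
  rw [this]
  simp
  omega

open scoped Classical in
theorem card_layer (l r : ℕ) (hl : 0 < l) (g : Fin 3 → ℤ) :
    (Finset.univ.filter fun a : Fin 3 → Fin l => Lay l r (fun k => ((a k : ℕ) : ℤ)) g).card
      ≤ 6 * r * l ^ 2 := by
  let S : Fin 3 → Finset (Fin l) := fun i => Finset.univ.filter fun b : Fin l =>
      ((g i - ((b : ℕ) : ℤ)) % (l : ℤ) < r ∨ (l : ℤ) - r ≤ (g i - ((b : ℕ) : ℤ)) % (l : ℤ))
  have hS : ∀ i, (S i).card ≤ 2 * r := fun i => card_fin_layer l r hl (g i)
  have hsub : (Finset.univ.filter fun a : Fin 3 → Fin l => Lay l r (fun k => ((a k : ℕ) : ℤ)) g)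
      ⊆ Finset.univ.biUnion fun i : Fin 3 =>
        Fintype.piFinset fun k => if k = i then S i else Finset.univ := by
    intro a ha
    obtain ⟨i, hi⟩ := (Finset.mem_filter.1 ha).2
    refine Finset.mem_biUnion.2 ⟨i, Finset.mem_univ _, ?_⟩
    rw [Fintype.mem_piFinset]
    intro k
    by_cases h : k = i
    · subst h
      simp only [if_true, S, Finset.mem_filter, Finset.mem_univ, true_and]
      exact hi
    · simp [h]
  refine (Finset.card_le_card hsub).trans (Finset.card_biUnion_le.trans ?_)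
  have hcard : ∀ i : Fin 3,
      (Fintype.piFinset fun k => if k = i then S i else Finset.univ).card ≤ 2 * r * l ^ 2 := by
    intro i
    rw [Fintype.card_piFinset, Fin.prod_univ_three]
    have := hS i
    fin_cases i <;> simp at this ⊢ <;> nlinarith
  calc ∑ i : Fin 3, (Fintype.piFinset fun k => if k = i then S i else Finset.univ).card
      ≤ ∑ _i : Fin 3, 2 * r * l ^ 2 := Finset.sum_le_sum fun i _ => hcard i
    _ = 6 * r * l ^ 2 := by simp; ring

open scoped Classical in
/-- Lemma `exists_offset`: some offset has few pairs in the layer. -/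
theorem exists_offset {ι : Type*} [Fintype ι] (l r : ℕ) (hl : 0 < l) (c : ι → Fin 3 → ℤ) :
    ∃ a : Fin 3 → Fin l,
      (∑ i, ∑ j, if (c i = c j ∧ Lay l r (fun k => ((a k : ℕ) : ℤ)) (c i)) then (1 : ℝ) else 0)
        ≤ 6 * r / l * ∑ i, ∑ j, if c i = c j then (1 : ℝ) else 0 := by
  have hl' : (0 : ℝ) < l := by exact_mod_cast hl
  have : Nonempty (Fin l) := ⟨⟨0, hl⟩⟩
  have hsum : ∑ a : Fin 3 → Fin l,
      (∑ i, ∑ j, if (c i = c j ∧ Lay l r (fun k => ((a k : ℕ) : ℤ)) (c i)) then (1 : ℝ) else 0)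
      ≤ ∑ _a : Fin 3 → Fin l, (6 * r / l * ∑ i, ∑ j, if c i = c j then (1 : ℝ) else 0) := by
    rw [Finset.sum_comm]
    simp_rw [Finset.sum_comm (s := (Finset.univ : Finset (Fin 3 → Fin l)))]
    have h1 : ∀ i j, (∑ a : Fin 3 → Fin l,
        if (c i = c j ∧ Lay l r (fun k => ((a k : ℕ) : ℤ)) (c i)) then (1 : ℝ) else 0)
        ≤ (6 * r * l ^ 2) * (if c i = c j then (1 : ℝ) else 0) := by
      intro i j
      by_cases h : c i = c j
      · simp only [h, true_and, if_true, mul_one]
        rw [Finset.sum_boole]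
        exact_mod_cast card_layer l r hl (c j)
      · simp [h]
    calc ∑ i, ∑ j, (∑ a : Fin 3 → Fin l,
          if (c i = c j ∧ Lay l r (fun k => ((a k : ℕ) : ℤ)) (c i)) then (1 : ℝ) else 0)
        ≤ ∑ i, ∑ j, (6 * r * l ^ 2 : ℝ) * (if c i = c j then (1 : ℝ) else 0) :=
          Finset.sum_le_sum fun i _ => Finset.sum_le_sum fun j _ => h1 i j
      _ = ∑ _a : Fin 3 → Fin l, (6 * r / l * ∑ i, ∑ j, if c i = c j then (1 : ℝ) else 0) := by
          rw [Finset.sum_const, Finset.card_univ, Fintype.card_fun, Fintype.card_fin,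
            Fintype.card_fin, nsmul_eq_mul]
          simp_rw [← Finset.mul_sum]
          push_cast
          field_simp
  obtain ⟨a, _, ha⟩ := Finset.exists_le_of_sum_le (Finset.univ_nonempty) hsum
  exact ⟨a, ha⟩

end Vale.Agent.P171
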