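import Vale.Agent.P171.Pres2

open MeasureTheory Filter Topology
open scoped ENNReal

namespace Vale.Agent.P171

theorem isPairPotential_phi {t : ℕ → ℝ} (h : Good t) : IsPairPotential (phi t) := by
  refine ⟨measurable_phi h.summable h.nonneg, fun a b ha => ?_⟩
  refine ⟨a⁻¹ ^ 6 + ∑' k, t k, fun r hr => ?_⟩
  have h1 : |phi0 r| ≤ a⁻¹ ^ 6 := by
    unfold phi0
    split_ifs with h
    · rw [abs_of_nonneg (by positivity)]
      have := hr.1
      have h3 : 0 ≤ r⁻¹ := inv_nonneg.2 h.1.le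
      gcongr
    · rw [abs_zero]; positivity
  have h2 : |psi t r| ≤ ∑' k, t k := by
    rw [abs_of_nonneg (psi_nonneg h.nonneg r)]
    exact psi_le h.summable h.nonneg r
  unfold phi
  exact (abs_sub _ _).trans (add_le_add h1 h2)

theorem stable_phi {t : ℕ → ℝ} (h : Good t) : Stable (phi t) := by
  obtain ⟨B, hB0, hB⟩ := psum_upper (∑' k, t k) 0 (tsum_nonneg h.nonneg) le_rfl
  refine ⟨B, fun N x hx => ?_⟩
  have := hB t h.summable h.nonneg le_rfl N x hx
  rw [energy_eq]
  linarith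

theorem tempered_phi {t : ℕ → ℝ} (h : Good t) : Tempered (phi t) := by
  refine ⟨1, 1, 1, one_pos, one_pos, one_pos, fun r hr => ?_⟩
  refine (phi_nonpos h.nonneg hr).trans ?_
  have : (0 : ℝ) ≤ r ^ (-3 - 1 : ℝ) := Real.rpow_nonneg (by linarith) _
  linarith

theorem boxPow_eq (L : ℝ) (N : ℕ) : boxPow L N = Set.pi Set.univ (fun _ : Fin N => box L) := by
  ext x; simp [boxPow, Set.mem_pi]

theorem volume_box_ne_top (L : ℝ) : volume (box L) ≠ ∞ := by
  unfold box
  rw [volume_coord (fun _ => Set.Icc 0 L) fun _ => measurableSet_Icc]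
  simp [Real.volume_Icc]

theorem volume_boxPow_ne_top (L : ℝ) (N : ℕ) : volume (boxPow L N) ≠ ∞ := by
  rw [boxPow_eq, volume_pi_pi]
  exact ENNReal.prod_ne_top fun _ _ => volume_box_ne_top L

theorem measurable_energy {t : ℕ → ℝ} (h : Good t) (N : ℕ) :
    Measurable fun x : Fin N → R3 => energy (phi t) x := by
  simp_rw [energy_eq]
  exact (measurable_psum (measurable_wt h.summable h.nonneg) N).neg

theorem integrableOn_exp {t : ℕ → ℝ} (h : Good t) (L : ℝ) (N : ℕ) :
    IntegrableOn (fun x : Fin N → R3 => Real.exp (-1 * energy (phi t) x)) (boxPow L N) := by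
  obtain ⟨B, hB⟩ := stable_phi h
  have hm : Measurable fun x : Fin N → R3 => Real.exp (-1 * energy (phi t) x) :=
    ((measurable_energy h N).const_mul (-1)).exp
  refine Measure.integrableOn_of_bounded (M := Real.exp (B * N)) (volume_boxPow_ne_top L N)
    hm.aestronglyMeasurable ?_
  rw [boxPow_eq]
  refine ae_restrict_pi_inj (measurableSet_box L) N fun x hx _ => ?_
  rw [Real.norm_eq_abs, abs_of_pos (Real.exp_pos _)]
  refine Real.exp_le_exp.2 ?_
  have := hB N x hx
  linarith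

theorem canonicalZ_eq {t : ℕ → ℝ} (h : Good t) (L : ℝ) (N : ℕ) :
    canonicalZ (phi t) 1 L N = (Zc (box L) (wt t) N).toReal := by
  unfold canonicalZ Zc
  rw [ENNReal.toReal_mul, ENNReal.toReal_inv, ENNReal.toReal_natCast, boxPow_eq]
  congr 1
  rw [integral_eq_lintegral_of_nonneg_ae (Eventually.of_forall fun x => (Real.exp_pos _).le)
    (((measurable_energy h N).const_mul (-1)).exp.aestronglyMeasurable)]
  congr 1
  refine lintegral_congr fun x => ?_
  rw [energy_eq]
  simp

theorem Zc_ne_top {t : ℕ → ℝ} (h : Good t) {L : ℝ} (hL : 0 ≤ L) (N : ℕ) :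
    Zc (box L) (wt t) N ≠ ∞ := by
  have h1 := GZ_ne_top h 0 hL
  unfold GZ at h1
  have h2 := ENNReal.ne_top_of_tsum_ne_top h1 N
  simpa using h2

theorem zpow_eq {z : ℝ} (hz : 0 < z) (N : ℕ) (a : ℝ≥0∞) :
    z ^ N * a.toReal = (ENNReal.ofReal (Real.exp (Real.log z * N)) * a).toReal := by
  rw [ENNReal.toReal_mul, ENNReal.toReal_ofReal (Real.exp_pos _).le, mul_comm (Real.log z),
    Real.exp_nat_mul, Real.exp_log hz]

theorem summable_grand {t : ℕ → ℝ} (h : Good t) {z : ℝ} (hz : 0 < z) {L : ℝ} (hL : 0 < L) :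
    Summable fun N : ℕ => z ^ N * canonicalZ (phi t) 1 L N := by
  simp_rw [canonicalZ_eq h, zpow_eq hz]
  exact ENNReal.summable_toReal (GZ_ne_top h (Real.log z) hL.le)

theorem grandZ_eq {t : ℕ → ℝ} (h : Good t) {z : ℝ} (hz : 0 < z) {L : ℝ} (hL : 0 < L) :
    grandZ (phi t) 1 z L = (GZ (box L) (wt t) (Real.log z)).toReal := by
  unfold grandZ GZ
  simp_rw [canonicalZ_eq h, zpow_eq hz]
  rw [ENNReal.tsum_toReal_eq]
  intro N
  exact ENNReal.ne_top_of_tsum_ne_top (GZ_ne_top h (Real.log z) hL.le) N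

theorem isPressure_phi {t : ℕ → ℝ} (h : Good t) :
    IsPressure (phi t) 1 fun z => pres t (Real.log z) := by
  refine ⟨fun L N => integrableOn_exp h L N, fun z hz L hL => summable_grand h hz hL,
    fun z hz => ?_⟩
  refine (pres_spec h (Real.log z)).1.congr' ?_
  filter_upwards [eventually_gt_atTop 0] with L hL
  rw [grandZ_eq h hz hL]
  rfl

end Vale.Agent.P171
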