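import Vale.Agent.P171.Defs

open MeasureTheory Filter Topology
open scoped ENNReal

namespace Vale.Agent.P171

section general

variable {α : Type*}

/-- `∑_{i,j} w(x_i, x_j)`, all ordered pairs including the diagonal. -/
noncomputable def psum (w : α → α → ℝ) {N : ℕ} (x : Fin N → α) : ℝ := ∑ i, ∑ j, w (x i) (x j)

variable [MeasureSpace α]

/-- canonical partition function with pair weight `w` on the region `A`. -/
noncomputable def Zc (A : Set α) (w : α → α → ℝ) (N : ℕ) : ℝ≥0∞ :=
  (N.factorial : ℝ≥0∞)⁻¹ *
    ∫⁻ x in Set.pi Set.univ (fun _ : Fin N => A), ENNReal.ofReal (Real.exp (psum w x))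

/-- grand canonical partition function with chemical potential `μ`. -/
noncomputable def GZ (A : Set α) (w : α → α → ℝ) (μ : ℝ) : ℝ≥0∞ :=
  ∑' N : ℕ, ENNReal.ofReal (Real.exp (μ * N)) * Zc A w N

end general

end Vale.Agent.P171
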