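import Vale.Agent.P171.Core

open MeasureTheory Filter Topology
open scoped ENNReal

namespace Vale.Agent.P171

section general

variable {α : Type*} [MeasureSpace α]

theorem Zc_zero [SigmaFinite (volume : Measure α)] (A : Set α) (w : α → α → ℝ) : Zc A w 0 = 1 := by
  unfold Zc
  have : (Set.pi Set.univ (fun _ : Fin 0 => A)) = Set.univ := by
    ext x; simp
  rw [this]
  simp [psum, volume_pi]

theorem one_le_GZ [SigmaFinite (volume : Measure α)] (A : Set α) (w : α → α → ℝ) (μ : ℝ) :
    1 ≤ GZ A w μ := by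
  unfold GZ
  calc (1 : ℝ≥0∞) = ENNReal.ofReal (Real.exp (μ * (0 : ℕ))) * Zc A w 0 := by
        rw [Zc_zero]; simp
    _ ≤ _ := ENNReal.le_tsum 0

theorem Zc_mono_set {A B : Set α} (h : A ⊆ B) (w : α → α → ℝ) (N : ℕ) : Zc A w N ≤ Zc B w N := by
  unfold Zc
  gcongr

theorem GZ_mono_set {A B : Set α} (h : A ⊆ B) (w : α → α → ℝ) (μ : ℝ) : GZ A w μ ≤ GZ B w μ := by
  unfold GZ
  exact ENNReal.tsum_le_tsum fun N => mul_le_mul_right (Zc_mono_set h w N) _

theorem GZ_mono_mu (A : Set α) (w : α → α → ℝ) {μ ν : ℝ} (h : μ ≤ ν) : GZ A w μ ≤ GZ A w ν := by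
  unfold GZ
  gcongr

theorem measurable_psum {w : α → α → ℝ} (hw : Measurable (Function.uncurry w)) (N : ℕ) :
    Measurable (fun x : Fin N → α => psum w x) := by
  unfold psum
  refine Finset.measurable_sum _ fun i _ => Finset.measurable_sum _ fun j _ => ?_
  have h1 : Measurable (fun x : Fin N → α => x i) := measurable_pi_apply i
  have h2 : Measurable (fun x : Fin N → α => x j) := measurable_pi_apply j
  exact hw.comp (h1.prodMk h2)

end general

theorem ae_injective (N : ℕ) : ∀ᵐ x : Fin N → R3, Function.Injective x := by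
  have h : ∀ i j : Fin N, i ≠ j → ∀ᵐ x : Fin N → R3, x i ≠ x j := by
    intro i j hij
    let S : Submodule ℝ (Fin N → R3) :=
      { carrier := {x | x i = x j}
        add_mem' := by
          intro a b ha hb
          simp only [Set.mem_ofPred_eq, Pi.add_apply] at *
          rw [ha, hb]
        zero_mem' := by simp
        smul_mem' := by
          intro c a ha
          simp only [Set.mem_ofPred_eq, Pi.smul_apply] at *
          rw [ha] }
    have hS : S ≠ ⊤ := by
      intro h
      have : (Pi.single i (EuclideanSpace.single 0 1) : Fin N → R3) ∈ S := by rw [h]; trivial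
      have h2 : (Pi.single i (EuclideanSpace.single 0 1) : Fin N → R3) i
          = (Pi.single i (EuclideanSpace.single 0 1) : Fin N → R3) j := this
      rw [Pi.single_eq_same, Pi.single_eq_of_ne hij.symm] at h2
      have h3 := congrFun (congrArg (fun v : R3 => v.ofLp) h2) 0
      simp at h3
    have := Measure.addHaar_submodule (volume : Measure (Fin N → R3)) S hS
    rw [ae_iff]
    simpa [S] using this
  have h' : ∀ᵐ x : Fin N → R3, ∀ i j : Fin N, i ≠ j → x i ≠ x j := by
    rw [ae_all_iff]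
    intro i
    rw [ae_all_iff]
    intro j
    by_cases hij : i = j
    · simp [hij]
    · filter_upwards [h i j hij] with x hx _ using hx
  filter_upwards [h'] with x hx i j hxij
  by_contra hne
  exact hx i j hne hxij

theorem ae_restrict_pi_inj {A : Set R3} (hA : MeasurableSet A) (N : ℕ)
    {p : (Fin N → R3) → Prop}
    (h : ∀ x : Fin N → R3, Function.Injective x → (∀ i, x i ∈ A) → p x) :
    ∀ᵐ x ∂(volume.restrict (Set.pi Set.univ (fun _ : Fin N => A))), p x := by
  have hm : MeasurableSet (Set.pi Set.univ (fun _ : Fin N => A)) :=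
    MeasurableSet.univ_pi fun _ => hA
  rw [ae_restrict_iff' hm]
  filter_upwards [ae_injective N] with x hx hxA
  exact h x hx (by simpa [Set.mem_pi] using hxA)

theorem Zc_le_of_psum_le {A : Set R3} (hA : MeasurableSet A) {w w' : R3 → R3 → ℝ} {c : ℝ} {N : ℕ}
    (h : ∀ x : Fin N → R3, Function.Injective x → (∀ i, x i ∈ A) →
      psum w x ≤ psum w' x + c * N) :
    Zc A w N ≤ ENNReal.ofReal (Real.exp (c * N)) * Zc A w' N := by
  unfold Zc
  rw [← mul_assoc, mul_comm (ENNReal.ofReal _), mul_assoc]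
  gcongr
  rw [← lintegral_const_mul' _ _ ENNReal.ofReal_ne_top]
  refine lintegral_mono_ae (ae_restrict_pi_inj hA N fun x hx hxA => ?_)
  rw [← ENNReal.ofReal_mul (Real.exp_pos _).le, ← Real.exp_add]
  refine ENNReal.ofReal_le_ofReal (Real.exp_le_exp.2 ?_)
  linarith [h x hx hxA]

theorem GZ_le_of_psum_le {A : Set R3} (hA : MeasurableSet A) {w w' : R3 → R3 → ℝ} {c : ℝ}
    (h : ∀ (N : ℕ) (x : Fin N → R3), Function.Injective x → (∀ i, x i ∈ A) →
      psum w x ≤ psum w' x + c * N) (μ : ℝ) :
    GZ A w μ ≤ GZ A w' (μ + c) := by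
  unfold GZ
  refine ENNReal.tsum_le_tsum fun N => ?_
  calc ENNReal.ofReal (Real.exp (μ * N)) * Zc A w N
      ≤ ENNReal.ofReal (Real.exp (μ * N)) * (ENNReal.ofReal (Real.exp (c * N)) * Zc A w' N) := by
        gcongr
        exact Zc_le_of_psum_le hA (h N)
    _ = ENNReal.ofReal (Real.exp ((μ + c) * N)) * Zc A w' N := by
        rw [← mul_assoc, ← ENNReal.ofReal_mul (Real.exp_pos _).le, ← Real.exp_add]
        ring_nf

theorem GZ_le_sum {A : Set R3} (hA : MeasurableSet A) {ι : Type*} (T : Finset ι)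
    {w : R3 → R3 → ℝ} (w' : ι → R3 → R3 → ℝ)
    (hw' : ∀ a ∈ T, Measurable (Function.uncurry (w' a)))
    (h : ∀ (N : ℕ) (x : Fin N → R3), Function.Injective x → (∀ i, x i ∈ A) →
      ∃ a ∈ T, psum w x ≤ psum (w' a) x) (μ : ℝ) :
    GZ A w μ ≤ ∑ a ∈ T, GZ A (w' a) μ := by
  have hZ : ∀ N, Zc A w N ≤ ∑ a ∈ T, Zc A (w' a) N := by
    intro N
    unfold Zc
    rw [← Finset.mul_sum, ← lintegral_finsetSum' T]
    · refine mul_le_mul' le_rfl ?_
      refine lintegral_mono_ae (ae_restrict_pi_inj hA N fun x hx hxA => ?_)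
      obtain ⟨a, ha, hle⟩ := h N x hx hxA
      refine le_trans (ENNReal.ofReal_le_ofReal (Real.exp_le_exp.2 hle)) ?_
      exact Finset.single_le_sum (f := fun a => ENNReal.ofReal (Real.exp (psum (w' a) x)))
        (fun _ _ => zero_le) ha
    · intro a ha
      exact ((measurable_psum (hw' a ha) N).exp.ennreal_ofReal).aemeasurable
  unfold GZ
  calc ∑' N : ℕ, ENNReal.ofReal (Real.exp (μ * N)) * Zc A w N
      ≤ ∑' N : ℕ, ∑ a ∈ T, ENNReal.ofReal (Real.exp (μ * N)) * Zc A (w' a) N := by
        refine ENNReal.tsum_le_tsum fun N => ?_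
        rw [← Finset.mul_sum]
        gcongr
        exact hZ N
    _ = _ := Summable.tsum_finsetSum fun _ _ => ENNReal.summable

theorem GZ_convex {A : Set R3} (hA : MeasurableSet A) {w w0 w1 : R3 → R3 → ℝ} {μ μ0 μ1 θ : ℝ}
    (hθ0 : 0 ≤ θ) (hθ1 : θ ≤ 1) (hw0 : Measurable (Function.uncurry w0))
    (h : ∀ (N : ℕ) (x : Fin N → R3), Function.Injective x → (∀ i, x i ∈ A) →
      psum w x + μ * N ≤ (1 - θ) * (psum w0 x + μ0 * N) + θ * (psum w1 x + μ1 * N))
    (hf0 : GZ A w0 μ0 ≠ ∞) (hf1 : GZ A w1 μ1 ≠ ∞) :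
    Real.log (GZ A w μ).toReal ≤
      (1 - θ) * Real.log (GZ A w0 μ0).toReal + θ * Real.log (GZ A w1 μ1).toReal := by
  set a := Real.log (GZ A w0 μ0).toReal with ha
  set b := Real.log (GZ A w1 μ1).toReal with hb
  have h0 : 0 < (GZ A w0 μ0).toReal :=
    ENNReal.toReal_pos (ne_of_gt (lt_of_lt_of_le one_pos (one_le_GZ _ _ _))) hf0
  have h1 : 0 < (GZ A w1 μ1).toReal :=
    ENNReal.toReal_pos (ne_of_gt (lt_of_lt_of_le one_pos (one_le_GZ _ _ _))) hf1
  have ea : Real.exp a = (GZ A w0 μ0).toReal := Real.exp_log h0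
  have eb : Real.exp b = (GZ A w1 μ1).toReal := Real.exp_log h1
  set C := Real.exp ((1 - θ) * a + θ * b) with hC
  have hCpos : 0 < C := Real.exp_pos _
  have key : ∀ N : ℕ, ENNReal.ofReal (Real.exp (μ * N)) * Zc A w N ≤
      ENNReal.ofReal (C * (1 - θ) * Real.exp (-a)) *
          (ENNReal.ofReal (Real.exp (μ0 * N)) * Zc A w0 N) +
        ENNReal.ofReal (C * θ * Real.exp (-b)) *
          (ENNReal.ofReal (Real.exp (μ1 * N)) * Zc A w1 N) := by
    intro N
    unfold Zc
    set I := ((N.factorial : ℝ≥0∞)⁻¹) with hI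
    have e : ENNReal.ofReal (Real.exp (μ * N)) *
        (I * ∫⁻ x in Set.pi Set.univ (fun _ : Fin N => A), ENNReal.ofReal (Real.exp (psum w x)))
        = I * ∫⁻ x in Set.pi Set.univ (fun _ : Fin N => A),
          ENNReal.ofReal (Real.exp (psum w x + μ * N)) := by
      rw [← mul_assoc, mul_comm (ENNReal.ofReal _), mul_assoc,
        ← lintegral_const_mul' _ _ ENNReal.ofReal_ne_top]
      congr 1
      refine lintegral_congr fun x => ?_
      rw [← ENNReal.ofReal_mul (Real.exp_pos _).le, ← Real.exp_add, add_comm]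
    have e' : ∀ (K ν : ℝ) (v : R3 → R3 → ℝ), 0 ≤ K → ENNReal.ofReal K *
        (ENNReal.ofReal (Real.exp (ν * N)) *
        (I * ∫⁻ x in Set.pi Set.univ (fun _ : Fin N => A), ENNReal.ofReal (Real.exp (psum v x))))
        = I * ∫⁻ x in Set.pi Set.univ (fun _ : Fin N => A),
          ENNReal.ofReal (K * Real.exp (psum v x + ν * N)) := by
      intro K ν v hK
      rw [show ENNReal.ofReal K * (ENNReal.ofReal (Real.exp (ν * N)) *
        (I * ∫⁻ x in Set.pi Set.univ (fun _ : Fin N => A), ENNReal.ofReal (Real.exp (psum v x))))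
        = I * (ENNReal.ofReal (K * Real.exp (ν * N)) *
         ∫⁻ x in Set.pi Set.univ (fun _ : Fin N => A), ENNReal.ofReal (Real.exp (psum v x))) by
          rw [ENNReal.ofReal_mul hK]; ring,
        ← lintegral_const_mul' _ _ ENNReal.ofReal_ne_top]
      congr 1
      refine lintegral_congr fun x => ?_
      rw [← ENNReal.ofReal_mul (by positivity), mul_assoc, ← Real.exp_add, add_comm]
    rw [e, e' _ _ _ (by have := sub_nonneg.2 hθ1; positivity), e' _ _ _ (by positivity),
      ← mul_add]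
    gcongr
    rw [← lintegral_add_left]
    · refine lintegral_mono_ae (ae_restrict_pi_inj hA N fun x hx hxA => ?_)
      rw [← ENNReal.ofReal_add (by have := sub_nonneg.2 hθ1; positivity) (by positivity)]
      refine ENNReal.ofReal_le_ofReal ?_
      have hh := h N x hx hxA
      set f := psum w0 x + μ0 * N
      set g := psum w1 x + μ1 * N
      have hconv := convexOn_exp.2 (Set.mem_univ (f - a)) (Set.mem_univ (g - b))
        (sub_nonneg.2 hθ1) hθ0 (by ring)
      simp only [smul_eq_mul] at hconv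
      calc Real.exp (psum w x + μ * N)
          ≤ Real.exp ((1 - θ) * f + θ * g) := Real.exp_le_exp.2 hh
        _ = C * Real.exp ((1 - θ) * (f - a) + θ * (g - b)) := by
            rw [hC, ← Real.exp_add]; ring_nf
        _ ≤ C * ((1 - θ) * Real.exp (f - a) + θ * Real.exp (g - b)) := by gcongr
        _ = _ := by
            rw [sub_eq_add_neg f a, sub_eq_add_neg g b, Real.exp_add f, Real.exp_add g]; ring
    · exact (((measurable_psum hw0 N).add_const _).exp.const_mul _).ennreal_ofReal
  have hsum : GZ A w μ ≤ ENNReal.ofReal C := by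
    calc GZ A w μ ≤ ∑' N : ℕ, (ENNReal.ofReal (C * (1 - θ) * Real.exp (-a)) *
          (ENNReal.ofReal (Real.exp (μ0 * N)) * Zc A w0 N) +
        ENNReal.ofReal (C * θ * Real.exp (-b)) *
          (ENNReal.ofReal (Real.exp (μ1 * N)) * Zc A w1 N)) := ENNReal.tsum_le_tsum key
      _ = ENNReal.ofReal (C * (1 - θ) * Real.exp (-a)) * GZ A w0 μ0 +
        ENNReal.ofReal (C * θ * Real.exp (-b)) * GZ A w1 μ1 := by
          rw [ENNReal.tsum_add, ENNReal.tsum_mul_left, ENNReal.tsum_mul_left]
          rfl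
      _ = ENNReal.ofReal (C * (1 - θ) * Real.exp (-a)) * ENNReal.ofReal (Real.exp a) +
        ENNReal.ofReal (C * θ * Real.exp (-b)) * ENNReal.ofReal (Real.exp b) := by
          rw [ea, eb, ENNReal.ofReal_toReal hf0, ENNReal.ofReal_toReal hf1]
      _ = ENNReal.ofReal C := by
          rw [← ENNReal.ofReal_mul (by have := sub_nonneg.2 hθ1; positivity),
            ← ENNReal.ofReal_mul (by positivity),
            ← ENNReal.ofReal_add (by have := sub_nonneg.2 hθ1; positivity) (by positivity)]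
          congr 1
          rw [mul_assoc (C * (1 - θ)), mul_assoc (C * θ), ← Real.exp_add, ← Real.exp_add]
          simp
          ring
  have hpos : 0 < (GZ A w μ).toReal :=
    ENNReal.toReal_pos (ne_of_gt (lt_of_lt_of_le one_pos (one_le_GZ _ _ _)))
      (ne_top_of_le_ne_top ENNReal.ofReal_ne_top hsum)
  rw [← Real.log_exp ((1 - θ) * a + θ * b)]
  refine Real.log_le_log hpos ?_
  rw [← hC, ← ENNReal.toReal_ofReal hCpos.le]
  exact ENNReal.toReal_mono ENNReal.ofReal_ne_top hsum

theorem GZ_le_exp {A : Set R3} (hA : MeasurableSet A) (hvol : volume A ≠ ∞)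
    {w : R3 → R3 → ℝ} {B : ℝ}
    (h : ∀ (N : ℕ) (x : Fin N → R3), Function.Injective x → (∀ i, x i ∈ A) →
      psum w x ≤ B * N) (μ : ℝ) :
    GZ A w μ ≤ ENNReal.ofReal (Real.exp ((volume A).toReal * Real.exp (μ + B))) := by
  have hZ : ∀ N : ℕ, ENNReal.ofReal (Real.exp (μ * N)) * Zc A w N ≤
      ENNReal.ofReal (((volume A).toReal * Real.exp (μ + B)) ^ N / N.factorial) := by
    intro N
    have h1 : ∫⁻ x in Set.pi Set.univ (fun _ : Fin N => A), ENNReal.ofReal (Real.exp (psum w x))
        ≤ ENNReal.ofReal (Real.exp (B * N)) * (volume A) ^ N := by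
      calc _ ≤ ∫⁻ x in Set.pi Set.univ (fun _ : Fin N => A), ENNReal.ofReal (Real.exp (B * N)) := by
            refine lintegral_mono_ae (ae_restrict_pi_inj hA N fun x hx hxA => ?_)
            exact ENNReal.ofReal_le_ofReal (Real.exp_le_exp.2 (h N x hx hxA))
        _ = _ := by
            rw [setLIntegral_const, volume_pi, Measure.pi_pi]
            simp
    unfold Zc
    calc _ ≤ ENNReal.ofReal (Real.exp (μ * N)) * ((N.factorial : ℝ≥0∞)⁻¹ *
          (ENNReal.ofReal (Real.exp (B * N)) * (volume A) ^ N)) := by gcongr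
      _ = _ := by
          rw [div_eq_mul_inv, mul_pow, ENNReal.ofReal_mul (by positivity),
            ENNReal.ofReal_mul (by positivity), ENNReal.ofReal_pow ENNReal.toReal_nonneg,
            ENNReal.ofReal_toReal hvol, ENNReal.ofReal_inv_of_pos (by positivity),
            ENNReal.ofReal_natCast, ← Real.exp_nat_mul, mul_comm (N : ℝ) (μ + B), add_mul,
            Real.exp_add, ENNReal.ofReal_mul (Real.exp_pos _).le]
          ring
  unfold GZ
  refine le_trans (ENNReal.tsum_le_tsum hZ) ?_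
  have hsum := NormedSpace.expSeries_div_hasSum_exp ((volume A).toReal * Real.exp (μ + B))
  rw [← Real.exp_eq_exp_ℝ] at hsum
  rw [← ENNReal.ofReal_tsum_of_nonneg (fun N => by positivity) hsum.summable, hsum.tsum_eq]

end Vale.Agent.P171
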