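import Mathlib

open MeasureTheory Filter Topology

namespace Vale.Agent.P171

/-- Euclidean three-space. -/
abbrev R3 := EuclideanSpace ℝ (Fin 3)

/-- `U_N(x_1, …, x_N) = ∑_{i < j} φ(|x_i - x_j|)`; an empty sum is `0`, so `U_0 = U_1 = 0`. -/
noncomputable def energy (φ : ℝ → ℝ) {N : ℕ} (x : Fin N → R3) : ℝ :=
  ∑ i : Fin N, ∑ j : Fin N, if i < j then φ ‖x i - x j‖ else 0

/-- A radial pair potential: Borel measurable and locally bounded on `(0, ∞)`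
(values at `r ≤ 0` play no role). -/
def IsPairPotential (φ : ℝ → ℝ) : Prop :=
  Measurable φ ∧ ∀ a b : ℝ, 0 < a → ∃ C : ℝ, ∀ r ∈ Set.Icc a b, |φ r| ≤ C

/-- Stability: `U_N ≥ -B N` for all `N` and all configurations of distinct points. -/
def Stable (φ : ℝ → ℝ) : Prop :=
  ∃ B : ℝ, ∀ (N : ℕ) (x : Fin N → R3), Function.Injective x → -(B * N) ≤ energy φ x

/-- Temperedness: `φ(r) ≤ C r^(-3-ε)` for `r ≥ R₀`. -/
def Tempered (φ : ℝ → ℝ) : Prop :=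
  ∃ C ε R₀ : ℝ, 0 < C ∧ 0 < ε ∧ 0 < R₀ ∧ ∀ r : ℝ, R₀ ≤ r → φ r ≤ C * r ^ (-3 - ε)

/-- The cube `Λ_L = [0, L]³`. -/
def box (L : ℝ) : Set R3 := {x | ∀ i, x i ∈ Set.Icc (0 : ℝ) L}

/-- `Λ_L^N`, the set of `N`-tuples of points of `Λ_L`. -/
def boxPow (L : ℝ) (N : ℕ) : Set (Fin N → R3) := {x | ∀ i, x i ∈ box L}

/-- `Z_{L,N}(β) = (1/N!) ∫_{Λ_L^N} exp(-β U_N(x)) dx`. -/
noncomputable def canonicalZ (φ : ℝ → ℝ) (β L : ℝ) (N : ℕ) : ℝ :=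
  (N.factorial : ℝ)⁻¹ * ∫ x in boxPow L N, Real.exp (-β * energy φ x)

/-- `∑_{N ≥ 0} z^N Z_{L,N}(β)`. -/
noncomputable def grandZ (φ : ℝ → ℝ) (β z L : ℝ) : ℝ :=
  ∑' N : ℕ, z ^ N * canonicalZ φ β L N

/-- `P` is the function `z ↦ Π(β, z) = lim_{L → ∞} L^{-3} log ∑_N z^N Z_{L,N}(β)` on `(0, ∞)`;
the integrals and the series defining the grand partition functions are required to converge. -/
def IsPressure (φ : ℝ → ℝ) (β : ℝ) (P : ℝ → ℝ) : Prop :=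
  (∀ (L : ℝ) (N : ℕ), IntegrableOn (fun x => Real.exp (-β * energy φ x)) (boxPow L N)) ∧
  (∀ z > 0, ∀ L > 0, Summable fun N : ℕ => z ^ N * canonicalZ φ β L N) ∧
  ∀ z > 0, Tendsto (fun L : ℝ => Real.log (grandZ φ β z L) / L ^ 3) atTop (𝓝 (P z))

end Vale.Agent.P171
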