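import Mathlib

open Filter Topology

namespace Vale.Agent.P171

/-- Ekeland's variational principle (weak form). -/
theorem ekeland {X : Type*} [MetricSpace X] [CompleteSpace X] [Nonempty X]
    (F : X → ℝ) (hF : LowerSemicontinuous F) (m : ℝ) (hm : ∀ x, m ≤ F x)
    (ε : ℝ) (hε : 0 < ε) : ∃ x, ∀ y, F x - ε * dist x y ≤ F y := by
  have hstep : ∀ (x : X) (n : ℕ), ∃ y, F y + ε * dist x y ≤ F x ∧
      ∀ z, F z + ε * dist x z ≤ F x → F y ≤ F z + (1 / 2 : ℝ) ^ n := by
    intro x n
    set S : Set X := {y | F y + ε * dist x y ≤ F x} with hS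
    have hne : (F '' S).Nonempty := ⟨F x, x, by simp [hS], rfl⟩
    have hbdd : BddBelow (F '' S) := ⟨m, by rintro _ ⟨y, -, rfl⟩; exact hm y⟩
    have hpos : (0 : ℝ) < (1 / 2 : ℝ) ^ n := by positivity
    obtain ⟨_, ⟨y, hy, rfl⟩, hlt⟩ := exists_lt_of_csInf_lt hne
      (lt_add_of_pos_right (sInf (F '' S)) hpos)
    refine ⟨y, hy, fun z hz => ?_⟩
    have h1 : sInf (F '' S) ≤ F z := csInf_le hbdd ⟨z, hz, rfl⟩
    linarith
  choose next hnext1 hnext2 using hstep
  obtain ⟨x0⟩ := ‹Nonempty X›
  let x : ℕ → X := fun n => Nat.rec x0 (fun k y => next y k) n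
  have hx1 : ∀ n, F (x (n + 1)) + ε * dist (x n) (x (n + 1)) ≤ F (x n) := fun n => hnext1 _ _
  have hx2 : ∀ n z, F z + ε * dist (x n) z ≤ F (x n) → F (x (n + 1)) ≤ F z + (1 / 2 : ℝ) ^ n :=
    fun n z hz => hnext2 _ _ z hz
  -- telescoping
  have htel : ∀ n k, F (x (n + k)) + ε * dist (x n) (x (n + k)) ≤ F (x n) := by
    intro n k
    induction k with
    | zero => simp
    | succ k ih =>
      have h1 := hx1 (n + k)
      have h2 := dist_triangle (x n) (x (n + k)) (x (n + k + 1))
      have h3 : ε * dist (x n) (x (n + k + 1))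
          ≤ ε * dist (x n) (x (n + k)) + ε * dist (x (n + k)) (x (n + k + 1)) := by
        rw [← mul_add]
        exact mul_le_mul_of_nonneg_left h2 hε.le
      rw [← add_assoc]
      linarith
  have hsum : ∀ n, ∑ i ∈ Finset.range n, ε * dist (x i) (x (i + 1)) ≤ F (x 0) - F (x n) := by
    intro n
    induction n with
    | zero => simp
    | succ n ih =>
      rw [Finset.sum_range_succ]
      have := hx1 n
      linarith
  have hsummable : Summable fun n => dist (x n) (x (n + 1)) := by
    have h1 : Summable fun n => ε * dist (x n) (x (n + 1)) := by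
      apply summable_of_sum_range_le (c := F (x 0) - m)
      · intro n
        positivity
      · intro n
        have := hsum n
        have := hm (x n)
        linarith
    exact (summable_mul_left_iff hε.ne').1 h1
  have hcauchy : CauchySeq x := cauchySeq_of_summable_dist hsummable
  obtain ⟨a, ha⟩ := cauchySeq_tendsto_of_complete hcauchy
  have hmem : ∀ n, F a + ε * dist (x n) a ≤ F (x n) := by
    intro n
    apply le_of_forall_pos_le_add
    intro δ hδ
    have h1 : ∀ᶠ k in atTop, F a - δ < F (x k) := ha.eventually (hF a (F a - δ) (by linarith))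
    have h2 : Tendsto (fun k => ε * dist (x n) (x k)) atTop (𝓝 (ε * dist (x n) a)) :=
      (tendsto_const_nhds.dist ha).const_mul ε
    have h3 : ∀ᶠ k in atTop, ε * dist (x n) (x k) ≤ F (x n) - F a + δ := by
      filter_upwards [h1, eventually_ge_atTop n] with k hk hnk
      obtain ⟨j, rfl⟩ := Nat.exists_eq_add_of_le hnk
      have := htel n j
      linarith
    have h4 := le_of_tendsto h2 h3
    linarith
  refine ⟨a, fun y => ?_⟩
  by_contra hcon
  push Not at hcon
  have hy : ∀ n, F y + ε * dist (x n) y ≤ F (x n) := by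
    intro n
    have h1 := hmem n
    have h2 := dist_triangle (x n) a y
    have h3 : ε * dist (x n) y ≤ ε * dist (x n) a + ε * dist a y := by
      rw [← mul_add]
      exact mul_le_mul_of_nonneg_left h2 hε.le
    linarith
  have hle : ∀ n : ℕ, F a ≤ F y + (1 / 2 : ℝ) ^ n := by
    intro n
    have h1 := hx2 n y (hy n)
    have h2 := hmem (n + 1)
    have h3 : 0 ≤ ε * dist (x (n + 1)) a := by positivity
    linarith
  have hlim : Tendsto (fun n : ℕ => F y + (1 / 2 : ℝ) ^ n) atTop (𝓝 (F y + 0)) :=
    tendsto_const_nhds.add (tendsto_pow_atTop_nhds_zero_of_lt_one (by norm_num) (by norm_num))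
  have h5 := ge_of_tendsto' hlim hle
  have h6 : 0 ≤ ε * dist a y := by positivity
  linarith

end Vale.Agent.P171
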