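import Vale.Agent.P171.Core

open MeasureTheory Filter Topology
open scoped ENNReal

namespace Vale.Agent.P171

section aux

variable {α : Type*} [MeasureSpace α]

/-- partition integral over a finite index type -/
noncomputable def II (ι : Type) [Fintype ι] (A : Set α) (w : α → α → ℝ) : ℝ≥0∞ :=
  ∫⁻ x in Set.pi Set.univ (fun _ : ι => A),
    ENNReal.ofReal (Real.exp (∑ i, ∑ j, w (x i) (x j)))

variable [SigmaFinite (volume : Measure α)]

theorem II_congr {ι κ : Type} [Fintype ι] [Fintype κ] (e : ι ≃ κ) (A : Set α) (w : α → α → ℝ) :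
    II ι A w = II κ A w := by
  unfold II
  have h := volume_measurePreserving_piCongrLeft (fun _ : κ => α) e
  rw [← h.setLIntegral_comp_preimage_emb (MeasurableEquiv.measurableEmbedding _)]
  rw [MeasurableEquiv.coe_piCongrLeft, Equiv.piCongrLeft_preimage_univ_pi]
  refine lintegral_congr fun x => ?_
  congr 2
  rw [← e.sum_comp]
  refine Finset.sum_congr rfl fun i _ => ?_
  rw [← e.sum_comp]
  refine Finset.sum_congr rfl fun j _ => ?_
  rw [Equiv.piCongrLeft_apply_apply, Equiv.piCongrLeft_apply_apply]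

omit [SigmaFinite (volume : Measure α)] in
theorem measurable_dsum {ι : Type} [Fintype ι] {w : α → α → ℝ}
    (hw : Measurable (Function.uncurry w)) :
    Measurable (fun x : ι → α => ∑ i, ∑ j, w (x i) (x j)) := by
  refine Finset.measurable_sum _ fun i _ => Finset.measurable_sum _ fun j _ => ?_
  have h1 : Measurable (fun x : ι → α => x i) := measurable_pi_apply i
  have h2 : Measurable (fun x : ι → α => x j) := measurable_pi_apply j
  exact hw.comp (h1.prodMk h2)

theorem II_mixed {ι : Type} [Fintype ι] (p : ι → Prop) [DecidablePred p]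
    {A B : Set α} (hA : MeasurableSet A) (hB : MeasurableSet B) {w : α → α → ℝ}
    (hw : Measurable (Function.uncurry w))
    (h0 : ∀ x ∈ A, ∀ y ∈ B, w x y = 0 ∧ w y x = 0) :
    ∫⁻ x in Set.pi Set.univ (fun i : ι => if p i then A else B),
      ENNReal.ofReal (Real.exp (∑ i, ∑ j, w (x i) (x j)))
      = II {i // p i} A w * II {i // ¬ p i} B w := by
  classical
  let e := MeasurableEquiv.piEquivPiSubtypeProd (fun _ : ι => α) p
  have he : MeasurePreserving e volume volume :=
    volume_preserving_piEquivPiSubtypeProd (fun _ : ι => α) p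
  let SA : Set ({i // p i} → α) := Set.pi Set.univ (fun _ => A)
  let SB : Set ({i // ¬ p i} → α) := Set.pi Set.univ (fun _ => B)
  have hSA : MeasurableSet SA := MeasurableSet.univ_pi fun _ => hA
  have hSB : MeasurableSet SB := MeasurableSet.univ_pi fun _ => hB
  let gA : ({i // p i} → α) → ℝ≥0∞ := fun y =>
    ENNReal.ofReal (Real.exp (∑ i, ∑ j, w (y i) (y j)))
  let gB : ({i // ¬ p i} → α) → ℝ≥0∞ := fun y =>
    ENNReal.ofReal (Real.exp (∑ i, ∑ j, w (y i) (y j)))
  have hset : Set.pi Set.univ (fun i : ι => if p i then A else B) = e ⁻¹' (SA ×ˢ SB) := by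
    ext x
    simp only [Set.mem_pi, Set.mem_univ, true_implies, Set.mem_preimage, Set.mem_prod, SA, SB]
    constructor
    · intro h
      refine ⟨fun i => ?_, fun i => ?_⟩
      · have := h i
        rw [if_pos i.2] at this
        exact this
      · have := h i
        rw [if_neg i.2] at this
        exact this
    · rintro ⟨h1, h2⟩ i
      by_cases hi : p i
      · rw [if_pos hi]
        exact h1 ⟨i, hi⟩
      · rw [if_neg hi]
        exact h2 ⟨i, hi⟩
  have hM : MeasurableSet (e ⁻¹' (SA ×ˢ SB)) := e.measurable (hSA.prod hSB)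
  have hfun : Set.EqOn (fun x : ι → α => ENNReal.ofReal (Real.exp (∑ i, ∑ j, w (x i) (x j))))
      (fun x => (fun z : ({i // p i} → α) × ({i // ¬ p i} → α) => gA z.1 * gB z.2) (e x))
      (e ⁻¹' (SA ×ˢ SB)) := by
    intro x hx
    have hxA : ∀ i : {i // p i}, x i ∈ A := fun i => hx.1 i (Set.mem_univ _)
    have hxB : ∀ i : {i // ¬ p i}, x i ∈ B := fun i => hx.2 i (Set.mem_univ _)
    have e1 : ∀ i : {i // p i}, (e x).1 i = x i := fun i => rfl
    have e2 : ∀ i : {i // ¬ p i}, (e x).2 i = x i := fun i => rfl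
    simp only [gA, gB]
    rw [← ENNReal.ofReal_mul (Real.exp_pos _).le, ← Real.exp_add]
    congr 2
    rw [← Fintype.sum_subtype_add_sum_subtype p (fun i => ∑ j, w (x i) (x j))]
    congr 1
    · refine Finset.sum_congr rfl fun i _ => ?_
      rw [← Fintype.sum_subtype_add_sum_subtype p (fun j => w (x i) (x j))]
      have : ∑ j : {j // ¬ p j}, w (x i) (x j) = 0 :=
        Finset.sum_eq_zero fun j _ => (h0 _ (hxA i) _ (hxB j)).1
      rw [this, add_zero]
      rfl
    · refine Finset.sum_congr rfl fun i _ => ?_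
      rw [← Fintype.sum_subtype_add_sum_subtype p (fun j => w (x i) (x j))]
      have : ∑ j : {j // p j}, w (x i) (x j) = 0 :=
        Finset.sum_eq_zero fun j _ => (h0 _ (hxA j) _ (hxB i)).2
      rw [this, zero_add]
      rfl
  rw [hset, setLIntegral_congr_fun hM hfun,
    he.setLIntegral_comp_preimage_emb (MeasurableEquiv.measurableEmbedding _)
      (fun z : ({i // p i} → α) × ({i // ¬ p i} → α) => gA z.1 * gB z.2)]
  rw [Measure.volume_eq_prod, ← Measure.prod_restrict]
  rw [lintegral_prod_mul]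
  · rfl
  · exact (measurable_dsum hw).exp.ennreal_ofReal.aemeasurable
  · exact (measurable_dsum hw).exp.ennreal_ofReal.aemeasurable

theorem Zc_union {A B : Set α} (hA : MeasurableSet A) (hB : MeasurableSet B)
    (hAB : Disjoint A B) {w : α → α → ℝ} (hw : Measurable (Function.uncurry w))
    (h0 : ∀ x ∈ A, ∀ y ∈ B, w x y = 0 ∧ w y x = 0) (N : ℕ) :
    Zc (A ∪ B) w N = ∑ kl ∈ Finset.HasAntidiagonal.antidiagonal N, Zc A w kl.1 * Zc B w kl.2 := by
  classical
  have hset : Set.pi Set.univ (fun _ : Fin N => A ∪ B) =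
      ⋃ J ∈ (Finset.univ : Finset (Finset (Fin N))),
        Set.pi Set.univ (fun i : Fin N => if i ∈ J then A else B) := by
    ext x
    simp only [Set.mem_pi, Set.mem_univ, true_implies, Set.mem_iUnion, Finset.mem_univ,
      exists_prop, true_and]
    constructor
    · intro h
      refine ⟨Finset.univ.filter fun i => x i ∈ A, fun i => ?_⟩
      by_cases hi : x i ∈ A
      · simp [hi]
      · simp only [Finset.mem_filter, Finset.mem_univ, true_and, hi, if_false]
        exact (h i).resolve_left hi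
    · rintro ⟨J, hJ⟩ i
      have := hJ i
      split_ifs at this
      · exact Or.inl this
      · exact Or.inr this
  have hdisj : Set.PairwiseDisjoint (↑(Finset.univ : Finset (Finset (Fin N))))
      (fun J : Finset (Fin N) => Set.pi Set.univ (fun i : Fin N => if i ∈ J then A else B)) := by
    intro J _ J' _ hne
    refine Set.disjoint_left.2 fun x hx hx' => hne ?_
    ext i
    have h1 := hx i (Set.mem_univ _)
    have h2 := hx' i (Set.mem_univ _)
    by_cases hi : i ∈ J
    · by_cases hi' : i ∈ J'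
      · simp [hi, hi']
      · simp only [hi, hi', if_true, if_false] at h1 h2
        exact absurd h2 (Set.disjoint_left.1 hAB h1)
    · by_cases hi' : i ∈ J'
      · simp only [hi, hi', if_true, if_false] at h1 h2
        exact absurd h1 (Set.disjoint_left.1 hAB h2)
      · simp [hi, hi']
  have hmeas : ∀ J ∈ (Finset.univ : Finset (Finset (Fin N))),
      MeasurableSet (Set.pi Set.univ (fun i : Fin N => if i ∈ J then A else B)) := by
    intro J _
    refine MeasurableSet.univ_pi fun i => ?_
    split_ifs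
    · exact hA
    · exact hB
  have hterm : ∀ J : Finset (Fin N),
      ∫⁻ x in Set.pi Set.univ (fun i : Fin N => if i ∈ J then A else B),
        ENNReal.ofReal (Real.exp (psum w x))
      = II (Fin J.card) A w * II (Fin (N - J.card)) B w := by
    intro J
    have h1 := II_mixed (fun i : Fin N => i ∈ J) hA hB hw h0
    have e1 : {i // i ∈ J} ≃ Fin J.card := J.equivFin
    have e2 : {i // ¬ i ∈ J} ≃ Fin (N - J.card) := by
      refine Fintype.equivFinOfCardEq ?_
      rw [Fintype.card_subtype_compl]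
      simp
    refine Eq.trans h1 ?_
    congr 1
    · exact (congrArg (fun inst => @II α _ {i // i ∈ J} inst A w)
        (Subsingleton.elim _ _)).trans (II_congr e1 A w)
    · exact II_congr e2 B w
  unfold Zc
  rw [hset, lintegral_biUnion_finset hdisj hmeas]
  simp_rw [hterm]
  have hsum := Finset.sum_powerset_apply_card
    (fun k => II (Fin k) A w * II (Fin (N - k)) B w) (x := (Finset.univ : Finset (Fin N)))
  rw [Finset.powerset_univ] at hsum
  rw [hsum, Finset.Nat.sum_antidiagonal_eq_sum_range_succ_mk, Finset.card_univ, Fintype.card_fin,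
    Finset.mul_sum]
  refine Finset.sum_congr rfl fun k hk => ?_
  have hk' : k ≤ N := by
    have := Finset.mem_range.1 hk
    omega
  have hchoose := Nat.choose_mul_factorial_mul_factorial hk'
  have hcoef : ((N.factorial : ℝ≥0∞))⁻¹ * (N.choose k : ℝ≥0∞) =
      ((k.factorial : ℝ≥0∞))⁻¹ * (((N - k).factorial : ℝ≥0∞))⁻¹ := by
    have hN0 : (N.factorial : ℝ≥0∞) ≠ 0 := by exact_mod_cast N.factorial_ne_zero
    have hNt : (N.factorial : ℝ≥0∞) ≠ ∞ := ENNReal.natCast_ne_top _
    have hk0 : (k.factorial : ℝ≥0∞) ≠ 0 := by exact_mod_cast k.factorial_ne_zero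
    have hkt : (k.factorial : ℝ≥0∞) ≠ ∞ := ENNReal.natCast_ne_top _
    have hl0 : ((N - k).factorial : ℝ≥0∞) ≠ 0 := by exact_mod_cast (N - k).factorial_ne_zero
    have hlt : ((N - k).factorial : ℝ≥0∞) ≠ ∞ := ENNReal.natCast_ne_top _
    have hc : (N.factorial : ℝ≥0∞) =
        (N.choose k : ℝ≥0∞) * (k.factorial : ℝ≥0∞) * ((N - k).factorial : ℝ≥0∞) := by
      rw [← hchoose]
      push_cast
      rfl
    rw [← ENNReal.mul_inv (Or.inl hk0) (Or.inl hkt)]
    apply ENNReal.eq_inv_of_mul_eq_one_left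
    · calc (N.factorial : ℝ≥0∞)⁻¹ * (N.choose k : ℝ≥0∞) *
            ((k.factorial : ℝ≥0∞) * ((N - k).factorial : ℝ≥0∞))
          = (N.factorial : ℝ≥0∞)⁻¹ * ((N.choose k : ℝ≥0∞) * (k.factorial : ℝ≥0∞) *
            ((N - k).factorial : ℝ≥0∞)) := by ring
        _ = 1 := by rw [← hc, ENNReal.inv_mul_cancel hN0 hNt]
  rw [nsmul_eq_mul, ← mul_assoc, hcoef]
  change _ = ((k.factorial : ℝ≥0∞)⁻¹ * II (Fin k) A w) *
    (((N - k).factorial : ℝ≥0∞)⁻¹ * II (Fin (N - k)) B w)
  ring

end aux

variable {α : Type*} [MeasureSpace α] [SigmaFinite (volume : Measure α)]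

theorem GZ_union {A B : Set α} (hA : MeasurableSet A) (hB : MeasurableSet B)
    (hAB : Disjoint A B) {w : α → α → ℝ} (hw : Measurable (Function.uncurry w))
    (h0 : ∀ x ∈ A, ∀ y ∈ B, w x y = 0 ∧ w y x = 0) (μ : ℝ) :
    GZ (A ∪ B) w μ = GZ A w μ * GZ B w μ := by
  unfold GZ
  have h1 : ∀ N : ℕ, ENNReal.ofReal (Real.exp (μ * N)) * Zc (A ∪ B) w N =
      ∑ kl ∈ Finset.HasAntidiagonal.antidiagonal N, (ENNReal.ofReal (Real.exp (μ * kl.1)) * Zc A w kl.1) *
        (ENNReal.ofReal (Real.exp (μ * kl.2)) * Zc B w kl.2) := by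
    intro N
    rw [Zc_union hA hB hAB hw h0, Finset.mul_sum]
    refine Finset.sum_congr rfl fun kl hkl => ?_
    have : (N : ℝ) = kl.1 + kl.2 := by
      rw [← Finset.HasAntidiagonal.mem_antidiagonal.1 hkl]
      push_cast
      rfl
    rw [this, mul_add, Real.exp_add, ENNReal.ofReal_mul (Real.exp_pos _).le]
    ring
  simp_rw [h1]
  set f : ℕ → ℝ≥0∞ := fun k => ENNReal.ofReal (Real.exp (μ * k)) * Zc A w k
  set g : ℕ → ℝ≥0∞ := fun k => ENNReal.ofReal (Real.exp (μ * k)) * Zc B w k
  change ∑' N, ∑ kl ∈ Finset.HasAntidiagonal.antidiagonal N, f kl.1 * g kl.2 = (∑' k, f k) * ∑' l, g l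
  have h2 : (∑' k, f k) * ∑' l, g l = ∑' p : ℕ × ℕ, f p.1 * g p.2 := by
    rw [ENNReal.tsum_prod', ← ENNReal.tsum_mul_right]
    refine tsum_congr fun k => ?_
    exact ENNReal.tsum_mul_left.symm
  rw [h2, ← Finset.HasAntidiagonal.sigmaAntidiagonalEquivProd.tsum_eq (fun p : ℕ × ℕ => f p.1 * g p.2),
    ENNReal.tsum_sigma']
  refine tsum_congr fun N => ?_
  rw [tsum_fintype, ← Finset.sum_finset_coe]
  rfl

omit [SigmaFinite (volume : Measure α)] in
theorem GZ_empty (w : α → α → ℝ) (μ : ℝ) : GZ (∅ : Set α) w μ = 1 := by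
  unfold GZ
  rw [tsum_eq_single 0]
  · unfold Zc
    have : (Set.pi Set.univ (fun _ : Fin 0 => (∅ : Set α))) = Set.univ := by
      ext x; simp
    rw [this]
    simp [psum, volume_pi]
  · intro N hN
    unfold Zc
    have : (Set.pi Set.univ (fun _ : Fin N => (∅ : Set α))) = ∅ := by
      ext x
      simp only [Set.mem_pi, Set.mem_univ, true_implies, Set.mem_empty_iff_false, iff_false]
      intro h
      exact h ⟨0, Nat.pos_of_ne_zero hN⟩
    rw [this]
    simp

theorem GZ_biUnion {ι : Type*} (T : Finset ι) (B : ι → Set α)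
    (hB : ∀ b ∈ T, MeasurableSet (B b))
    (hd : ∀ b ∈ T, ∀ c ∈ T, b ≠ c → Disjoint (B b) (B c))
    {w : α → α → ℝ} (hw : Measurable (Function.uncurry w))
    (h0 : ∀ b ∈ T, ∀ c ∈ T, b ≠ c → ∀ x ∈ B b, ∀ y ∈ B c, w x y = 0) (μ : ℝ) :
    GZ (⋃ b ∈ T, B b) w μ = ∏ b ∈ T, GZ (B b) w μ := by
  classical
  induction T using Finset.induction_on with
  | empty => simp [GZ_empty]
  | insert b T hb ih =>
    rw [Finset.set_biUnion_insert, Finset.prod_insert hb]
    have hne : ∀ c ∈ T, b ≠ c := fun c hc h => hb (h ▸ hc)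
    rw [GZ_union (hB b (Finset.mem_insert_self _ _))
      (Finset.measurableSet_biUnion _ fun c hc => hB c (Finset.mem_insert_of_mem hc)) _ hw _ μ]
    · rw [ih (fun c hc => hB c (Finset.mem_insert_of_mem hc))
        (fun c hc d hd' => hd c (Finset.mem_insert_of_mem hc) d (Finset.mem_insert_of_mem hd'))
        (fun c hc d hd' => h0 c (Finset.mem_insert_of_mem hc) d (Finset.mem_insert_of_mem hd'))]
    · rw [Set.disjoint_iUnion₂_right]
      intro c hc
      exact hd b (Finset.mem_insert_self _ _) c (Finset.mem_insert_of_mem hc) (hne c hc)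
    · intro x hx y hy
      obtain ⟨c, hc, hyc⟩ := Set.mem_iUnion₂.1 hy
      exact ⟨h0 b (Finset.mem_insert_self _ _) c (Finset.mem_insert_of_mem hc) (hne c hc) x hx y hyc,
        h0 c (Finset.mem_insert_of_mem hc) b (Finset.mem_insert_self _ _) (hne c hc).symm y hyc x hx⟩

omit [SigmaFinite (volume : Measure α)] in
theorem GZ_congr {A : Set α} (hA : MeasurableSet A) {w w' : α → α → ℝ}
    (h : ∀ x ∈ A, ∀ y ∈ A, w x y = w' x y) (μ : ℝ) : GZ A w μ = GZ A w' μ := by
  unfold GZ Zc
  refine tsum_congr fun N => ?_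
  congr 2
  refine setLIntegral_congr_fun (MeasurableSet.univ_pi fun _ => hA) fun x hx => ?_
  simp only [psum]
  congr 2
  refine Finset.sum_congr rfl fun i _ => Finset.sum_congr rfl fun j _ => ?_
  exact h _ (hx i (Set.mem_univ _)) _ (hx j (Set.mem_univ _))

theorem GZ_translate (v : R3) {A : Set R3} (hA : MeasurableSet A) {w w' : R3 → R3 → ℝ}
    (h : ∀ x ∈ A, ∀ y ∈ A, w' (x + v) (y + v) = w x y) (μ : ℝ) :
    GZ ((fun x => x + v) '' A) w' μ = GZ A w μ := by
  unfold GZ Zc
  refine tsum_congr fun N => ?_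
  congr 2
  have hmA : MeasurableSet (Set.pi Set.univ (fun _ : Fin N => A)) :=
    MeasurableSet.univ_pi fun _ => hA
  have himg : MeasurableSet ((fun x : R3 => x + v) '' A) := by
    have : (fun x : R3 => x + v) '' A = (fun x : R3 => x - v) ⁻¹' A := by
      ext x
      simp only [Set.mem_image, Set.mem_preimage]
      constructor
      · rintro ⟨y, hy, rfl⟩
        simpa using hy
      · intro hx
        exact ⟨x - v, hx, by simp⟩
    rw [this]
    exact (measurable_id.sub_const v) hA
  have hmI : MeasurableSet (Set.pi Set.univ (fun _ : Fin N => (fun x : R3 => x + v) '' A)) :=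
    MeasurableSet.univ_pi fun _ => himg
  rw [← lintegral_indicator hmI, ← lintegral_indicator hmA,
    ← lintegral_add_right_eq_self _ (fun _ : Fin N => v)]
  refine lintegral_congr fun x => ?_
  by_cases hx : x ∈ Set.pi Set.univ (fun _ : Fin N => A)
  · have hx' : x + (fun _ : Fin N => v) ∈
        Set.pi Set.univ (fun _ : Fin N => (fun x : R3 => x + v) '' A) := by
      intro i _
      exact ⟨x i, hx i (Set.mem_univ _), rfl⟩
    rw [Set.indicator_of_mem hx, Set.indicator_of_mem hx']
    simp only [psum]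
    congr 2
    refine Finset.sum_congr rfl fun i _ => Finset.sum_congr rfl fun j _ => ?_
    exact h _ (hx i (Set.mem_univ _)) _ (hx j (Set.mem_univ _))
  · have hx' : x + (fun _ : Fin N => v) ∉
        Set.pi Set.univ (fun _ : Fin N => (fun x : R3 => x + v) '' A) := by
      intro hc
      apply hx
      intro i _
      obtain ⟨y, hy, hyx⟩ := hc i (Set.mem_univ _)
      have : y = x i := by
        simpa using hyx
      rw [← this]
      exact hy
    rw [Set.indicator_of_notMem hx, Set.indicator_of_notMem hx']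

end Vale.Agent.P171
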