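import Vale.Agent.P171.Star2
import Vale.Agent.P171.Ekeland

open MeasureTheory Filter Topology
open scoped ENNReal

namespace Vale.Agent.P171

/-- the space `ℓ¹` -/
abbrev L1 := lp (fun _ : ℕ => ℝ) 1

theorem l1_summable (f : L1) : Summable fun k => |f k| := by
  have := (lp.memℓp f).summable (by simp)
  simpa using this

theorem l1_norm (f : L1) : ‖f‖ = ∑' k, |f k| := by
  rw [lp.norm_eq_tsum_rpow (by simp)]
  simp

/-- the cone of nonnegative sequences -/
def Cone : Set L1 := {t | ∀ k, 0 ≤ t k}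

theorem isClosed_cone : IsClosed Cone := by
  have : Cone = ⋂ k, {t : L1 | 0 ≤ t k} := by ext t; simp [Cone]
  rw [this]
  refine isClosed_iInter fun k => ?_
  exact isClosed_le continuous_const ((lp.evalCLM ℝ (fun _ : ℕ => ℝ) 1 k).continuous)

theorem good_cone (t : Cone) : Good (fun k => t.1 k) :=
  ⟨(l1_summable t.1).of_abs, t.2⟩

/-- turn a good sequence into a point of the cone -/
noncomputable def toCone {t : ℕ → ℝ} (h : Good t) : Cone :=
  ⟨⟨t, memℓp_gen (by simpa using h.summable.abs)⟩, h.nonneg⟩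

theorem toCone_apply {t : ℕ → ℝ} (h : Good t) (k : ℕ) : (toCone h).1 k = t k := rfl

instance : CompleteSpace Cone := isClosed_cone.completeSpace_coe

instance : Nonempty Cone := ⟨⟨0, fun k => by simp⟩⟩

theorem l1_dist (t u : L1) : ‖t - u‖ = ∑' k, |t k - u k| := by
  rw [l1_norm]
  rfl

/-- the functional to which Ekeland's principle is applied -/
noncomputable def Fun (lam : ℝ) (x : ℝ × Cone) : ℝ :=
  pres (fun k => x.2.1 k) x.1 - lam * (x.1 / 8 + (∑' k, x.2.1 k) / 1024)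

theorem Fun_lsc {lam : ℝ} (h0 : 0 ≤ lam) (h1 : lam ≤ 1) : LowerSemicontinuous (Fun lam) := by
  intro x y hy
  obtain ⟨C, hC, hlip⟩ := pres_lip (‖x.2.1‖ + 1) (|x.1| + 1) (by positivity)
  have hgap : 0 < Fun lam x - y := sub_pos.2 hy
  set r := min (1 / 2) ((Fun lam x - y) / (2 * C + 2)) with hr
  have hrpos : 0 < r := lt_min (by norm_num) (by positivity)
  filter_upwards [Metric.ball_mem_nhds x hrpos] with z hz
  rw [Metric.mem_ball, Prod.dist_eq] at hz
  have hz1 : |z.1 - x.1| < r := by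
    have := (le_max_left _ _).trans_lt hz
    rwa [Real.dist_eq] at this
  have hz2 : ∑' k, |z.2.1 k - x.2.1 k| < r := by
    have := (le_max_right _ _).trans_lt hz
    rwa [Subtype.dist_eq, dist_eq_norm, l1_dist] at this
  have hr1 : r ≤ 1 / 2 := min_le_left _ _
  have hr2 : (2 * C + 2) * r ≤ Fun lam x - y := by
    have := min_le_right (1 / 2) ((Fun lam x - y) / (2 * C + 2))
    rw [← hr, le_div_iff₀ (by positivity)] at this
    linarith
  have hgx := good_cone x.2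
  have hgz := good_cone z.2
  have hsymm : ∑' k, |x.2.1 k - z.2.1 k| = ∑' k, |z.2.1 k - x.2.1 k| :=
    tsum_congr fun k => abs_sub_comm _ _
  have hzT : ∑' k, z.2.1 k ≤ ‖x.2.1‖ + 1 := by
    have e1 : ∑' k, z.2.1 k = ‖z.2.1‖ := by
      rw [l1_norm]
      exact tsum_congr fun k => (abs_of_nonneg (z.2.2 k)).symm
    have e2 : ‖z.2.1‖ ≤ ‖x.2.1‖ + ‖z.2.1 - x.2.1‖ := by
      have := norm_add_le x.2.1 (z.2.1 - x.2.1)
      simpa using this
    rw [l1_dist] at e2
    linarith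
  have hzK : |z.1| ≤ |x.1| + 1 := by
    have := abs_add_le x.1 (z.1 - x.1)
    have e : x.1 + (z.1 - x.1) = z.1 := by ring
    rw [e] at this
    linarith
  have hL := hlip (fun k => z.2.1 k) (fun k => x.2.1 k) hgz hgx hzT z.1 x.1 hzK (by
    rw [hsymm, abs_sub_comm x.1 z.1]; linarith)
  rw [hsymm, abs_sub_comm x.1 z.1] at hL
  have hL2 : C * (∑' k, |z.2.1 k - x.2.1 k| + |z.1 - x.1|) ≤ C * (2 * r) := by
    gcongr; linarith
  have hsub : Summable fun k => |z.2.1 k - x.2.1 k| := (hgz.summable.sub hgx.summable).abs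
  have hsum : ∑' k, z.2.1 k - ∑' k, x.2.1 k ≤ r := by
    rw [← hgz.summable.tsum_sub hgx.summable]
    refine le_trans ?_ hz2.le
    exact (hgz.summable.sub hgx.summable).tsum_le_tsum (fun k => le_abs_self _) hsub
  have hlin : lam * (z.1 / 8 + (∑' k, z.2.1 k) / 1024) ≤
      lam * (x.1 / 8 + (∑' k, x.2.1 k) / 1024) + (r / 8 + r / 1024) := by
    have h3 : z.1 / 8 + (∑' k, z.2.1 k) / 1024 ≤
        x.1 / 8 + (∑' k, x.2.1 k) / 1024 + (r / 8 + r / 1024) := by
      have := le_abs_self (z.1 - x.1)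
      linarith
    have h4 := mul_le_mul_of_nonneg_left h3 h0
    have h5 : lam * (r / 8 + r / 1024) ≤ 1 * (r / 8 + r / 1024) := by gcongr
    linarith
  show y < Fun lam z
  unfold Fun at *
  linarith

theorem Fun_nonneg {lam : ℝ} (h0 : 0 ≤ lam) (h1 : lam ≤ 1) (x : ℝ × Cone) : 0 ≤ Fun lam x := by
  unfold Fun
  have hP := (pres_spec (good_cone x.2) x.1).2.2
  have hA := pres_lower (good_cone x.2) x.1
  have h3 := mul_le_mul_of_nonneg_left hA h0
  have h4 := mul_le_mul_of_nonneg_right h1 hP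
  linarith

theorem exists_ekeland {lam ε : ℝ} (h0 : 0 ≤ lam) (h1 : lam ≤ 1) (hε : 0 < ε) :
    ∃ (t : ℕ → ℝ) (μ : ℝ), Good t ∧
      (∀ ν : ℝ, pres t μ - lam * (μ / 8) - ε * |ν - μ| ≤ pres t ν - lam * (ν / 8)) ∧
      (∀ (k : ℕ) (s : ℝ), 0 ≤ s → pres t μ + lam * (s / 1024) - ε * s ≤
        pres (fun j => t j + if j = k then s else 0) μ) := by
  obtain ⟨x, hx⟩ := ekeland (Fun lam) (Fun_lsc h0 h1) 0 (Fun_nonneg h0 h1) ε hε
  have hg := good_cone x.2
  refine ⟨fun k => x.2.1 k, x.1, hg, fun ν => ?_, fun k s hs => ?_⟩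
  · have h := hx (ν, x.2)
    have hd : dist x (ν, x.2) = |ν - x.1| := by
      rw [Prod.dist_eq, dist_self, Real.dist_eq, abs_sub_comm]
      exact max_eq_left (abs_nonneg _)
    rw [hd] at h
    unfold Fun at h
    simp only at h
    linarith
  · have hs' := hg.add (good_single hs k)
    have h := hx (x.1, toCone hs')
    have hd : dist x (x.1, toCone hs') = s := by
      rw [Prod.dist_eq, dist_self, Subtype.dist_eq, dist_eq_norm, l1_dist]
      have : ∀ j, |x.2.1 j - (toCone hs').1 j| = if j = k then s else 0 := by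
        intro j
        rw [toCone_apply]
        split_ifs
        · rw [show x.2.1 j - (x.2.1 j + s) = -s by ring, abs_neg, abs_of_nonneg hs]
        · simp
      simp_rw [this, tsum_ite_eq]
      exact max_eq_right hs
    rw [hd] at h
    unfold Fun at h
    have e1 : ∑' j, (toCone hs').1 j = (∑' j, x.2.1 j) + s := by
      have : ∀ j, (toCone hs').1 j = x.2.1 j + if j = k then s else 0 := fun j => rfl
      simp_rw [this]
      rw [hg.summable.tsum_add (good_single hs k).summable, tsum_ite_eq]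
    simp only at h
    rw [e1] at h
    have e2 : (fun j => (toCone hs').1 j) = fun j => x.2.1 j + if j = k then s else 0 := rfl
    rw [e2] at h
    linarith

theorem exists_not_differentiable : ∃ (t : ℕ → ℝ) (μ : ℝ), Good t ∧
    ¬ DifferentiableAt ℝ (fun ν => pres t ν) μ := by
  obtain ⟨t, μ, ht, hν, hk⟩ := exists_ekeland (lam := 1 / 1000) (ε := 1 / 10 ^ 8)
    (by norm_num) (by norm_num) (by norm_num)
  refine ⟨t, μ, ht, fun hdiff => ?_⟩
  have hd := hdiff.hasDerivAt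
  set ρ := deriv (fun ν => pres t ν) μ with hρ
  -- slope bounds
  have hslope := hd.tendsto_slope_zero
  have hρ0 : 0 ≤ ρ := by
    have h1 := hslope.mono_left (nhdsWithin_mono 0 (fun x (hx : 0 < x) => ne_of_gt hx) :
      𝓝[Set.Ioi 0] (0 : ℝ) ≤ 𝓝[≠] 0)
    refine ge_of_tendsto h1 ?_
    filter_upwards [self_mem_nhdsWithin] with h hh
    have hh' : (0 : ℝ) < h := hh
    have := pres_mono ht ht (fun _ => le_rfl) (by linarith : μ ≤ μ + h)
    rw [smul_eq_mul]
    exact mul_nonneg (inv_nonneg.2 hh'.le) (by linarith)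
  have hρ1 : ρ ≤ 1 / 8000 + 1 / 10 ^ 8 := by
    have h1 := hslope.mono_left (nhdsWithin_mono 0 (fun x (hx : x < 0) => ne_of_lt hx) :
      𝓝[Set.Iio 0] (0 : ℝ) ≤ 𝓝[≠] 0)
    refine le_of_tendsto h1 ?_
    filter_upwards [self_mem_nhdsWithin] with h hh
    have hh' : h < 0 := hh
    have h2 := hν (μ + h)
    have e : |μ + h - μ| = -h := by
      rw [add_sub_cancel_left, abs_of_neg hh']
    rw [e] at h2
    rw [smul_eq_mul]
    have h3 : (1 / 8000 + 1 / 10 ^ 8) * h ≤ pres t (μ + h) - pres t μ := by linarith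
    have h4 : h⁻¹ * (pres t (μ + h) - pres t μ) ≤ h⁻¹ * ((1 / 8000 + 1 / 10 ^ 8) * h) :=
      mul_le_mul_of_nonpos_left h3 (inv_nonpos.2 hh'.le)
    refine h4.trans (le_of_eq ?_)
    have hne : h ≠ 0 := hh'.ne
    field_simp
  have hh0 : ∃ h0 : ℝ, 0 < h0 ∧ pres t (μ + h0) ≤ pres t μ + h0 * (ρ + (1 / 10 ^ 6) / 2) := by
    have h1 := hslope.mono_left (nhdsWithin_mono 0 (fun x (hx : 0 < x) => ne_of_gt hx) :
      𝓝[Set.Ioi 0] (0 : ℝ) ≤ 𝓝[≠] 0)
    have h2 := h1.eventually (gt_mem_nhds (by norm_num : ρ < ρ + (1 / 10 ^ 6) / 2))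
    obtain ⟨h0, h3, h4⟩ := (h2.and self_mem_nhdsWithin).exists
    have h4' : (0 : ℝ) < h0 := h4
    refine ⟨h0, h4', ?_⟩
    rw [smul_eq_mul, inv_mul_lt_iff₀ h4'] at h3
    linarith
  obtain ⟨h0, hh0pos, hder⟩ := hh0
  obtain ⟨σ0, hσ0, hstar⟩ := star ht μ hρ0 (by norm_num : (0 : ℝ) < 1 / 10 ^ 6) hh0pos hder
  set s := 2 / 27 * σ0 with hs
  have hspos : 0 < s := by positivity
  have hη : 0 < s * (1 / 10 ^ 8) := by positivity
  obtain ⟨k, hk1⟩ := (hstar s hspos.le (by rw [hs]; linarith) (s * (1 / 10 ^ 8)) hη).exists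
  have hk2 := hk (k + 1) s hspos.le
  have h5 : 1 / 1000 * (s / 1024) - 1 / 10 ^ 8 * s ≤
      27 / 2 * s * (ρ + 1 / 10 ^ 6) ^ 2 + s * (1 / 10 ^ 8) := by linarith
  have h6 : (ρ + 1 / 10 ^ 6) ^ 2 ≤ (1 / 8000 + 1 / 10 ^ 8 + 1 / 10 ^ 6) ^ 2 := by
    gcongr
  have h7 : 27 / 2 * s * (ρ + 1 / 10 ^ 6) ^ 2 ≤
      27 / 2 * s * (1 / 8000 + 1 / 10 ^ 8 + 1 / 10 ^ 6) ^ 2 := by gcongr
  nlinarith

end Vale.Agent.P171
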