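import Vale.Agent.P171.Kernel

open MeasureTheory Filter Topology
open scoped ENNReal

namespace Vale.Agent.P171

/-- difference set -/
noncomputable def Dset (R : ℕ) : Finset (Fin 3 → ℤ) := Fintype.piFinset fun _ => Finset.Icc (-(R : ℤ)) R

theorem mem_Dset {R : ℕ} {d : Fin 3 → ℤ} : d ∈ Dset R ↔ ∀ i, -(R : ℤ) ≤ d i ∧ d i ≤ R := by
  simp [Dset, Fintype.mem_piFinset]

theorem card_Dset (R : ℕ) : (Dset R).card = (2 * R + 1) ^ 3 := by
  unfold Dset
  rw [Fintype.card_piFinset]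
  simp only [Int.card_Icc, Finset.prod_const, Finset.card_univ, Fintype.card_fin]
  congr 1
  omega

theorem card_Dset_le (R : ℕ) (hR : 1 ≤ R) : ((Dset R).card : ℝ) ≤ 27 * (R : ℝ) ^ 3 := by
  rw [card_Dset]
  have h : (2 * R + 1) ^ 3 ≤ 27 * R ^ 3 := by
    calc (2 * R + 1) ^ 3 ≤ (3 * R) ^ 3 := Nat.pow_le_pow_left (by omega) 3
      _ = 27 * R ^ 3 := by ring
  exact_mod_cast h

theorem cell_diff {R : ℕ} {x y : R3} (h : ‖x - y‖ ≤ R) : cell y - cell x ∈ Dset R := by
  rw [mem_Dset]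
  intro i
  have h1 : |x i - y i| ≤ R := by
    have := PiLp.norm_apply_le (x - y) i
    simp only [PiLp.sub_apply, Real.norm_eq_abs] at this
    exact this.trans h
  rw [abs_le] at h1
  simp only [cell, Pi.sub_apply]
  have a1 := Int.floor_le (x i)
  have a2 := Int.lt_floor_add_one (x i)
  have b1 := Int.floor_le (y i)
  have b2 := Int.lt_floor_add_one (y i)
  constructor
  · have : ((⌊x i⌋ : ℤ) : ℝ) < ((⌊y i⌋ + R + 1 : ℤ) : ℝ) := by
      push_cast
      linarith
    have := Int.cast_lt.1 this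
    omega
  · have : ((⌊y i⌋ : ℤ) : ℝ) < ((⌊x i⌋ + R + 1 : ℤ) : ℝ) := by
      push_cast
      linarith
    have := Int.cast_lt.1 this
    omega

theorem g_chi_nonneg (R : ℕ) (r : ℝ) : 0 ≤ chi R r := by
  unfold chi
  split_ifs
  · positivity
  · exact le_rfl

theorem g_chi_le_one (R : ℕ) (r : ℝ) : chi R r ≤ 1 := by
  unfold chi
  split_ifs with h
  · have hR : (1 : ℝ) ≤ R := by
      have : (0 : ℝ) < R := lt_of_lt_of_le h.1 h.2
      exact_mod_cast Nat.one_le_iff_ne_zero.2 (by rintro rfl; simp at this)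
    exact inv_le_one_of_one_le₀ (one_le_pow₀ hR)
  · exact zero_le_one

theorem g_phi0_nonneg (r : ℝ) : 0 ≤ phi0 r := by
  unfold phi0
  split_ifs with h
  · have := h.1
    positivity
  · exact le_rfl

/-- same subcell: the distance is at most `√3 / m`, so the core is at least `m^6/27` -/
theorem phi0_sub (m : ℕ) (hm : 2 ≤ m) {x y : R3} (hxy : x ≠ y)
    (h : ∀ k, ⌊(m : ℝ) * x k⌋ = ⌊(m : ℝ) * y k⌋) : (m : ℝ) ^ 6 / 27 ≤ phi0 ‖x - y‖ := by
  have hm' : (2 : ℝ) ≤ m := by exact_mod_cast hm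
  have hm0 : (0 : ℝ) < m := by linarith
  have hpos : 0 < ‖x - y‖ := norm_pos_iff.2 (sub_ne_zero.2 hxy)
  have hk : ∀ k, (m : ℝ) ^ 2 * (x k - y k) ^ 2 ≤ 1 := by
    intro k
    have a1 := Int.floor_le ((m : ℝ) * x k)
    have a2 := Int.lt_floor_add_one ((m : ℝ) * x k)
    have b1 := Int.floor_le ((m : ℝ) * y k)
    have b2 := Int.lt_floor_add_one ((m : ℝ) * y k)
    rw [h k] at a1 a2
    have h1 : |(m : ℝ) * (x k - y k)| ≤ 1 := by
      rw [abs_le]
      constructor <;> nlinarith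
    rw [← mul_pow]
    rw [← sq_abs]
    exact pow_le_one₀ (abs_nonneg _) h1
  have hsq : (m : ℝ) ^ 2 * ‖x - y‖ ^ 2 ≤ 3 := by
    rw [EuclideanSpace.real_norm_sq_eq, Fin.sum_univ_three]
    simp only [PiLp.sub_apply]
    have := hk 0
    have := hk 1
    have := hk 2
    nlinarith
  have hlt : ‖x - y‖ < 1 := by
    by_contra hc
    push Not at hc
    have : (1 : ℝ) ≤ ‖x - y‖ ^ 2 := one_le_pow₀ hc
    nlinarith
  unfold phi0
  rw [if_pos ⟨hpos, hlt⟩, inv_pow, ← one_div, div_le_div_iff₀ (by norm_num) (by positivity)]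
  have h2 : ((m : ℝ) ^ 2 * ‖x - y‖ ^ 2) ^ 3 ≤ 3 ^ 3 := pow_le_pow_left₀ (by positivity) hsq 3
  calc (m : ℝ) ^ 6 * ‖x - y‖ ^ 6 = ((m : ℝ) ^ 2 * ‖x - y‖ ^ 2) ^ 3 := by ring
    _ ≤ 3 ^ 3 := h2
    _ = 1 * 27 := by norm_num

/-- K1: superstability of the core. Split every unit cell into `m^3` subcells. -/
theorem superstable (m : ℕ) (hm : 2 ≤ m) {N : ℕ} (x : Fin N → R3) (hx : Function.Injective x) :
    (m : ℝ) ^ 3 / 27 * S x - (m : ℝ) ^ 6 / 27 * N ≤ ∑ i, ∑ j, phi0 ‖x i - x j‖ := by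
  classical
  have hm' : (2 : ℝ) ≤ m := by exact_mod_cast hm
  have hm0 : (0 : ℝ) < m := by linarith
  let d : Fin N → (Fin 3 → ℤ) := fun i k => ⌊(m : ℝ) * x i k⌋ - m * ⌊x i k⌋
  let T : Finset (Fin 3 → ℤ) := Fintype.piFinset fun _ => Finset.Ico (0 : ℤ) m
  have hT : T.card = m ^ 3 := by
    simp only [T]
    rw [Fintype.card_piFinset]
    simp
  have hd : ∀ i, d i ∈ T := by
    intro i
    simp only [T, d, Fintype.mem_piFinset, Finset.mem_Ico]
    intro k
    have a1 := Int.floor_le (x i k)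
    have a2 := Int.lt_floor_add_one (x i k)
    have b1 := Int.floor_le ((m : ℝ) * x i k)
    constructor
    · have : (m : ℤ) * ⌊x i k⌋ ≤ ⌊(m : ℝ) * x i k⌋ := by
        rw [Int.le_floor]
        push_cast
        nlinarith
      linarith
    · have : ((⌊(m : ℝ) * x i k⌋ : ℤ) : ℝ) < (((m : ℤ) * ⌊x i k⌋ + m : ℤ) : ℝ) := by
        push_cast
        nlinarith
      have := Int.cast_lt.1 this
      linarith
  have h1 := same_sum_le (fun i => cell (x i)) d T hd
  rw [hT] at h1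
  set Q : ℝ := ∑ i, ∑ j, if (cell (x i) = cell (x j) ∧ d i = d j) then (1 : ℝ) else 0 with hQ
  have hS : S x ≤ (m : ℝ) ^ 3 * Q := by
    unfold S
    refine (le_of_eq ?_).trans (h1.trans (le_of_eq ?_))
    · refine Finset.sum_congr rfl fun i _ => Finset.sum_congr rfl fun j _ => ?_
      split_ifs <;> rfl
    · push_cast
      rfl
  have h2 : (m : ℝ) ^ 6 / 27 * (Q - N) ≤ ∑ i, ∑ j, phi0 ‖x i - x j‖ := by
    have h3 : (N : ℝ) = ∑ i : Fin N, ∑ j : Fin N, if i = j then (1 : ℝ) else 0 := by simp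
    rw [hQ, h3, ← Finset.sum_sub_distrib, Finset.mul_sum]
    refine Finset.sum_le_sum fun i _ => ?_
    rw [← Finset.sum_sub_distrib, Finset.mul_sum]
    refine Finset.sum_le_sum fun j _ => ?_
    by_cases hij : i = j
    · subst hij
      simp [phi0]
    · rw [if_neg hij, sub_zero]
      by_cases hc : cell (x i) = cell (x j) ∧ d i = d j
      · rw [if_pos hc, mul_one]
        refine phi0_sub m hm (fun h => hij (hx h)) fun k => ?_
        have e1 := congrFun hc.1 k
        have e2 := congrFun hc.2 k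
        simp only [cell, d] at e1 e2
        rw [e1] at e2
        linarith
      · rw [if_neg hc, mul_zero]
        exact g_phi0_nonneg _
  have h4 : (m : ℝ) ^ 3 / 27 * S x ≤ (m : ℝ) ^ 6 / 27 * Q := by
    calc (m : ℝ) ^ 3 / 27 * S x ≤ (m : ℝ) ^ 3 / 27 * ((m : ℝ) ^ 3 * Q) := by gcongr
      _ = (m : ℝ) ^ 6 / 27 * Q := by ring
  linarith

/-- K2 -/
theorem chi_sum_le (R : ℕ) (hR : 1 ≤ R) {N : ℕ} (x : Fin N → R3) :
    ∑ i, ∑ j, chi R ‖x i - x j‖ ≤ 27 * S x := by
  classical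
  have hR0 : (0 : ℝ) < R := by exact_mod_cast hR
  have h1 := near_sum (Dset R) (fun i => cell (x i)) (fun _ => True)
  have h2 : ∑ i, ∑ j, chi R ‖x i - x j‖ ≤ ((R : ℝ) ^ 3)⁻¹ *
      ∑ i, ∑ j, if (True ∧ True ∧ cell (x j) - cell (x i) ∈ Dset R) then (1 : ℝ) else 0 := by
    rw [Finset.mul_sum]
    refine Finset.sum_le_sum fun i _ => ?_
    rw [Finset.mul_sum]
    refine Finset.sum_le_sum fun j _ => ?_
    unfold chi
    by_cases h : 0 < ‖x i - x j‖ ∧ ‖x i - x j‖ ≤ R
    · rw [if_pos h, if_pos ⟨trivial, trivial, cell_diff h.2⟩, mul_one]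
    · rw [if_neg h]
      split_ifs <;> positivity
  have h3 : (∑ i, ∑ j, if (cell (x i) = cell (x j) ∧ True) then (1 : ℝ) else 0) = S x := by
    unfold S
    refine Finset.sum_congr rfl fun i _ => Finset.sum_congr rfl fun j _ => ?_
    simp
  rw [h3] at h1
  have hS : 0 ≤ S x := by
    unfold S
    refine Finset.sum_nonneg fun i _ => Finset.sum_nonneg fun j _ => ?_
    split_ifs <;> norm_num
  calc ∑ i, ∑ j, chi R ‖x i - x j‖ ≤ ((R : ℝ) ^ 3)⁻¹ * ((Dset R).card * S x) :=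
        h2.trans (mul_le_mul_of_nonneg_left h1 (by positivity))
    _ ≤ ((R : ℝ) ^ 3)⁻¹ * ((27 * (R : ℝ) ^ 3) * S x) := by
        have := card_Dset_le R hR
        gcongr
    _ = 27 * S x := by field_simp

theorem blk_ne_layer (l r : ℕ) (hl : 0 < l) {a g h : Fin 3 → ℤ}
    (hgh : ∀ i, -(r : ℤ) ≤ h i - g i ∧ h i - g i ≤ r) (hne : blk l a g ≠ blk l a h) :
    Lay l r a g ∧ Lay l r a h := by
  have hl' : (0 : ℤ) < l := by exact_mod_cast hl
  obtain ⟨i, hi⟩ := Function.ne_iff.1 hne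
  simp only [blk] at hi
  have e1 := Int.emod_add_mul_ediv (g i - a i) l
  have e2 := Int.emod_add_mul_ediv (h i - a i) l
  have p0 := Int.emod_nonneg (g i - a i) hl'.ne'
  have p1 := Int.emod_lt_of_pos (g i - a i) hl'
  have q0 := Int.emod_nonneg (h i - a i) hl'.ne'
  have q1 := Int.emod_lt_of_pos (h i - a i) hl'
  have hd := hgh i
  set u := (g i - a i) / (l : ℤ)
  set v := (h i - a i) / (l : ℤ)
  set p := (g i - a i) % (l : ℤ)
  set q := (h i - a i) % (l : ℤ)
  rcases lt_or_gt_of_ne hi with huv | huv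
  · have h1 : (l : ℤ) * (u + 1) ≤ l * v := by
      apply mul_le_mul_of_nonneg_left _ hl'.le
      omega
    have h2 : (l : ℤ) * (u + 1) = l * u + l := by ring
    refine ⟨⟨i, Or.inr ?_⟩, ⟨i, Or.inl ?_⟩⟩
    · change (l : ℤ) - r ≤ p
      linarith [hd.2]
    · change q < r
      linarith [hd.2]
  · have h1 : (l : ℤ) * (v + 1) ≤ l * u := by
      apply mul_le_mul_of_nonneg_left _ hl'.le
      omega
    have h2 : (l : ℤ) * (v + 1) = l * v + l := by ring
    refine ⟨⟨i, Or.inl ?_⟩, ⟨i, Or.inr ?_⟩⟩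
    · change p < r
      linarith [hd.1]
    · change (l : ℤ) - r ≤ q
      linarith [hd.1]

open scoped Classical in
/-- K3: pairs in different blocks at distance `≤ R ≤ r` lie in the layer. -/
theorem chi_cross_le (R l r : ℕ) (hR : 1 ≤ R) (hRr : R ≤ r) (hl : 0 < l) (a : Fin 3 → ℤ)
    {N : ℕ} (x : Fin N → R3) :
    (∑ i, ∑ j, if blk l a (cell (x i)) = blk l a (cell (x j)) then 0 else chi R ‖x i - x j‖)
      ≤ 27 * ∑ i, ∑ j, if (cell (x i) = cell (x j) ∧ Lay l r a (cell (x i))) then (1 : ℝ)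
        else 0 := by
  have hR0 : (0 : ℝ) < R := by exact_mod_cast hR
  have h1 := near_sum (Dset R) (fun i => cell (x i)) (Lay l r a)
  have h2 : (∑ i, ∑ j, if blk l a (cell (x i)) = blk l a (cell (x j)) then 0
      else chi R ‖x i - x j‖) ≤ ((R : ℝ) ^ 3)⁻¹ *
      ∑ i, ∑ j, if (Lay l r a (cell (x i)) ∧ Lay l r a (cell (x j)) ∧
        cell (x j) - cell (x i) ∈ Dset R) then (1 : ℝ) else 0 := by
    rw [Finset.mul_sum]
    refine Finset.sum_le_sum fun i _ => ?_
    rw [Finset.mul_sum]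
    refine Finset.sum_le_sum fun j _ => ?_
    by_cases hb : blk l a (cell (x i)) = blk l a (cell (x j))
    · rw [if_pos hb]
      split_ifs <;> positivity
    rw [if_neg hb]
    unfold chi
    by_cases h : 0 < ‖x i - x j‖ ∧ ‖x i - x j‖ ≤ R
    · have hD := cell_diff h.2
      have hD' := mem_Dset.1 hD
      have hlay := blk_ne_layer l r hl (a := a) (g := cell (x i)) (h := cell (x j))
        (fun k => by
          have := hD' k
          simp only [Pi.sub_apply] at this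
          have hRr' : (R : ℤ) ≤ r := by exact_mod_cast hRr
          constructor
          · linarith [this.1]
          · linarith [this.2]) hb
      rw [if_pos h, if_pos ⟨hlay.1, hlay.2, hD⟩, mul_one]
    · rw [if_neg h]
      split_ifs <;> positivity
  have hS : 0 ≤ ∑ i, ∑ j, if (cell (x i) = cell (x j) ∧ Lay l r a (cell (x i))) then (1 : ℝ)
        else 0 := by
    refine Finset.sum_nonneg fun i _ => Finset.sum_nonneg fun j _ => ?_
    split_ifs <;> norm_num
  refine h2.trans ((mul_le_mul_of_nonneg_left h1 (by positivity)).trans ?_)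
  calc ((R : ℝ) ^ 3)⁻¹ * ((Dset R).card * ∑ i, ∑ j,
        if (cell (x i) = cell (x j) ∧ Lay l r a (cell (x i))) then (1 : ℝ) else 0)
      ≤ ((R : ℝ) ^ 3)⁻¹ * ((27 * (R : ℝ) ^ 3) * ∑ i, ∑ j,
        if (cell (x i) = cell (x j) ∧ Lay l r a (cell (x i))) then (1 : ℝ) else 0) := by
        have := card_Dset_le R hR
        gcongr
    _ = _ := by field_simp

theorem blk_diff (l q : ℕ) (hl : 0 < l) {a g h : Fin 3 → ℤ} (hgh : h - g ∈ Dset (l * q)) :
    blk l a h - blk l a g ∈ Dset q := by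
  have hl' : (0 : ℤ) < l := by exact_mod_cast hl
  rw [mem_Dset] at hgh ⊢
  intro i
  have hi := hgh i
  simp only [Pi.sub_apply] at hi ⊢
  simp only [blk]
  push_cast at hi
  constructor
  · have h1 : (g i - a i) / (l : ℤ) ≤ ((h i - a i) + l * q) / (l : ℤ) :=
      Int.ediv_le_ediv hl' (by linarith [hi.1])
    rw [Int.add_mul_ediv_left _ _ hl'.ne'] at h1
    linarith
  · have h1 : (h i - a i) / (l : ℤ) ≤ ((g i - a i) + l * q) / (l : ℤ) :=
      Int.ediv_le_ediv hl' (by linarith [hi.2])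
    rw [Int.add_mul_ediv_left _ _ hl'.ne'] at h1
    linarith

/-- K4: a well of range `R = l * q` seen on the scale of the blocks. -/
theorem chi_block_le (l q : ℕ) (hl : 0 < l) (hq : 1 ≤ q) (a : Fin 3 → ℤ)
    {N : ℕ} (x : Fin N → R3) :
    ∑ i, ∑ j, chi (l * q) ‖x i - x j‖ ≤
      27 / (l : ℝ) ^ 3 *
        ∑ i, ∑ j, if blk l a (cell (x i)) = blk l a (cell (x j)) then (1 : ℝ) else 0 := by
  classical
  have hl0 : (0 : ℝ) < l := by exact_mod_cast hl
  have hq0 : (0 : ℝ) < q := by exact_mod_cast hq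
  have h1 := near_sum (Dset q) (fun i => blk l a (cell (x i))) (fun _ => True)
  have h2 : ∑ i, ∑ j, chi (l * q) ‖x i - x j‖ ≤ (((l * q : ℕ) : ℝ) ^ 3)⁻¹ *
      ∑ i, ∑ j, if (True ∧ True ∧ blk l a (cell (x j)) - blk l a (cell (x i)) ∈ Dset q)
        then (1 : ℝ) else 0 := by
    rw [Finset.mul_sum]
    refine Finset.sum_le_sum fun i _ => ?_
    rw [Finset.mul_sum]
    refine Finset.sum_le_sum fun j _ => ?_
    unfold chi
    by_cases h : 0 < ‖x i - x j‖ ∧ ‖x i - x j‖ ≤ ((l * q : ℕ) : ℝ)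
    · rw [if_pos h, if_pos ⟨trivial, trivial, blk_diff l q hl (cell_diff h.2)⟩, mul_one]
    · rw [if_neg h]
      split_ifs <;> positivity
  have h3 : (∑ i, ∑ j, if (blk l a (cell (x i)) = blk l a (cell (x j)) ∧ True) then (1 : ℝ)
      else 0) = ∑ i, ∑ j, if blk l a (cell (x i)) = blk l a (cell (x j)) then (1 : ℝ) else 0 := by
    refine Finset.sum_congr rfl fun i _ => Finset.sum_congr rfl fun j _ => ?_
    simp
  rw [h3] at h1
  have hS : 0 ≤ ∑ i, ∑ j, if blk l a (cell (x i)) = blk l a (cell (x j)) then (1 : ℝ) else 0 := by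
    refine Finset.sum_nonneg fun i _ => Finset.sum_nonneg fun j _ => ?_
    split_ifs <;> norm_num
  refine h2.trans ((mul_le_mul_of_nonneg_left h1 (by positivity)).trans ?_)
  calc (((l * q : ℕ) : ℝ) ^ 3)⁻¹ * ((Dset q).card * ∑ i, ∑ j,
        if blk l a (cell (x i)) = blk l a (cell (x j)) then (1 : ℝ) else 0)
      ≤ (((l * q : ℕ) : ℝ) ^ 3)⁻¹ * ((27 * (q : ℝ) ^ 3) * ∑ i, ∑ j,
        if blk l a (cell (x i)) = blk l a (cell (x j)) then (1 : ℝ) else 0) := by
        have := card_Dset_le q hq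
        gcongr
    _ = _ := by
        push_cast
        field_simp

/-- the block weight: `wt t` plus small corrections inside blocks, `0` across blocks -/
noncomputable def wblk (t : ℕ → ℝ) (κ σ : ℝ) (l : ℕ) (a : Fin 3 → ℤ) (x y : R3) : ℝ :=
  if blk l a (cell x) = blk l a (cell y) then
    wt t x y + (if cell x = cell y then κ else 0) + σ / (l : ℝ) ^ 3
  else 0

theorem g_Rk_pos (k : ℕ) : 1 ≤ Rk k := Nat.one_le_two_pow

theorem Rk_mono {j k : ℕ} (h : j ≤ k) : Rk j ≤ Rk k := by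
  unfold Rk
  exact Nat.pow_le_pow_right (by norm_num) (Nat.pow_le_pow_left (by omega) 2)

theorem g_lk_pos (k : ℕ) : 0 < lk k := by unfold lk; positivity

theorem Rk_succ (k : ℕ) : Rk (k + 1) = lk (k + 1) * 2 ^ (k + 3) := by
  unfold Rk lk
  rw [← pow_add]
  congr 1
  ring

theorem Rk_div_lk (k : ℕ) : (Rk k : ℝ) / lk (k + 1) = (1 / 2) ^ (k + 2) := by
  unfold Rk lk
  push_cast
  rw [show (k + 1 + 2) * (k + 1 + 1) = (k + 2) ^ 2 + (k + 2) by ring, pow_add]
  rw [one_div, inv_pow]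
  field_simp

theorem summable_chi {t : ℕ → ℝ} (ht0 : ∀ k, 0 ≤ t k) (ht : Summable t) (r : ℝ) :
    Summable fun k => t k * chi (Rk k) r :=
  Summable.of_nonneg_of_le (fun k => mul_nonneg (ht0 k) (g_chi_nonneg _ _))
    (fun k => mul_le_of_le_one_right (ht0 k) (g_chi_le_one _ _)) ht

theorem g_psi_nonneg {t : ℕ → ℝ} (ht0 : ∀ k, 0 ≤ t k) (r : ℝ) : 0 ≤ psi t r :=
  tsum_nonneg fun k => mul_nonneg (ht0 k) (g_chi_nonneg _ _)

theorem psi_add_single {t : ℕ → ℝ} (ht0 : ∀ k, 0 ≤ t k) (ht : Summable t) (k : ℕ) (s r : ℝ) :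
    psi (fun j => t j + if j = k then s else 0) r = psi t r + s * chi (Rk k) r := by
  unfold psi
  have h1 : ∀ j, (t j + if j = k then s else 0) * chi (Rk j) r
      = t j * chi (Rk j) r + if j = k then s * chi (Rk k) r else 0 := by
    intro j
    by_cases h : j = k
    · subst h
      simp [add_mul]
    · simp [h]
  simp_rw [h1]
  rw [Summable.tsum_add (summable_chi ht0 ht r) (hasSum_ite_eq k _).summable, tsum_ite_eq]

theorem g_S_nonneg {N : ℕ} (x : Fin N → R3) : 0 ≤ S x := by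
  unfold S
  refine Finset.sum_nonneg fun i _ => Finset.sum_nonneg fun j _ => ?_
  split_ifs <;> norm_num

/-- step A of K6 -/
theorem psi_cross_le (t : ℕ → ℝ) (ht0 : ∀ k, 0 ≤ t k) (ht : Summable t) (k : ℕ)
    {N : ℕ} (x : Fin N → R3) (b : Fin N → Fin N → Prop) [∀ i j, Decidable (b i j)] (ε : ℝ)
    (hε : ∀ m ≤ k, (∑ i, ∑ j, if b i j then 0 else chi (Rk m) ‖x i - x j‖) ≤ 27 * (ε * S x)) :
    (∑ i, ∑ j, if b i j then 0 else psi t ‖x i - x j‖)
      ≤ 27 * (((∑' j, t (j + (k + 1))) + ε * (∑' j, t j)) * S x) := by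
  set c : ℕ → ℝ := fun m => ∑ i, ∑ j, if b i j then 0 else chi (Rk m) ‖x i - x j‖ with hc
  have hc0 : ∀ m, 0 ≤ c m := by
    intro m
    refine Finset.sum_nonneg fun i _ => Finset.sum_nonneg fun j _ => ?_
    split_ifs
    · exact le_rfl
    · exact g_chi_nonneg _ _
  have hc1 : ∀ m, c m ≤ 27 * S x := by
    intro m
    refine le_trans ?_ (chi_sum_le (Rk m) (g_Rk_pos m) x)
    refine Finset.sum_le_sum fun i _ => Finset.sum_le_sum fun j _ => ?_
    split_ifs
    · exact g_chi_nonneg _ _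
    · exact le_rfl
  have hS := g_S_nonneg x
  have hε0 : 0 ≤ ε * S x := by
    have := (hc0 0).trans (hε 0 (Nat.zero_le k))
    linarith
  have hsum1 : ∀ i j, Summable fun m => if b i j then 0 else t m * chi (Rk m) ‖x i - x j‖ := by
    intro i j
    split_ifs
    · exact summable_zero
    · exact summable_chi ht0 ht _
  have e1 : (∑ i, ∑ j, if b i j then 0 else psi t ‖x i - x j‖) = ∑' m, t m * c m := by
    have : ∀ m, t m * c m = ∑ i, ∑ j, if b i j then 0 else t m * chi (Rk m) ‖x i - x j‖ := by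
      intro m
      rw [hc, Finset.mul_sum]
      refine Finset.sum_congr rfl fun i _ => ?_
      rw [Finset.mul_sum]
      refine Finset.sum_congr rfl fun j _ => ?_
      split_ifs <;> simp
    simp_rw [this]
    rw [Summable.tsum_finsetSum (fun i _ => summable_sum fun j _ => hsum1 i j)]
    refine Finset.sum_congr rfl fun i _ => ?_
    rw [Summable.tsum_finsetSum (fun j _ => hsum1 i j)]
    refine Finset.sum_congr rfl fun j _ => ?_
    split_ifs
    · simp
    · rfl
  have hsum2 : Summable fun m => t m * c m :=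
    Summable.of_nonneg_of_le (fun m => mul_nonneg (ht0 m) (hc0 m))
      (fun m => mul_le_mul_of_nonneg_left (hc1 m) (ht0 m)) (ht.mul_right (27 * S x))
  rw [e1, ← hsum2.sum_add_tsum_nat_add (k + 1)]
  have hA : ∑ m ∈ Finset.range (k + 1), t m * c m ≤ (∑' j, t j) * (27 * (ε * S x)) := by
    calc ∑ m ∈ Finset.range (k + 1), t m * c m
        ≤ ∑ m ∈ Finset.range (k + 1), t m * (27 * (ε * S x)) := by
          refine Finset.sum_le_sum fun m hm => mul_le_mul_of_nonneg_left (hε m ?_) (ht0 m)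
          have := Finset.mem_range.1 hm
          omega
      _ = (∑ m ∈ Finset.range (k + 1), t m) * (27 * (ε * S x)) := by rw [Finset.sum_mul]
      _ ≤ _ := by
          refine mul_le_mul_of_nonneg_right ?_ (by positivity)
          exact ht.sum_le_tsum _ fun i _ => ht0 i
  have hB : ∑' m, t (m + (k + 1)) * c (m + (k + 1)) ≤ (∑' j, t (j + (k + 1))) * (27 * S x) := by
    rw [← tsum_mul_right]
    refine Summable.tsum_le_tsum (fun m => mul_le_mul_of_nonneg_left (hc1 _) (ht0 _)) ?_ ?_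
    · exact (summable_nat_add_iff (f := fun m => t m * c m) (k + 1)).2 hsum2
    · exact ((summable_nat_add_iff (k + 1)).2 ht).mul_right _
  calc _ ≤ (∑' j, t j) * (27 * (ε * S x)) + (∑' j, t (j + (k + 1))) * (27 * S x) :=
        add_le_add hA hB
    _ = _ := by ring

/-- K6: the block inequality (random offset cut). Uses `exists_offset` with
`l = lk (k+1)`, `r = Rk k`, `6 * r / l = 6 * (1/2)^(k+2)`, and `Rk (k+1) = lk (k+1) * 2^(k+3)`. -/
theorem block_ineq (t : ℕ → ℝ) (ht0 : ∀ k, 0 ≤ t k) (ht : Summable t) (k : ℕ) (s : ℝ)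
    (hs : 0 ≤ s) {N : ℕ} (x : Fin N → R3) :
    ∃ a : Fin 3 → Fin (lk (k + 1)),
      psum (wt (fun j => t j + if j = k + 1 then s else 0)) x ≤
        psum (wblk t (27 / 2 * ((∑' j, t (j + (k + 1))) + 6 * (∑' j, t j) * (1 / 2) ^ (k + 2)))
          (27 / 2 * s) (lk (k + 1)) (fun i => ((a i : ℕ) : ℤ))) x := by
  classical
  obtain ⟨a, ha⟩ := exists_offset (lk (k + 1)) (Rk k) (g_lk_pos _) (fun i => cell (x i))
  refine ⟨a, ?_⟩
  generalize (fun i => ((a i : ℕ) : ℤ)) = a' at ha ⊢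
  clear a
  set l := lk (k + 1) with hl
  set κ := 27 / 2 * ((∑' j, t (j + (k + 1))) + 6 * (∑' j, t j) * (1 / 2) ^ (k + 2)) with hκ
  have hl0 : (0 : ℝ) < l := by exact_mod_cast g_lk_pos (k + 1)
  have hSeq : (∑ i, ∑ j, if cell (x i) = cell (x j) then (1 : ℝ) else 0) = S x := by
    unfold S
    refine Finset.sum_congr rfl fun i _ => Finset.sum_congr rfl fun j _ => ?_
    split_ifs <;> rfl
  rw [hSeq] at ha
  have hratio : (6 * (Rk k : ℝ) / l) = 6 * (1 / 2) ^ (k + 2) := by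
    rw [mul_div_assoc, hl, Rk_div_lk]
  rw [hratio] at ha
  -- the cross terms
  have hcross := psi_cross_le t ht0 ht k x
    (fun i j => blk l a' (cell (x i)) = blk l a' (cell (x j))) (6 * (1 / 2) ^ (k + 2)) (by
      intro m hm
      have h1 := chi_cross_le (Rk m) l (Rk k) (g_Rk_pos m) (Rk_mono hm) (g_lk_pos (k + 1)) a' x
      refine (le_of_eq ?_).trans (h1.trans (mul_le_mul_of_nonneg_left ha (by norm_num)))
      refine Finset.sum_congr rfl fun i _ => Finset.sum_congr rfl fun j _ => ?_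
      split_ifs <;> rfl)
  -- the long range well
  have hlong := chi_block_le l (2 ^ (k + 3)) (g_lk_pos (k + 1)) Nat.one_le_two_pow a' x
  rw [hl, ← Rk_succ, ← hl] at hlong
  -- termwise bound
  have hterm : psum (wt (fun j => t j + if j = k + 1 then s else 0)) x ≤
      (∑ i, ∑ j, if blk l a' (cell (x i)) = blk l a' (cell (x j)) then wt t (x i) (x j) else 0)
      + 1 / 2 * (∑ i, ∑ j, if blk l a' (cell (x i)) = blk l a' (cell (x j)) then 0
          else psi t ‖x i - x j‖)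
      + s / 2 * ∑ i, ∑ j, chi (Rk (k + 1)) ‖x i - x j‖ := by
    unfold psum
    simp only [Finset.mul_sum, ← Finset.sum_add_distrib]
    refine Finset.sum_le_sum fun i _ => Finset.sum_le_sum fun j _ => ?_
    unfold wt phi
    rw [psi_add_single ht0 ht]
    have h0 := g_phi0_nonneg ‖x i - x j‖
    split_ifs <;> linarith
  have hblk : psum (wblk t κ (27 / 2 * s) l a') x =
      (∑ i, ∑ j, if blk l a' (cell (x i)) = blk l a' (cell (x j)) then wt t (x i) (x j) else 0)
      + κ * S x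
      + (27 / 2 * s) / (l : ℝ) ^ 3 *
        ∑ i, ∑ j, if blk l a' (cell (x i)) = blk l a' (cell (x j)) then (1 : ℝ) else 0 := by
    unfold psum
    rw [← hSeq]
    simp only [Finset.mul_sum, ← Finset.sum_add_distrib]
    refine Finset.sum_congr rfl fun i _ => Finset.sum_congr rfl fun j _ => ?_
    unfold wblk
    by_cases hc : cell (x i) = cell (x j)
    · simp [hc]
    · simp only [hc, if_false, mul_zero, add_zero]
      split_ifs <;> simp
  rw [hblk]
  refine hterm.trans ?_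
  have h1 : 1 / 2 * (∑ i, ∑ j, if blk l a' (cell (x i)) = blk l a' (cell (x j)) then 0
          else psi t ‖x i - x j‖) ≤ κ * S x := by
    calc _ ≤ 1 / 2 * (27 * (((∑' j, t (j + (k + 1))) + 6 * (1 / 2) ^ (k + 2) * (∑' j, t j)) *
          S x)) := mul_le_mul_of_nonneg_left hcross (by norm_num)
      _ = κ * S x := by rw [hκ]; ring
  have h2 : s / 2 * ∑ i, ∑ j, chi (Rk (k + 1)) ‖x i - x j‖ ≤ (27 / 2 * s) / (l : ℝ) ^ 3 *
        ∑ i, ∑ j, if blk l a' (cell (x i)) = blk l a' (cell (x j)) then (1 : ℝ) else 0 := by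
    calc _ ≤ s / 2 * (27 / (l : ℝ) ^ 3 *
        ∑ i, ∑ j, if blk l a' (cell (x i)) = blk l a' (cell (x j)) then (1 : ℝ) else 0) :=
          mul_le_mul_of_nonneg_left hlong (by positivity)
      _ = _ := by ring
  linarith

end Vale.Agent.P171
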