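import Vale.Agent.P171.CoreApi
import Vale.Agent.P171.Comb

open MeasureTheory Filter Topology
open scoped ENNReal

namespace Vale.Agent.P171

/-- the ranges `R_k` -/
def Rk (k : ℕ) : ℕ := 2 ^ ((k + 2) ^ 2)

/-- the block sides `l_k`, with `R_{k-1} ≪ l_k ≪ R_k` -/
def lk (k : ℕ) : ℕ := 2 ^ ((k + 2) * (k + 1))

/-- the repulsive core -/
noncomputable def phi0 (r : ℝ) : ℝ := if 0 < r ∧ r < 1 then r⁻¹ ^ 6 else 0

/-- normalized attractive well of range `R` -/
noncomputable def chi (R : ℕ) (r : ℝ) : ℝ := if 0 < r ∧ r ≤ R then ((R : ℝ) ^ 3)⁻¹ else 0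

noncomputable def psi (t : ℕ → ℝ) (r : ℝ) : ℝ := ∑' k, t k * chi (Rk k) r

noncomputable def phi (t : ℕ → ℝ) (r : ℝ) : ℝ := phi0 r - psi t r

/-- the pair weight: `exp (-energy) = exp (psum (wt t))` -/
noncomputable def wt (t : ℕ → ℝ) (x y : R3) : ℝ := -(phi t ‖x - y‖) / 2

/-- integer cell -/
noncomputable def cell (x : R3) : Fin 3 → ℤ := fun i => ⌊x i⌋

/-- block index (side `l`, offset `a`) of a cell -/
def blk (l : ℕ) (a g : Fin 3 → ℤ) : Fin 3 → ℤ := fun i => (g i - a i) / (l : ℤ)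

/-- number of ordered pairs in the same unit cell -/
noncomputable def S {N : ℕ} (x : Fin N → R3) : ℝ :=
  ∑ i, ∑ j, if cell (x i) = cell (x j) then (1 : ℝ) else 0

end Vale.Agent.P171
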