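import Mathlib

open Filter Topology

namespace Vale.Agent.P171

theorem limit_exists (a : ℝ → ℝ) (C : ℝ) (h0 : ∀ L, 0 ≤ a L)
    (hC : ∀ L, 0 < L → a L ≤ C * L ^ 3)
    (hs : ∀ L : ℝ, 0 < L → ∀ n : ℕ, ∀ L' : ℝ, (n : ℝ) * (L + 1) ≤ L' →
      (n : ℝ) ^ 3 * a L ≤ a L') :
    ∃ P, Tendsto (fun L => a L / L ^ 3) atTop (𝓝 P) ∧
      (∀ L, 0 < L → a L ≤ P * (L + 1) ^ 3) ∧ 0 ≤ P ∧ P ≤ C := by
  have hC0 : 0 ≤ C := by
    have := (h0 1).trans (hC 1 one_pos)
    simpa using this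
  set E : Set ℝ := (fun L => a L / (L + 1) ^ 3) '' Set.Ioi 0 with hE
  have hbd : ∀ y ∈ E, y ≤ C := by
    rintro y ⟨L, hL, rfl⟩
    have hL' : (0 : ℝ) < L := hL
    simp only
    rw [div_le_iff₀ (by positivity)]
    refine (hC L hL').trans ?_
    gcongr
    linarith
  have hbdd : BddAbove E := ⟨C, hbd⟩
  have hne : E.Nonempty := ⟨_, ⟨1, Set.mem_Ioi.2 one_pos, rfl⟩⟩
  set P := sSup E with hP
  have hP1 : ∀ L, 0 < L → a L / (L + 1) ^ 3 ≤ P := fun L hL =>
    le_csSup hbdd ⟨L, hL, rfl⟩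
  have hPC : P ≤ C := csSup_le hne hbd
  have hP0 : 0 ≤ P := le_trans (div_nonneg (h0 1) (by norm_num)) (hP1 1 one_pos)
  have hup : ∀ L, 0 < L → a L ≤ P * (L + 1) ^ 3 := by
    intro L hL
    have := hP1 L hL
    rwa [div_le_iff₀ (by positivity)] at this
  refine ⟨P, ?_, hup, hP0, hPC⟩
  rw [tendsto_order]
  constructor
  · intro b hb
    obtain ⟨y, ⟨L0, hL0, rfl⟩, hy⟩ := exists_lt_of_lt_csSup hne hb
    have hL0' : (0 : ℝ) < L0 := hL0
    simp only at hy
    have ht : Tendsto (fun L : ℝ => (1 / (L0 + 1) - 1 / L) ^ 3 * a L0) atTop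
        (𝓝 ((1 / (L0 + 1) - 0) ^ 3 * a L0)) := by
      refine Tendsto.mul_const _ (Tendsto.pow (Tendsto.sub tendsto_const_nhds ?_) 3)
      exact tendsto_const_nhds.div_atTop tendsto_id
    have he : (1 / (L0 + 1) - 0) ^ 3 * a L0 = a L0 / (L0 + 1) ^ 3 := by
      field_simp; ring
    rw [he] at ht
    filter_upwards [ht.eventually (lt_mem_nhds hy), eventually_gt_atTop (L0 + 1)] with L h1 h2
    refine lt_of_lt_of_le h1 ?_
    have hLpos : 0 < L := by linarith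
    set n := ⌊L / (L0 + 1)⌋₊ with hn
    have hn1 : (n : ℝ) ≤ L / (L0 + 1) := Nat.floor_le (by positivity)
    have hn2 : L / (L0 + 1) < n + 1 := Nat.lt_floor_add_one _
    have h3 : (n : ℝ) * (L0 + 1) ≤ L := by
      rwa [le_div_iff₀ (by positivity)] at hn1
    have h4 := hs L0 hL0' n L h3
    rw [le_div_iff₀ (by positivity)]
    refine le_trans ?_ h4
    have h5 : 0 ≤ 1 / (L0 + 1) - 1 / L := by
      rw [sub_nonneg]
      exact one_div_le_one_div_of_le (by positivity) (by linarith)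
    have h6 : (1 / (L0 + 1) - 1 / L) * L ≤ n := by
      have : (1 / (L0 + 1) - 1 / L) * L = L / (L0 + 1) - 1 := by field_simp
      rw [this]; linarith
    calc (1 / (L0 + 1) - 1 / L) ^ 3 * a L0 * L ^ 3
        = ((1 / (L0 + 1) - 1 / L) * L) ^ 3 * a L0 := by ring
      _ ≤ (n : ℝ) ^ 3 * a L0 := by
        have := h0 L0
        have h7 : 0 ≤ (1 / (L0 + 1) - 1 / L) * L := by positivity
        gcongr
  · intro b hb
    have ht : Tendsto (fun L : ℝ => P * (1 + 1 / L) ^ 3) atTop (𝓝 (P * (1 + 0) ^ 3)) := by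
      refine Tendsto.const_mul _ (Tendsto.pow (Tendsto.add tendsto_const_nhds ?_) 3)
      exact tendsto_const_nhds.div_atTop tendsto_id
    have he : P * (1 + 0) ^ 3 = P := by ring
    rw [he] at ht
    filter_upwards [ht.eventually (gt_mem_nhds hb), eventually_gt_atTop 0] with L h1 h2
    refine lt_of_le_of_lt ?_ h1
    rw [div_le_iff₀ (by positivity)]
    refine (hup L h2).trans (le_of_eq ?_)
    field_simp

end Vale.Agent.P171
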