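import Vale.Agent.P171.Trial

open MeasureTheory Filter Topology
open scoped ENNReal

namespace Vale.Agent.P171

/-- admissible coefficient sequences -/
structure Good (t : ℕ → ℝ) : Prop where
  summable : Summable t
  nonneg : ∀ k, 0 ≤ t k

/-- logarithm of the partition function in `[0,L]³` -/
noncomputable def lg (L : ℝ) (w : R3 → R3 → ℝ) (μ : ℝ) : ℝ := Real.log (GZ (box L) w μ).toReal

/-- pressure -/
noncomputable def pres (t : ℕ → ℝ) (μ : ℝ) : ℝ :=
  limUnder atTop fun L : ℝ => lg L (wt t) μ / L ^ 3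

theorem log_toReal_nonneg {a : ℝ≥0∞} (h : 1 ≤ a) : 0 ≤ Real.log a.toReal := by
  by_cases ha : a = ∞
  · simp [ha]
  · apply Real.log_nonneg
    rw [← ENNReal.toReal_one]
    exact ENNReal.toReal_mono ha h

theorem lg_nonneg (L : ℝ) (w : R3 → R3 → ℝ) (μ : ℝ) : 0 ≤ lg L w μ :=
  log_toReal_nonneg (one_le_GZ _ _ _)

/-- weight with bonus `κ` for pairs in the same unit cell and constant `τ`. -/
noncomputable def w2 (t : ℕ → ℝ) (κ τ : ℝ) (x y : R3) : ℝ :=
  wt t x y + (if cell x = cell y then κ else 0) + τ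

theorem w2_zero (t : ℕ → ℝ) : w2 t 0 0 = wt t := by
  funext x y; simp [w2]

theorem psum_w2 (t : ℕ → ℝ) (κ τ : ℝ) {N : ℕ} (x : Fin N → R3) :
    psum (w2 t κ τ) x = psum (wt t) x + κ * S x + τ * (N : ℝ) ^ 2 := by
  unfold psum w2 S
  simp_rw [Finset.sum_add_distrib, Finset.mul_sum, mul_ite, mul_one, mul_zero]
  simp
  ring

theorem measurable_cell : Measurable cell := by
  unfold cell
  exact measurable_pi_lambda _ fun i => Int.measurable_floor.comp (measurable_coord i)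

theorem measurable_w2 {t : ℕ → ℝ} (h : Good t) (κ τ : ℝ) :
    Measurable (Function.uncurry (w2 t κ τ)) := by
  unfold w2
  refine ((measurable_wt h.summable h.nonneg).add ?_).add_const τ
  refine Measurable.ite ?_ measurable_const measurable_const
  exact measurableSet_eq_fun (measurable_cell.comp measurable_fst)
    (measurable_cell.comp measurable_snd)

/-- number of points squared vs `S` in a region covered by `M` unit cells. -/
theorem sq_le_S {N : ℕ} (x : Fin N → R3) (T : Finset (Fin 3 → ℤ)) (h : ∀ i, cell (x i) ∈ T) :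
    (N : ℝ) ^ 2 ≤ T.card * S x := by
  have := same_sum_le (fun _ : Fin N => ()) (fun i => cell (x i)) T h
  simp only [if_true, true_and] at this
  refine le_trans (le_of_eq ?_) this
  simp
  ring

theorem GZ_bound (T c : ℝ) (hT : 0 ≤ T) (hc : 0 ≤ c) : ∃ B : ℝ, 0 ≤ B ∧
    ∀ t : ℕ → ℝ, Good t → ∑' k, t k ≤ T → ∀ (μ L : ℝ), 0 ≤ L → ∀ w : R3 → R3 → ℝ,
      (∀ (N : ℕ) (x : Fin N → R3), Function.Injective x → (∀ i, x i ∈ box L) →
        psum w x ≤ psum (wt t) x + c * S x) →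
      GZ (box L) w μ ≤ ENNReal.ofReal (Real.exp (L ^ 3 * Real.exp (μ + B))) := by
  obtain ⟨B, hB, h⟩ := psum_upper T c hT hc
  refine ⟨B, hB, fun t ht hle μ L hL w hw => ?_⟩
  have := GZ_le_exp (w := w) (B := B) (measurableSet_box L) (by rw [volume_box L hL]; simp)
    (fun N x hx hxA => (hw N x hx hxA).trans (h t ht.summable ht.nonneg hle N x hx)) μ
  rwa [volume_box L hL, ENNReal.toReal_ofReal (by positivity)] at this

theorem lg_bound (T c : ℝ) (hT : 0 ≤ T) (hc : 0 ≤ c) : ∃ B : ℝ, 0 ≤ B ∧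
    ∀ t : ℕ → ℝ, Good t → ∑' k, t k ≤ T → ∀ (μ L : ℝ), 0 ≤ L → ∀ w : R3 → R3 → ℝ,
      (∀ (N : ℕ) (x : Fin N → R3), Function.Injective x → (∀ i, x i ∈ box L) →
        psum w x ≤ psum (wt t) x + c * S x) →
      GZ (box L) w μ ≠ ∞ ∧ lg L w μ ≤ L ^ 3 * Real.exp (μ + B) := by
  obtain ⟨B, hB, h⟩ := GZ_bound T c hT hc
  refine ⟨B, hB, fun t ht hle μ L hL w hw => ?_⟩
  have h1 := h t ht hle μ L hL w hw
  have h2 := ne_top_of_le_ne_top ENNReal.ofReal_ne_top h1
  refine ⟨h2, ?_⟩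
  unfold lg
  rw [Real.log_le_iff_le_exp]
  · have := ENNReal.toReal_mono ENNReal.ofReal_ne_top h1
    rwa [ENNReal.toReal_ofReal (Real.exp_pos _).le] at this
  · exact ENNReal.toReal_pos (ne_of_gt (lt_of_lt_of_le one_pos (one_le_GZ _ _ _))) h2

theorem GZ_ne_top {t : ℕ → ℝ} (h : Good t) (μ : ℝ) {L : ℝ} (hL : 0 ≤ L) :
    GZ (box L) (wt t) μ ≠ ∞ := by
  obtain ⟨B, -, hB⟩ := lg_bound (∑' k, t k) 0 (tsum_nonneg h.nonneg) le_rfl
  exact (hB t h le_rfl μ L hL (wt t) fun N x _ _ => by simp).1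

theorem lg_mono {L L' : ℝ} {w w' : R3 → R3 → ℝ} {μ μ' : ℝ}
    (h : GZ (box L) w μ ≤ GZ (box L') w' μ') (hf : GZ (box L') w' μ' ≠ ∞) :
    lg L w μ ≤ lg L' w' μ' := by
  unfold lg
  refine Real.log_le_log ?_ (ENNReal.toReal_mono hf h)
  exact ENNReal.toReal_pos (ne_of_gt (lt_of_lt_of_le one_pos (one_le_GZ _ _ _)))
    (ne_top_of_le_ne_top hf h)

theorem pres_spec {t : ℕ → ℝ} (h : Good t) (μ : ℝ) :
    Tendsto (fun L : ℝ => lg L (wt t) μ / L ^ 3) atTop (𝓝 (pres t μ)) ∧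
      (∀ L : ℝ, 0 < L → lg L (wt t) μ ≤ pres t μ * (L + 1) ^ 3) ∧ 0 ≤ pres t μ := by
  obtain ⟨B, -, hB⟩ := lg_bound (∑' k, t k) 0 (tsum_nonneg h.nonneg) le_rfl
  have hb := fun L (hL : 0 ≤ L) => (hB t h le_rfl μ L hL (wt t) fun N x _ _ => by simp).2
  obtain ⟨P, h1, h2, h3, h4⟩ := limit_exists (fun L => lg L (wt t) μ) (Real.exp (μ + B))
    (fun L => lg_nonneg _ _ _) (fun L hL => by rw [mul_comm]; exact hb L hL.le)
    (fun L hL n L' hL' => by
      have hL'0 : 0 ≤ L' := le_trans (by positivity) hL'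
      have hs := GZ_superadd h.summable h.nonneg μ hL n hL'
      have hf := GZ_ne_top h μ hL'0
      have hpos : 0 < (GZ (box L) (wt t) μ).toReal :=
        ENNReal.toReal_pos (ne_of_gt (lt_of_lt_of_le one_pos (one_le_GZ _ _ _)))
          (GZ_ne_top h μ hL.le)
      have h5 := ENNReal.toReal_mono hf hs
      rw [ENNReal.toReal_pow] at h5
      have h6 := Real.log_le_log (pow_pos hpos _) h5
      rw [Real.log_pow] at h6
      unfold lg
      push_cast at h6
      exact h6)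
  have hP : pres t μ = P := h1.limUnder_eq
  rw [hP]
  exact ⟨h1, h2, h3⟩

theorem pres_le (T : ℝ) (hT : 0 ≤ T) : ∃ B : ℝ, 0 ≤ B ∧
    ∀ t : ℕ → ℝ, Good t → ∑' k, t k ≤ T → ∀ μ, pres t μ ≤ Real.exp (μ + B) := by
  obtain ⟨B, hB0, hB⟩ := lg_bound T 0 hT le_rfl
  refine ⟨B, hB0, fun t ht hle μ => ?_⟩
  refine le_of_tendsto (pres_spec ht μ).1 ?_
  filter_upwards [eventually_gt_atTop 0] with L hL
  rw [div_le_iff₀ (by positivity), mul_comm]
  exact (hB t ht hle μ L hL.le (wt t) fun N x _ _ => by simp).2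

theorem wt_mono {t u : ℕ → ℝ} (ht : Good t) (hu : Good u) (h : ∀ k, t k ≤ u k) (x y : R3) :
    wt t x y ≤ wt u x y := by
  unfold wt phi
  linarith [psi_mono ht.nonneg hu.summable h ‖x - y‖]

theorem psum_mono {w w' : R3 → R3 → ℝ} (h : ∀ x y, w x y ≤ w' x y) {N : ℕ} (x : Fin N → R3) :
    psum w x ≤ psum w' x :=
  Finset.sum_le_sum fun i _ => Finset.sum_le_sum fun j _ => h _ _

theorem pres_mono {t u : ℕ → ℝ} (ht : Good t) (hu : Good u) (h : ∀ k, t k ≤ u k) {μ ν : ℝ}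
    (hμ : μ ≤ ν) : pres t μ ≤ pres u ν := by
  refine le_of_tendsto_of_tendsto (pres_spec ht μ).1 (pres_spec hu ν).1 ?_
  filter_upwards [eventually_gt_atTop 0] with L hL
  have : lg L (wt t) μ ≤ lg L (wt u) ν := by
    refine lg_mono ?_ (GZ_ne_top hu ν hL.le)
    refine le_trans ?_ (GZ_mono_mu _ _ hμ)
    have := GZ_le_of_psum_le (measurableSet_box L) (w := wt t) (w' := wt u) (c := 0)
      (fun N x _ _ => by simpa using psum_mono (wt_mono ht hu h) x) μ
    simpa using this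
  gcongr

theorem Good.add {t u : ℕ → ℝ} (ht : Good t) (hu : Good u) : Good fun k => t k + u k :=
  ⟨ht.summable.add hu.summable, fun k => add_nonneg (ht.nonneg k) (hu.nonneg k)⟩

theorem Good.smul {t : ℕ → ℝ} (ht : Good t) {c : ℝ} (hc : 0 ≤ c) : Good fun k => c * t k :=
  ⟨ht.summable.mul_left c, fun k => mul_nonneg hc (ht.nonneg k)⟩

theorem wt_comb {t u : ℕ → ℝ} (ht : Good t) (hu : Good u) {θ : ℝ} (h0 : 0 ≤ θ) (h1 : θ ≤ 1)
    (x y : R3) : wt (fun k => (1 - θ) * t k + θ * u k) x y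
      = (1 - θ) * wt t x y + θ * wt u x y := by
  have h1' : 0 ≤ 1 - θ := by linarith
  unfold wt phi
  rw [psi_add (ht.smul h1').summable (ht.smul h1').nonneg (hu.smul h0).summable
    (hu.smul h0).nonneg, psi_smul, psi_smul]
  ring

theorem psum_lin {w w0 w1 : R3 → R3 → ℝ} {a b : ℝ} (h : ∀ x y, w x y = a * w0 x y + b * w1 x y)
    {N : ℕ} (x : Fin N → R3) : psum w x = a * psum w0 x + b * psum w1 x := by
  unfold psum
  simp_rw [h, Finset.sum_add_distrib, Finset.mul_sum]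

theorem pres_convex {t u : ℕ → ℝ} (ht : Good t) (hu : Good u) {θ : ℝ} (h0 : 0 ≤ θ) (h1 : θ ≤ 1)
    (μ ν : ℝ) : pres (fun k => (1 - θ) * t k + θ * u k) ((1 - θ) * μ + θ * ν) ≤
      (1 - θ) * pres t μ + θ * pres u ν := by
  have h1' : 0 ≤ 1 - θ := by linarith
  have hg : Good fun k => (1 - θ) * t k + θ * u k := (ht.smul h1').add (hu.smul h0)
  refine le_of_tendsto_of_tendsto (pres_spec hg _).1
    (((pres_spec ht μ).1.const_mul (1 - θ)).add ((pres_spec hu ν).1.const_mul θ)) ?_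
  filter_upwards [eventually_gt_atTop 0] with L hL
  have : lg L (wt fun k => (1 - θ) * t k + θ * u k) ((1 - θ) * μ + θ * ν) ≤
      (1 - θ) * lg L (wt t) μ + θ * lg L (wt u) ν := by
    refine GZ_convex (measurableSet_box L) h0 h1 (measurable_wt ht.summable ht.nonneg)
      (fun N x _ _ => ?_) (GZ_ne_top ht μ hL.le) (GZ_ne_top hu ν hL.le)
    rw [psum_lin (wt_comb ht hu h0 h1)]
    apply le_of_eq
    ring
  rw [mul_div, mul_div, ← add_div]
  gcongr

end Vale.Agent.P171
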