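import Vale.Agent.P171.Pres

open MeasureTheory Filter Topology
open scoped ENNReal

namespace Vale.Agent.P171

theorem pres_lower {t : ℕ → ℝ} (h : Good t) (μ : ℝ) :
    μ / 8 + (∑' k, t k) / 1024 ≤ pres t μ := by
  have hn : ∀ n : ℕ, (μ + (∑ k ∈ Finset.range n, t k) / 128) / 8 ≤ pres t μ := by
    intro n
    have htend : Tendsto (fun K : ℕ => (2 * (K : ℝ))) atTop atTop :=
      tendsto_natCast_atTop_atTop.const_mul_atTop (by norm_num)
    have h1 := (pres_spec h μ).1.comp htend
    refine ge_of_tendsto h1 ?_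
    have hK : ∀ᶠ K : ℕ in atTop, ∀ k < n, Rk k < K := by
      have : ∀ᶠ K : ℕ in atTop, ∀ k ∈ Finset.range n, Rk k < K := by
        rw [eventually_all_finset]
        exact fun k _ => eventually_gt_atTop _
      filter_upwards [this] with K hK k hk using hK k (Finset.mem_range.2 hk)
    filter_upwards [hK, eventually_gt_atTop 0] with K hK hK0
    have hK0' : (0 : ℝ) < K := by exact_mod_cast hK0
    have h2 := GZ_trial h.summable h.nonneg μ hK (L := 2 * (K : ℝ)) le_rfl
    have hf := GZ_ne_top h μ (L := 2 * (K : ℝ)) (by positivity)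
    have h3 := ENNReal.toReal_mono hf h2
    rw [ENNReal.toReal_ofReal (Real.exp_pos _).le] at h3
    have h4 := Real.log_le_log (Real.exp_pos _) h3
    rw [Real.log_exp] at h4
    simp only [Function.comp]
    rw [le_div_iff₀ (by positivity)]
    unfold lg
    refine le_trans (le_of_eq ?_) h4
    ring
  have hlim : Tendsto (fun n : ℕ => (μ + (∑ k ∈ Finset.range n, t k) / 128) / 8) atTop
      (𝓝 ((μ + (∑' k, t k) / 128) / 8)) :=
    ((h.summable.hasSum.tendsto_sum_nat.div_const 128).const_add μ).div_const 8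
  have := le_of_tendsto' hlim hn
  linarith

theorem pres_lip (T K : ℝ) (hT : 0 ≤ T) : ∃ C : ℝ, 0 ≤ C ∧
    ∀ t u : ℕ → ℝ, Good t → Good u → ∑' k, t k ≤ T → ∀ μ ν : ℝ, |μ| ≤ K →
      (∑' k, |u k - t k|) + |ν - μ| ≤ 1 →
      pres u ν ≤ pres t μ + C * ((∑' k, |u k - t k|) + |ν - μ|) := by
  obtain ⟨B, hB0, hB⟩ := pres_le (T + 1) (by linarith)
  refine ⟨Real.exp (K + 1 + B), (Real.exp_pos _).le, fun t u ht hu hle μ ν hμ hδ => ?_⟩
  set δ := (∑' k, |u k - t k|) + |ν - μ| with hδdef
  have hsub : Summable fun k => |u k - t k| := (hu.summable.sub ht.summable).abs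
  have hsn : 0 ≤ ∑' k, |u k - t k| := tsum_nonneg fun k => abs_nonneg _
  have hδ0 : 0 ≤ δ := add_nonneg hsn (abs_nonneg _)
  rcases hδ0.eq_or_lt with h0 | hpos
  · have h1 : ∑' k, |u k - t k| = 0 := by linarith [abs_nonneg (ν - μ)]
    have h2 : |ν - μ| = 0 := by linarith
    have h3 : u = t := by
      funext k
      have := hsub.le_tsum k fun j _ => abs_nonneg (u j - t j)
      rw [h1] at this
      have := abs_nonpos_iff.1 this
      linarith
    have h4 : ν = μ := by
      have := abs_eq_zero.1 h2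
      linarith
    rw [← h0, h3, h4]; simp
  · set τ : ℕ → ℝ := fun k => t k + δ⁻¹ * |u k - t k| with hτ
    have hτg : Good τ := ht.add (Good.smul ⟨hsub, fun k => abs_nonneg _⟩ (inv_nonneg.2 hδ0))
    have hτsum : ∑' k, τ k ≤ T + 1 := by
      have e1 : ∑' k, τ k = ∑' k, t k + δ⁻¹ * ∑' k, |u k - t k| := by
        rw [hτ, ← tsum_mul_left]
        exact ht.summable.tsum_add (hsub.mul_left _)
      rw [e1]
      have : δ⁻¹ * ∑' k, |u k - t k| ≤ 1 := by
        rw [inv_mul_le_iff₀ hpos]
        linarith [abs_nonneg (ν - μ)]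
      linarith
    set ν' := μ + δ⁻¹ * |ν - μ| with hν'
    have hν'le : ν' ≤ K + 1 := by
      have : δ⁻¹ * |ν - μ| ≤ 1 := by
        rw [inv_mul_le_iff₀ hpos]
        linarith
      have := (abs_le.1 hμ).2
      linarith
    have hcomb := pres_convex ht hτg hδ0 hδ μ ν'
    have hmono : pres u ν ≤ pres (fun k => (1 - δ) * t k + δ * τ k) ((1 - δ) * μ + δ * ν') := by
      refine pres_mono hu ((ht.smul (by linarith)).add (hτg.smul hδ0)) (fun k => ?_) ?_
      · rw [hτ]
        have : (1 - δ) * t k + δ * (t k + δ⁻¹ * |u k - t k|) = t k + |u k - t k| := by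
          field_simp; ring
        simp only [this]
        linarith [le_abs_self (u k - t k)]
      · rw [hν']
        have : (1 - δ) * μ + δ * (μ + δ⁻¹ * |ν - μ|) = μ + |ν - μ| := by
          field_simp; ring
        rw [this]
        linarith [le_abs_self (ν - μ)]
    have hup : pres τ ν' ≤ Real.exp (K + 1 + B) :=
      (hB τ hτg hτsum ν').trans (Real.exp_le_exp.2 (by linarith))
    have hP := (pres_spec ht μ).2.2
    calc pres u ν ≤ (1 - δ) * pres t μ + δ * pres τ ν' := hmono.trans hcomb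
      _ ≤ pres t μ + Real.exp (K + 1 + B) * δ := by
        have h5 := mul_le_mul_of_nonneg_left hup hδ0
        have h6 := mul_nonneg hδ0 hP
        linarith

end Vale.Agent.P171
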