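import Vale.Agent.P171.Basic
import Vale.Agent.P171.Geom
import Vale.Agent.P171.Factor
import Vale.Agent.P171.Limit

open MeasureTheory Filter Topology
open scoped ENNReal

namespace Vale.Agent.P171

theorem volume_coord (s : Fin 3 → Set ℝ) (hs : ∀ i, MeasurableSet (s i)) :
    volume {x : R3 | ∀ i, x i ∈ s i} = ∏ i, volume (s i) := by
  have h := (PiLp.volume_preserving_ofLp (Fin 3)).measure_preimage
    (MeasurableSet.univ_pi hs).nullMeasurableSet
  rw [volume_pi_pi] at h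
  rw [← h]
  congr 1
  ext x
  simp

theorem measurable_coord (i : Fin 3) : Measurable (fun x : R3 => x i) := by fun_prop

theorem measurableSet_coord (s : Fin 3 → Set ℝ) (hs : ∀ i, MeasurableSet (s i)) :
    MeasurableSet {x : R3 | ∀ i, x i ∈ s i} := by
  have : {x : R3 | ∀ i, x i ∈ s i} = ⋂ i, (fun x : R3 => x i) ⁻¹' s i := by
    ext x; simp
  rw [this]
  exact MeasurableSet.iInter fun i => measurable_coord i (hs i)

theorem measurableSet_box (L : ℝ) : MeasurableSet (box L) :=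
  measurableSet_coord (fun _ => Set.Icc 0 L) fun _ => measurableSet_Icc

theorem volume_box (L : ℝ) (hL : 0 ≤ L) : volume (box L) = ENNReal.ofReal (L ^ 3) := by
  unfold box
  rw [volume_coord (fun _ => Set.Icc 0 L) fun _ => measurableSet_Icc]
  simp [Real.volume_Icc, ENNReal.ofReal_pow hL]

theorem S_nonneg {N : ℕ} (x : Fin N → R3) : 0 ≤ S x := by
  unfold S
  exact Finset.sum_nonneg fun i _ => Finset.sum_nonneg fun j _ => by split_ifs <;> norm_num

theorem sum_psi_le {t : ℕ → ℝ} (ht : Summable t) (h0 : ∀ k, 0 ≤ t k) {N : ℕ} (x : Fin N → R3) :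
    ∑ i, ∑ j, psi t ‖x i - x j‖ ≤ 27 * (∑' k, t k) * S x := by
  rw [sum_psi ht h0]
  have h : ∀ k, t k * ∑ i, ∑ j, chi (Rk k) ‖x i - x j‖ ≤ t k * (27 * S x) := fun k =>
    mul_le_mul_of_nonneg_left (chi_sum_le _ (Rk_pos k) x) (h0 k)
  have hn : ∀ k, 0 ≤ t k * ∑ i, ∑ j, chi (Rk k) ‖x i - x j‖ := fun k =>
    mul_nonneg (h0 k) (Finset.sum_nonneg fun i _ => Finset.sum_nonneg fun j _ => chi_nonneg _ _)
  have hs2 : Summable fun k => t k * (27 * S x) := ht.mul_right _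
  calc _ ≤ ∑' k, t k * (27 * S x) :=
        (Summable.of_nonneg_of_le hn h hs2).tsum_le_tsum h hs2
    _ = _ := by rw [tsum_mul_right]; ring

theorem psum_upper (T c : ℝ) (hT : 0 ≤ T) (hc : 0 ≤ c) : ∃ B : ℝ, 0 ≤ B ∧
    ∀ t : ℕ → ℝ, Summable t → (∀ k, 0 ≤ t k) → ∑' k, t k ≤ T →
      ∀ (N : ℕ) (x : Fin N → R3), Function.Injective x → psum (wt t) x + c * S x ≤ B * N := by
  obtain ⟨m0, hm0⟩ := exists_nat_ge (27 * 27 * T + 54 * c)
  set m := max m0 2 with hm
  have hm2 : 2 ≤ m := le_max_right _ _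
  have hm1 : (m0 : ℝ) ≤ m := by exact_mod_cast le_max_left _ _
  have hm3 : (m : ℝ) ≤ (m : ℝ) ^ 3 := by
    have : (1 : ℝ) ≤ m := by exact_mod_cast (by omega : 1 ≤ m)
    nlinarith [mul_self_nonneg ((m : ℝ) - 1), mul_nonneg (by linarith : (0 : ℝ) ≤ m)
      (by nlinarith : (0 : ℝ) ≤ (m : ℝ) ^ 2 - 1)]
  refine ⟨(m : ℝ) ^ 6 / 54, by positivity, fun t ht h0 hle N x hx => ?_⟩
  rw [psum_wt]
  have h1 := superstable m hm2 x hx
  have h2 := sum_psi_le ht h0 x
  have h3 : 27 * (∑' k, t k) * S x ≤ 27 * T * S x := by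
    have := S_nonneg x
    gcongr
  have hS := S_nonneg x
  have h4 : (27 * 27 * T + 54 * c) * S x ≤ (m : ℝ) ^ 3 * S x := by
    gcongr
    linarith
  nlinarith

end Vale.Agent.P171
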