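import Vale.Agent.P171.Convert

open MeasureTheory Filter Topology
open scoped ENNReal

namespace Vale.Agent.P171

theorem lintegral_chi_le (R : ℕ) (hR : 0 < R) :
    ∫⁻ x : R3, ENNReal.ofReal (chi R ‖x‖) ≤ volume (Metric.closedBall (0 : R3) 1) := by
  have h1 : ∀ x : R3, ENNReal.ofReal (chi R ‖x‖) ≤
      (Metric.closedBall (0 : R3) R).indicator (fun _ => ENNReal.ofReal (((R : ℝ) ^ 3)⁻¹)) x := by
    intro x
    unfold chi
    split_ifs with h
    · rw [Set.indicator_of_mem]
      simpa using h.2
    · simp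
  refine (lintegral_mono h1).trans ?_
  rw [lintegral_indicator_const measurableSet_closedBall]
  have hR' : (0 : ℝ) < R := by exact_mod_cast hR
  have h2 := Measure.addHaar_closedBall (volume : Measure R3) (0 : R3) hR'.le
  have h3 := Measure.addHaar_closedBall (volume : Measure R3) (0 : R3) zero_le_one
  rw [h2, h3]
  have hd : Module.finrank ℝ R3 = 3 := by simp
  rw [hd, ← mul_assoc, ← ENNReal.ofReal_mul (by positivity), inv_mul_cancel₀ (by positivity)]
  simp

theorem integrable_psi {t : ℕ → ℝ} (h : Good t) : Integrable fun x : R3 => psi t ‖x‖ := by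
  refine ⟨((measurable_psi h.summable h.nonneg).comp measurable_norm).aestronglyMeasurable, ?_⟩
  rw [hasFiniteIntegral_iff_ofReal (Eventually.of_forall fun x => psi_nonneg h.nonneg _)]
  have e : ∀ x : R3, ENNReal.ofReal (psi t ‖x‖) =
      ∑' k, ENNReal.ofReal (t k) * ENNReal.ofReal (chi (Rk k) ‖x‖) := by
    intro x
    unfold psi
    rw [ENNReal.ofReal_tsum_of_nonneg (fun k => mul_nonneg (h.nonneg k) (chi_nonneg _ _))
      (summable_psi h.summable h.nonneg _)]
    exact tsum_congr fun k => ENNReal.ofReal_mul (h.nonneg k)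
  simp_rw [e]
  have hmk : ∀ k, AEMeasurable (fun x : R3 => ENNReal.ofReal (t k) *
      ENNReal.ofReal (chi (Rk k) ‖x‖)) := fun k =>
    ((((measurable_chi (Rk k)).comp measurable_norm).ennreal_ofReal).const_mul _).aemeasurable
  rw [lintegral_tsum hmk]
  have h2 : ∀ k, ∫⁻ x : R3, ENNReal.ofReal (t k) * ENNReal.ofReal (chi (Rk k) ‖x‖) ≤
      ENNReal.ofReal (t k) * volume (Metric.closedBall (0 : R3) 1) := by
    intro k
    rw [lintegral_const_mul' _ _ ENNReal.ofReal_ne_top]
    gcongr
    exact lintegral_chi_le _ (Rk_pos k)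
  refine (ENNReal.tsum_le_tsum h2).trans_lt ?_
  rw [ENNReal.tsum_mul_right, ← ENNReal.ofReal_tsum_of_nonneg h.nonneg h.summable]
  exact ENNReal.mul_lt_top ENNReal.ofReal_lt_top measure_closedBall_lt_top

theorem neg_le_phi {t : ℕ → ℝ} (h : Good t) (r : ℝ) : -(∑' k, t k) ≤ phi t r := by
  unfold phi
  linarith [phi0_nonneg r, psi_le h.summable h.nonneg r]

theorem regular_phi {t : ℕ → ℝ} (h : Good t) {β : ℝ} (hβ : 0 < β) :
    Integrable fun x : R3 => Real.exp (-β * phi t ‖x‖) - 1 := by
  set T := ∑' k, t k with hT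
  have hm : Measurable fun x : R3 => Real.exp (-β * phi t ‖x‖) - 1 :=
    ((((measurable_phi h.summable h.nonneg).comp measurable_norm).const_mul (-β)).exp).sub_const 1
  have hg : Integrable fun x : R3 => (Metric.closedBall (0 : R3) 1).indicator
      (fun _ => Real.exp (β * T) + 1) x + β * Real.exp (β * T) * psi t ‖x‖ := by
    refine Integrable.add ?_ ((integrable_psi h).const_mul _)
    exact (integrable_indicator_iff measurableSet_closedBall).2
      (integrableOn_const (measure_closedBall_lt_top.ne))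
  refine hg.mono' hm.aestronglyMeasurable (Eventually.of_forall fun x => ?_)
  have hT0 : 0 ≤ T := tsum_nonneg h.nonneg
  have hpsi0 := psi_nonneg h.nonneg ‖x‖
  have hpsiT := psi_le h.summable h.nonneg ‖x‖
  have hphi := neg_le_phi h ‖x‖
  rw [Real.norm_eq_abs]
  by_cases hx : ‖x‖ ≤ 1
  · rw [Set.indicator_of_mem (by simpa using hx)]
    have h1 : Real.exp (-β * phi t ‖x‖) ≤ Real.exp (β * T) := by
      apply Real.exp_le_exp.2
      nlinarith
    have h2 := Real.exp_pos (-β * phi t ‖x‖)
    have h3 : 0 ≤ β * Real.exp (β * T) * psi t ‖x‖ := by positivity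
    rw [abs_le]
    constructor <;> linarith
  · push Not at hx
    rw [Set.indicator_of_notMem (by simpa using hx), zero_add]
    have h0 : phi t ‖x‖ = -psi t ‖x‖ := by
      unfold phi; rw [phi0_of_one_le hx.le]; ring
    rw [h0]
    set p := psi t ‖x‖
    have h1 : Real.exp (-β * -p) - 1 ≤ β * Real.exp (β * T) * p := by
      have e1 : Real.exp (-β * -p) = Real.exp (β * p) := by ring_nf
      rw [e1]
      -- exp u - 1 ≤ u exp u
      have h4 := Real.add_one_le_exp (-(β * p))
      have h5 : 1 - Real.exp (-(β * p)) ≤ β * p := by linarith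
      have h6 : Real.exp (β * p) * (1 - Real.exp (-(β * p))) ≤ Real.exp (β * p) * (β * p) :=
        mul_le_mul_of_nonneg_left h5 (Real.exp_pos _).le
      have h7 : Real.exp (β * p) * (1 - Real.exp (-(β * p))) = Real.exp (β * p) - 1 := by
        rw [mul_sub, ← Real.exp_add]; simp
      have h8 : Real.exp (β * p) ≤ Real.exp (β * T) := by
        apply Real.exp_le_exp.2; gcongr
      have h9 : Real.exp (β * p) * (β * p) ≤ Real.exp (β * T) * (β * p) := by gcongr
      linarith
    have h2 : 0 ≤ Real.exp (-β * -p) - 1 := by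
      have : (0 : ℝ) ≤ -β * -p := by
        have := mul_nonneg hβ.le hpsi0
        linarith
      linarith [Real.one_le_exp this]
    rw [abs_of_nonneg h2]
    exact h1

theorem chi_le_cube (R : ℕ) {r : ℝ} (hr : 0 < r) : chi R r ≤ (r ^ 3)⁻¹ := by
  unfold chi
  split_ifs with h
  · have := h.2
    gcongr
  · positivity

theorem phi_tail {t : ℕ → ℝ} (h : Good t) {r : ℝ} (hr : 1 ≤ r) :
    -((∑' k, t k) * (r ^ 3)⁻¹) ≤ phi t r ∧ phi t r ≤ 0 := by
  refine ⟨?_, phi_nonpos h.nonneg hr⟩
  have hr0 : 0 < r := by linarith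
  have h1 : psi t r ≤ ∑' k, t k * (r ^ 3)⁻¹ :=
    (summable_psi h.summable h.nonneg r).tsum_le_tsum
      (fun k => mul_le_mul_of_nonneg_left (chi_le_cube _ hr0) (h.nonneg k))
      (h.summable.mul_right _)
  rw [tsum_mul_right] at h1
  unfold phi
  rw [phi0_of_one_le hr]
  linarith

end Vale.Agent.P171
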