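import Vale.Agent.P171.Block

open MeasureTheory Filter Topology
open scoped ENNReal

namespace Vale.Agent.P171

/-- number of cells meeting `[0,l]^3` -/
theorem sq_le_box (l : ℕ) {N : ℕ} (x : Fin N → R3) (hx : ∀ i, x i ∈ box l) :
    (N : ℝ) ^ 2 ≤ ((l : ℝ) + 1) ^ 3 * S x := by
  classical
  set T : Finset (Fin 3 → ℤ) := Fintype.piFinset fun _ => Finset.Icc (0 : ℤ) l with hT
  have hcard : (T.card : ℝ) = ((l : ℝ) + 1) ^ 3 := by
    rw [hT, Fintype.card_piFinset]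
    simp
  have h := sq_le_S x T (fun i => by
    rw [hT, Fintype.mem_piFinset]
    intro k
    rw [Finset.mem_Icc]
    have h1 := hx i k
    constructor
    · exact Int.floor_nonneg.2 h1.1
    · unfold cell
      have : ((⌊x i k⌋ : ℤ) : ℝ) ≤ ((l : ℤ) : ℝ) := (Int.floor_le _).trans (by simpa using h1.2)
      exact_mod_cast this)
  rwa [hcard] at h

theorem w2_le {t : ℕ → ℝ} {l : ℕ} (hl : 0 < l) {κ σ : ℝ} (hσ : 0 ≤ σ)
    {N : ℕ} (x : Fin N → R3) (hx : ∀ i, x i ∈ box l) :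
    psum (w2 t κ (σ / (l : ℝ) ^ 3)) x ≤ psum (wt t) x + (κ + 8 * σ) * S x := by
  rw [psum_w2]
  have h1 := sq_le_box l x hx
  have hS := S_nonneg x
  have hl' : (1 : ℝ) ≤ l := by exact_mod_cast hl
  have h2 : σ / (l : ℝ) ^ 3 * (N : ℝ) ^ 2 ≤ 8 * σ * S x := by
    calc σ / (l : ℝ) ^ 3 * (N : ℝ) ^ 2 ≤ σ / (l : ℝ) ^ 3 * (((l : ℝ) + 1) ^ 3 * S x) := by
          gcongr
      _ ≤ σ / (l : ℝ) ^ 3 * ((2 * (l : ℝ)) ^ 3 * S x) := by
          gcongr; linarith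
      _ = 8 * σ * S x := by field_simp; ring
  linarith

/-- (5b) -/
theorem pres_le_block {t : ℕ → ℝ} (h : Good t) (k : ℕ) {s : ℝ} (hs : 0 ≤ s) (μ : ℝ) :
    pres (fun j => t j + if j = k + 1 then s else 0) μ ≤
      lg (lk (k + 1))
        (w2 t (27 / 2 * ((∑' j, t (j + (k + 1))) + 6 * (∑' j, t j) * (1 / 2) ^ (k + 2)))
          (27 / 2 * s / (lk (k + 1) : ℝ) ^ 3)) μ / (lk (k + 1) : ℝ) ^ 3 := by
  set l := lk (k + 1) with hl
  have hl0 : 0 < l := lk_pos _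
  have hlR : (0 : ℝ) < l := by exact_mod_cast hl0
  set κ := 27 / 2 * ((∑' j, t (j + (k + 1))) + 6 * (∑' j, t j) * (1 / 2) ^ (k + 2)) with hκ
  set w := w2 t κ (27 / 2 * s / (l : ℝ) ^ 3) with hw
  have hκ0 : 0 ≤ κ := by
    have h1 : 0 ≤ ∑' j, t (j + (k + 1)) := tsum_nonneg fun j => h.nonneg _
    have h2 : 0 ≤ ∑' j, t j := tsum_nonneg h.nonneg
    positivity
  have hgood : Good fun j => t j + if j = k + 1 then s else 0 := h.add (good_single hs _)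
  obtain ⟨B, -, hB⟩ := lg_bound (∑' k, t k) (κ + 8 * (27 / 2 * s)) (tsum_nonneg h.nonneg)
    (by positivity)
  have hfin := (hB t h le_rfl μ l hlR.le w fun N x _ hx => w2_le hl0 (by positivity) x hx).1
  have hpos : 0 < (GZ (box l) w μ).toReal :=
    ENNReal.toReal_pos (ne_of_gt (lt_of_lt_of_le one_pos (one_le_GZ _ _ _))) hfin
  have hmain : ∀ L : ℝ, 0 < L → lg L (wt fun j => t j + if j = k + 1 then s else 0) μ / L ^ 3 ≤
      (3 * Real.log l) / L ^ 3 + (1 / l + 2 / L) ^ 3 * lg l w μ := by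
    intro L hL
    have h1 := GZ_block h k hs μ hL.le
    rw [← hl, ← hκ, ← hw] at h1
    have hrt : ((l : ℝ≥0∞) ^ 3 * (GZ (box l) w μ) ^ ((⌊L / l⌋₊ + 2) ^ 3)) ≠ ∞ :=
      ENNReal.mul_ne_top (ENNReal.pow_ne_top (ENNReal.natCast_ne_top _))
        (ENNReal.pow_ne_top hfin)
    have h2 := ENNReal.toReal_mono hrt h1
    rw [ENNReal.toReal_mul, ENNReal.toReal_pow, ENNReal.toReal_pow, ENNReal.toReal_natCast] at h2
    have h3 := Real.log_le_log (ENNReal.toReal_pos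
      (ne_of_gt (lt_of_lt_of_le one_pos (one_le_GZ _ _ _)))
      (GZ_ne_top hgood μ hL.le)) h2
    rw [Real.log_mul (by positivity) (pow_pos hpos _).ne', Real.log_pow, Real.log_pow] at h3
    have h4 : (((⌊L / l⌋₊ + 2) ^ 3 : ℕ) : ℝ) ≤ (L / l + 2) ^ 3 := by
      push_cast
      gcongr
      exact Nat.floor_le (by positivity)
    have h5 : 0 ≤ Real.log (GZ (box l) w μ).toReal := lg_nonneg _ _ _
    have h6 : lg L (wt fun j => t j + if j = k + 1 then s else 0) μ ≤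
        3 * Real.log l + (L / l + 2) ^ 3 * lg l w μ := by
      unfold lg
      refine h3.trans ?_
      push_cast at h4 ⊢
      gcongr
    rw [div_le_iff₀ (by positivity), add_mul, div_mul_cancel₀ _ (by positivity)]
    refine h6.trans (le_of_eq ?_)
    field_simp
  have hlim : Tendsto (fun L : ℝ => (3 * Real.log l) / L ^ 3 + (1 / l + 2 / L) ^ 3 * lg l w μ) atTop
      (𝓝 (0 + (1 / l + 0) ^ 3 * lg l w μ)) := by
    refine Tendsto.add ?_ (Tendsto.mul_const _ (Tendsto.pow (Tendsto.add tendsto_const_nhds ?_) 3))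
    · exact tendsto_const_nhds.div_atTop (tendsto_pow_atTop (by norm_num))
    · exact tendsto_const_nhds.div_atTop tendsto_id
  have := le_of_tendsto_of_tendsto (pres_spec hgood μ).1 hlim (by
    filter_upwards [eventually_gt_atTop 0] with L hL using hmain L hL)
  refine this.trans (le_of_eq ?_)
  field_simp
  ring

/-- (5c) -/
theorem lg_w2_le (T : ℝ) (hT : 0 ≤ T) : ∃ B : ℝ, 0 ≤ B ∧ ∀ t : ℕ → ℝ, Good t → ∑' k, t k ≤ T →
    ∀ (μ : ℝ) (l : ℕ), 0 < l → ∀ κ σ : ℝ, 0 ≤ κ → κ ≤ 1 → 0 ≤ σ → σ ≤ 1 →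
      GZ (box l) (w2 t 0 (σ / (l : ℝ) ^ 3)) μ ≠ ∞ ∧
      lg l (w2 t 0 (σ / (l : ℝ) ^ 3)) μ ≤ (l : ℝ) ^ 3 * Real.exp (μ + B) ∧
      lg l (w2 t κ (σ / (l : ℝ) ^ 3)) μ ≤ lg l (w2 t 0 (σ / (l : ℝ) ^ 3)) μ +
        κ * ((l : ℝ) ^ 3 * Real.exp (μ + B)) := by
  obtain ⟨B, hB0, hB⟩ := lg_bound T 9 hT (by norm_num)
  refine ⟨B, hB0, fun t ht hle μ l hl κ σ hκ0 hκ1 hσ0 hσ1 => ?_⟩
  have hw : ∀ κ' : ℝ, κ' ≤ 1 → GZ (box l) (w2 t κ' (σ / (l : ℝ) ^ 3)) μ ≠ ∞ ∧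
      lg l (w2 t κ' (σ / (l : ℝ) ^ 3)) μ ≤ (l : ℝ) ^ 3 * Real.exp (μ + B) := by
    intro κ' hκ'
    refine hB t ht hle μ l (by positivity) _ fun N x _ hx => ?_
    have h1 := w2_le (t := t) hl (κ := κ') hσ0 x hx
    have hS := S_nonneg x
    have h2 : (κ' + 8 * σ) * S x ≤ 9 * S x := by gcongr; linarith
    linarith
  refine ⟨(hw 0 zero_le_one).1, (hw 0 zero_le_one).2, ?_⟩
  have hconv := GZ_convex (measurableSet_box l) (w := w2 t κ (σ / (l : ℝ) ^ 3))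
    (w0 := w2 t 0 (σ / (l : ℝ) ^ 3)) (w1 := w2 t 1 (σ / (l : ℝ) ^ 3)) (μ := μ) (μ0 := μ) (μ1 := μ)
    hκ0 hκ1 (measurable_w2 ht _ _) (fun N x _ _ => by
      rw [psum_w2, psum_w2, psum_w2]
      apply le_of_eq
      ring) (hw 0 zero_le_one).1 (hw 1 le_rfl).1
  have h0 := lg_nonneg l (w2 t 0 (σ / (l : ℝ) ^ 3)) μ
  have h1 := (hw 1 le_rfl).2
  unfold lg at *
  nlinarith

theorem Zc_w2 (t : ℕ → ℝ) (τ : ℝ) (A : Set R3) (N : ℕ) :
    Zc A (w2 t 0 τ) N = ENNReal.ofReal (Real.exp (τ * (N : ℝ) ^ 2)) * Zc A (wt t) N := by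
  unfold Zc
  rw [← mul_assoc, mul_comm (ENNReal.ofReal _), mul_assoc,
    ← lintegral_const_mul' _ _ ENNReal.ofReal_ne_top]
  congr 1
  refine lintegral_congr fun x => ?_
  rw [psum_w2, ← ENNReal.ofReal_mul (Real.exp_pos _).le, ← Real.exp_add]
  congr 2
  ring

theorem split_bound {ρ δ h0 M σ μ A V : ℝ} (hV : 0 < V) (hA : A = (ρ + δ) * V) (hA0 : 0 ≤ A)
    (hσ : 0 ≤ σ) (hM : 0 ≤ M) (hh : σ * M ≤ h0) {N : ℝ} (hN : 0 ≤ N) :
    Real.exp (μ * N + σ / V * N ^ 2) ≤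
      Real.exp (σ * (ρ + δ) ^ 2 * V + μ * N) +
      Real.exp (-((h0 - σ * M) * A) + (μ + h0) * N) +
      Real.exp (-(M * V) + ((μ + 1) * N + σ / V * N ^ 2)) := by
  have e1 := Real.exp_pos (σ * (ρ + δ) ^ 2 * V + μ * N)
  have e2 := Real.exp_pos (-((h0 - σ * M) * A) + (μ + h0) * N)
  have e3 := Real.exp_pos (-(M * V) + ((μ + 1) * N + σ / V * N ^ 2))
  by_cases h1 : N ≤ A
  · have : Real.exp (μ * N + σ / V * N ^ 2) ≤ Real.exp (σ * (ρ + δ) ^ 2 * V + μ * N) := by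
      apply Real.exp_le_exp.2
      have h2 : N ^ 2 ≤ A ^ 2 := by gcongr
      have h3 : σ / V * N ^ 2 ≤ σ / V * A ^ 2 := by gcongr
      have h4 : σ / V * A ^ 2 = σ * (ρ + δ) ^ 2 * V := by
        rw [hA]; field_simp
      linarith
    linarith
  · push Not at h1
    by_cases h2 : N ≤ M * V
    · have : Real.exp (μ * N + σ / V * N ^ 2) ≤
          Real.exp (-((h0 - σ * M) * A) + (μ + h0) * N) := by
        apply Real.exp_le_exp.2
        have h3 : σ / V * N ^ 2 ≤ σ * M * N := by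
          calc σ / V * N ^ 2 = σ / V * (N * N) := by ring
            _ ≤ σ / V * (M * V * N) := by gcongr
            _ = σ * M * N := by field_simp
        have h4 : (h0 - σ * M) * A ≤ (h0 - σ * M) * N :=
          mul_le_mul_of_nonneg_left h1.le (by linarith)
        linarith
      linarith
    · push Not at h2
      have : Real.exp (μ * N + σ / V * N ^ 2) ≤
          Real.exp (-(M * V) + ((μ + 1) * N + σ / V * N ^ 2)) := by
        apply Real.exp_le_exp.2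
        linarith
      linarith

theorem GZ_split {t : ℕ → ℝ} {ρ δ h0 M σ μ : ℝ} {l : ℕ} (hl : 0 < l) (hρδ : 0 ≤ ρ + δ)
    (hσ : 0 ≤ σ) (hM : 0 ≤ M) (hh : σ * M ≤ h0) :
    GZ (box l) (w2 t 0 (σ / (l : ℝ) ^ 3)) μ ≤
      ENNReal.ofReal (Real.exp (σ * (ρ + δ) ^ 2 * (l : ℝ) ^ 3)) * GZ (box l) (wt t) μ +
      ENNReal.ofReal (Real.exp (-((h0 - σ * M) * ((ρ + δ) * (l : ℝ) ^ 3)))) *
        GZ (box l) (wt t) (μ + h0) +
      ENNReal.ofReal (Real.exp (-(M * (l : ℝ) ^ 3))) *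
        GZ (box l) (w2 t 0 (σ / (l : ℝ) ^ 3)) (μ + 1) := by
  have hV : (0 : ℝ) < (l : ℝ) ^ 3 := by positivity
  unfold GZ
  rw [← ENNReal.tsum_mul_left, ← ENNReal.tsum_mul_left, ← ENNReal.tsum_mul_left,
    ← ENNReal.tsum_add, ← ENNReal.tsum_add]
  refine ENNReal.tsum_le_tsum fun N => ?_
  rw [Zc_w2]
  have hb := split_bound (ρ := ρ) (δ := δ) (h0 := h0) (M := M) (σ := σ) (μ := μ)
    (A := (ρ + δ) * (l : ℝ) ^ 3) hV rfl (by positivity) hσ hM hh (N := (N : ℝ)) (by positivity)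
  have hb2 := ENNReal.ofReal_le_ofReal hb
  rw [ENNReal.ofReal_add (by positivity) (by positivity),
    ENNReal.ofReal_add (by positivity) (by positivity), Real.exp_add, Real.exp_add (σ * _ * _),
    Real.exp_add (-((h0 - σ * M) * _)), Real.exp_add (-(M * _)), Real.exp_add ((μ + 1) * _),
    ENNReal.ofReal_mul (Real.exp_pos _).le, ENNReal.ofReal_mul (Real.exp_pos _).le,
    ENNReal.ofReal_mul (Real.exp_pos _).le, ENNReal.ofReal_mul (Real.exp_pos _).le,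
    ENNReal.ofReal_mul (Real.exp_pos _).le] at hb2
  calc _ = (ENNReal.ofReal (Real.exp (μ * N)) *
        ENNReal.ofReal (Real.exp (σ / (l : ℝ) ^ 3 * (N : ℝ) ^ 2))) * Zc (box l) (wt t) N := by
        ring
    _ ≤ _ := mul_le_mul_left hb2 _
    _ = _ := by ring

end Vale.Agent.P171
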