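import Vale.Agent.P171.Star

open MeasureTheory Filter Topology
open scoped ENNReal

namespace Vale.Agent.P171

theorem toReal_le_exp {a : ℝ≥0∞} (h : 1 ≤ a) (hf : a ≠ ∞) {b : ℝ} (hb : Real.log a.toReal ≤ b) :
    a ≤ ENNReal.ofReal (Real.exp b) := by
  have hpos : 0 < a.toReal :=
    ENNReal.toReal_pos (ne_of_gt (lt_of_lt_of_le one_pos h)) hf
  rw [Real.log_le_iff_le_exp hpos] at hb
  rw [← ENNReal.ofReal_toReal hf]
  exact ENNReal.ofReal_le_ofReal hb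

/-- (5d) -/
theorem block_limit {t : ℕ → ℝ} (ht : Good t) (μ : ℝ) {ρ δ h0 : ℝ} (hρ : 0 ≤ ρ) (hδ : 0 < δ)
    (hh0 : 0 < h0) (hder : pres t (μ + h0) ≤ pres t μ + h0 * (ρ + δ / 2)) :
    ∃ σ0 : ℝ, 0 < σ0 ∧ σ0 ≤ 1 ∧ ∀ σ : ℝ, 0 ≤ σ → σ ≤ σ0 → ∀ᶠ l : ℕ in atTop,
      lg l (w2 t 0 (σ / (l : ℝ) ^ 3)) μ ≤
        Real.log 3 + σ * (ρ + δ) ^ 2 * (l : ℝ) ^ 3 + pres t μ * ((l : ℝ) + 1) ^ 3 := by
  obtain ⟨B, hB0, hB⟩ := lg_w2_le (∑' k, t k) (tsum_nonneg ht.nonneg)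
  set M := Real.exp (μ + 1 + B) with hM
  have hMpos : 0 < M := Real.exp_pos _
  have hρδ : 0 < ρ + δ := by linarith
  refine ⟨min 1 (h0 * δ / (4 * M * (ρ + δ))), lt_min one_pos (by positivity), min_le_left _ _,
    fun σ hσ0 hσ => ?_⟩
  have hσ1 : σ ≤ 1 := hσ.trans (min_le_left _ _)
  have hσ2 : σ * M * (ρ + δ) ≤ h0 * δ / 4 := by
    have := hσ.trans (min_le_right _ _)
    rw [le_div_iff₀ (by positivity)] at this
    linarith
  have hσM : σ * M ≤ h0 := by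
    by_contra hcon
    push Not at hcon
    have h1 : h0 * (ρ + δ) < σ * M * (ρ + δ) := by gcongr
    have h2 : h0 * δ ≤ h0 * (ρ + δ) := by gcongr; linarith
    have h3 : 0 < h0 * δ := by positivity
    linarith
  have hP := (pres_spec ht μ).2.2
  -- ratio (l+1)^3 / l^3 → 1
  have hratio : Tendsto (fun l : ℕ => h0 * (ρ + δ / 2) * (1 + 1 / (l : ℝ)) ^ 3) atTop
      (𝓝 (h0 * (ρ + δ / 2) * (1 + 0) ^ 3)) := by
    refine Tendsto.const_mul _ (Tendsto.pow (Tendsto.add tendsto_const_nhds ?_) 3)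
    exact tendsto_const_nhds.div_atTop tendsto_natCast_atTop_atTop
  have hlt : h0 * (ρ + δ / 2) * (1 + 0) ^ 3 < (h0 - σ * M) * (ρ + δ) := by
    have : 0 < h0 * δ := by positivity
    nlinarith
  filter_upwards [hratio.eventually (gt_mem_nhds hlt), eventually_gt_atTop 0] with l hl1 hl0
  have hlR : (0 : ℝ) < l := by exact_mod_cast hl0
  obtain ⟨hf0, hle0, -⟩ := hB t ht le_rfl μ l hl0 0 σ le_rfl zero_le_one hσ0 hσ1
  obtain ⟨hf1, hle1, -⟩ := hB t ht le_rfl (μ + 1) l hl0 0 σ le_rfl zero_le_one hσ0 hσ1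
  have hsplit := GZ_split (t := t) (ρ := ρ) (δ := δ) (h0 := h0) (M := M) (σ := σ) (μ := μ) hl0
    hρδ.le hσ0 hMpos.le hσM
  have b1 : GZ (box l) (wt t) μ ≤ ENNReal.ofReal (Real.exp (pres t μ * ((l : ℝ) + 1) ^ 3)) :=
    toReal_le_exp (one_le_GZ _ _ _) (GZ_ne_top ht μ hlR.le) ((pres_spec ht μ).2.1 l hlR)
  have b2 : GZ (box l) (wt t) (μ + h0) ≤
      ENNReal.ofReal (Real.exp (pres t (μ + h0) * ((l : ℝ) + 1) ^ 3)) :=
    toReal_le_exp (one_le_GZ _ _ _) (GZ_ne_top ht _ hlR.le) ((pres_spec ht _).2.1 l hlR)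
  have b3 : GZ (box l) (w2 t 0 (σ / (l : ℝ) ^ 3)) (μ + 1) ≤
      ENNReal.ofReal (Real.exp ((l : ℝ) ^ 3 * M)) :=
    toReal_le_exp (one_le_GZ _ _ _) hf1 hle1
  set E := σ * (ρ + δ) ^ 2 * (l : ℝ) ^ 3 + pres t μ * ((l : ℝ) + 1) ^ 3 with hE
  have hE0 : 0 ≤ E := by positivity
  have c1 : ENNReal.ofReal (Real.exp (σ * (ρ + δ) ^ 2 * (l : ℝ) ^ 3)) * GZ (box l) (wt t) μ ≤
      ENNReal.ofReal (Real.exp E) := by
    refine (mul_le_mul' le_rfl b1).trans (le_of_eq ?_)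
    rw [← ENNReal.ofReal_mul (Real.exp_pos _).le, ← Real.exp_add]
  have c2 : ENNReal.ofReal (Real.exp (-((h0 - σ * M) * ((ρ + δ) * (l : ℝ) ^ 3)))) *
      GZ (box l) (wt t) (μ + h0) ≤ ENNReal.ofReal (Real.exp E) := by
    refine (mul_le_mul' le_rfl b2).trans ?_
    rw [← ENNReal.ofReal_mul (Real.exp_pos _).le, ← Real.exp_add]
    refine ENNReal.ofReal_le_ofReal (Real.exp_le_exp.2 ?_)
    have h1 : pres t (μ + h0) * ((l : ℝ) + 1) ^ 3 ≤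
        (pres t μ + h0 * (ρ + δ / 2)) * ((l : ℝ) + 1) ^ 3 := by gcongr
    have h2 : h0 * (ρ + δ / 2) * ((l : ℝ) + 1) ^ 3 ≤ (h0 - σ * M) * (ρ + δ) * (l : ℝ) ^ 3 := by
      have h3 : ((l : ℝ) + 1) ^ 3 = (1 + 1 / (l : ℝ)) ^ 3 * (l : ℝ) ^ 3 := by
        field_simp
      rw [h3, ← mul_assoc]
      gcongr
    have h4 : 0 ≤ σ * (ρ + δ) ^ 2 * (l : ℝ) ^ 3 := by positivity
    rw [hE]
    linarith
  have c3 : ENNReal.ofReal (Real.exp (-(M * (l : ℝ) ^ 3))) *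
      GZ (box l) (w2 t 0 (σ / (l : ℝ) ^ 3)) (μ + 1) ≤ ENNReal.ofReal (Real.exp E) := by
    refine (mul_le_mul' le_rfl b3).trans ?_
    rw [← ENNReal.ofReal_mul (Real.exp_pos _).le, ← Real.exp_add]
    refine ENNReal.ofReal_le_ofReal (Real.exp_le_exp.2 ?_)
    linarith
  have htot : GZ (box l) (w2 t 0 (σ / (l : ℝ) ^ 3)) μ ≤ ENNReal.ofReal (3 * Real.exp E) := by
    refine hsplit.trans ((add_le_add (add_le_add c1 c2) c3).trans (le_of_eq ?_))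
    rw [← ENNReal.ofReal_add (Real.exp_pos _).le (Real.exp_pos _).le,
      ← ENNReal.ofReal_add (by positivity) (Real.exp_pos _).le]
    congr 1
    ring
  unfold lg
  have hpos : 0 < (GZ (box l) (w2 t 0 (σ / (l : ℝ) ^ 3)) μ).toReal :=
    ENNReal.toReal_pos (ne_of_gt (lt_of_lt_of_le one_pos (one_le_GZ _ _ _))) hf0
  have h5 := ENNReal.toReal_mono ENNReal.ofReal_ne_top htot
  rw [ENNReal.toReal_ofReal (by positivity)] at h5
  have h6 := Real.log_le_log hpos h5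
  rw [Real.log_mul (by norm_num) (Real.exp_pos _).ne', Real.log_exp] at h6
  rw [hE] at h6
  linarith

theorem tendsto_lk : Tendsto (fun k => lk (k + 1)) atTop atTop := by
  unfold lk
  refine tendsto_atTop_mono (fun k => ?_) tendsto_id
  calc id k = k := rfl
    _ ≤ 2 ^ k := Nat.lt_two_pow_self.le
    _ ≤ _ := Nat.pow_le_pow_right (by norm_num) (by nlinarith)

theorem tendsto_kappa {t : ℕ → ℝ} (ht : Good t) :
    Tendsto (fun k : ℕ => 27 / 2 * ((∑' j, t (j + (k + 1))) +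
      6 * (∑' j, t j) * (1 / 2 : ℝ) ^ (k + 2))) atTop (𝓝 0) := by
  have h1 : Tendsto (fun k : ℕ => ∑' j, t (j + (k + 1))) atTop (𝓝 0) :=
    (tendsto_sum_nat_add t).comp (tendsto_add_atTop_nat 1)
  have h2 : Tendsto (fun k : ℕ => (1 / 2 : ℝ) ^ (k + 2)) atTop (𝓝 0) :=
    (tendsto_pow_atTop_nhds_zero_of_lt_one (by norm_num) (by norm_num)).comp
      (tendsto_add_atTop_nat 2)
  have h3 := (h1.add (h2.const_mul (6 * ∑' j, t j))).const_mul (27 / 2 : ℝ)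
  simpa using h3

theorem star {t : ℕ → ℝ} (ht : Good t) (μ : ℝ) {ρ δ h0 : ℝ} (hρ : 0 ≤ ρ) (hδ : 0 < δ)
    (hh0 : 0 < h0) (hder : pres t (μ + h0) ≤ pres t μ + h0 * (ρ + δ / 2)) :
    ∃ σ0 : ℝ, 0 < σ0 ∧ ∀ s : ℝ, 0 ≤ s → 27 / 2 * s ≤ σ0 → ∀ η : ℝ, 0 < η → ∀ᶠ k : ℕ in atTop,
      pres (fun j => t j + if j = k + 1 then s else 0) μ ≤
        pres t μ + 27 / 2 * s * (ρ + δ) ^ 2 + η := by
  obtain ⟨σ0, hσ0, hσ01, hlim⟩ := block_limit ht μ hρ hδ hh0 hder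
  obtain ⟨B, hB0, hB⟩ := lg_w2_le (∑' k, t k) (tsum_nonneg ht.nonneg)
  refine ⟨σ0, hσ0, fun s hs hsσ η hη => ?_⟩
  have h1 := tendsto_lk.eventually (hlim (27 / 2 * s) (by positivity) hsσ)
  have hk0 := tendsto_kappa ht
  have hκ1 : ∀ᶠ k : ℕ in atTop, 27 / 2 * ((∑' j, t (j + (k + 1))) +
      6 * (∑' j, t j) * (1 / 2 : ℝ) ^ (k + 2)) ≤ 1 := by
    filter_upwards [hk0.eventually (gt_mem_nhds one_pos)] with k hk using hk.le
  have hlkR : Tendsto (fun k => (lk (k + 1) : ℝ)) atTop atTop :=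
    tendsto_natCast_atTop_atTop.comp tendsto_lk
  have hmain : Tendsto (fun k : ℕ => Real.log 3 / (lk (k + 1) : ℝ) ^ 3 +
      27 / 2 * s * (ρ + δ) ^ 2 + pres t μ * (1 + 1 / (lk (k + 1) : ℝ)) ^ 3 +
      (27 / 2 * ((∑' j, t (j + (k + 1))) + 6 * (∑' j, t j) * (1 / 2 : ℝ) ^ (k + 2))) *
        Real.exp (μ + B)) atTop
      (𝓝 (0 + 27 / 2 * s * (ρ + δ) ^ 2 + pres t μ * (1 + 0) ^ 3 + 0 * Real.exp (μ + B))) := by
    refine Tendsto.add (Tendsto.add (Tendsto.add ?_ tendsto_const_nhds)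
      (Tendsto.const_mul _ (Tendsto.pow (Tendsto.add tendsto_const_nhds ?_) 3)))
      (hk0.mul_const _)
    · exact tendsto_const_nhds.div_atTop ((tendsto_pow_atTop (by norm_num)).comp hlkR)
    · exact tendsto_const_nhds.div_atTop hlkR
  have hlt : 0 + 27 / 2 * s * (ρ + δ) ^ 2 + pres t μ * (1 + 0) ^ 3 + 0 * Real.exp (μ + B) <
      pres t μ + 27 / 2 * s * (ρ + δ) ^ 2 + η := by linarith
  filter_upwards [h1, hκ1, hmain.eventually (gt_mem_nhds hlt)] with k hk1 hk2 hk3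
  refine le_trans ?_ hk3.le
  have hl0 : 0 < lk (k + 1) := lk_pos _
  have hlR : (0 : ℝ) < lk (k + 1) := by exact_mod_cast hl0
  have hκ0 : 0 ≤ 27 / 2 * ((∑' j, t (j + (k + 1))) +
      6 * (∑' j, t j) * (1 / 2 : ℝ) ^ (k + 2)) := by
    have h1 : 0 ≤ ∑' j, t (j + (k + 1)) := tsum_nonneg fun j => ht.nonneg _
    have h2 : 0 ≤ ∑' j, t j := tsum_nonneg ht.nonneg
    positivity
  refine (pres_le_block ht k hs μ).trans ?_
  rw [div_le_iff₀ (by positivity)]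
  refine ((hB t ht le_rfl μ _ hl0 _ (27 / 2 * s) hκ0 hk2 (by positivity)
    (hsσ.trans hσ01)).2.2).trans ?_
  have e : ((lk (k + 1) : ℝ) + 1) ^ 3 = (1 + 1 / (lk (k + 1) : ℝ)) ^ 3 * (lk (k + 1) : ℝ) ^ 3 := by
    field_simp
  rw [e] at hk1
  have e2 : Real.log 3 = Real.log 3 / (lk (k + 1) : ℝ) ^ 3 * (lk (k + 1) : ℝ) ^ 3 := by
    field_simp
  rw [e2] at hk1
  linarith

end Vale.Agent.P171
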