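import Vale.Agent.P171.Pressure

open MeasureTheory Filter Topology
open scoped ENNReal

namespace Vale.Agent.P171

theorem wt_translate (t : ℕ → ℝ) (v x y : R3) : wt t (x + v) (y + v) = wt t x y := by
  unfold wt; rw [add_sub_add_right_eq_sub]

theorem abs_coord_le_norm (x : R3) (i : Fin 3) : |x i| ≤ ‖x‖ := by
  have := EuclideanSpace.norm_eq x
  rw [this]
  refine Real.abs_le_sqrt ?_
  have h : ‖x i‖ ^ 2 ≤ ∑ j, ‖x j‖ ^ 2 :=
    Finset.single_le_sum (f := fun j => ‖x j‖ ^ 2) (fun j _ => by positivity) (Finset.mem_univ i)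
  rwa [Real.norm_eq_abs, sq_abs] at h

/-- index of the cell of the grid of side `M` -/
noncomputable def gidx (M : ℝ) (x : R3) : Fin 3 → ℤ := fun i => ⌊x i / M⌋

theorem measurable_gidx (M : ℝ) : Measurable (gidx M) := by
  unfold gidx
  refine measurable_pi_lambda _ fun i => ?_
  exact Int.measurable_floor.comp ((measurable_coord i).div_const M)

/-- shift by `M v` -/
noncomputable def gshift (M : ℝ) {n : ℕ} (v : Fin 3 → Fin n) : R3 :=
  WithLp.toLp 2 fun i => M * (v i : ℝ)

theorem gshift_apply (M : ℝ) {n : ℕ} (v : Fin 3 → Fin n) (i : Fin 3) :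
    gshift M v i = M * (v i : ℝ) := rfl

theorem GZ_superadd {t : ℕ → ℝ} (ht : Summable t) (h0 : ∀ k, 0 ≤ t k) (μ : ℝ) {L : ℝ}
    (hL : 0 < L) (n : ℕ) {L' : ℝ} (h : (n : ℝ) * (L + 1) ≤ L') :
    (GZ (box L) (wt t) μ) ^ (n ^ 3) ≤ GZ (box L') (wt t) μ := by
  classical
  set M := L + 1 with hM
  have hMpos : 0 < M := by linarith
  set B : (Fin 3 → Fin n) → Set R3 := fun v => (fun x => x + gshift M v) '' box L with hB
  set w' : R3 → R3 → ℝ := fun x y => if gidx M x = gidx M y then wt t x y else 0 with hw'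
  have hBm : ∀ v, MeasurableSet (B v) := by
    intro v
    rw [hB]
    simp only [Set.image_add_right]
    exact (measurable_add_const _) (measurableSet_box L)
  have hidx : ∀ v, ∀ x ∈ B v, gidx M x = fun i => ((v i : ℕ) : ℤ) := by
    rintro v x ⟨y, hy, rfl⟩
    funext i
    unfold gidx
    have hyi := hy i
    rw [Int.floor_eq_iff]
    simp only [PiLp.add_apply, gshift_apply]
    have hdiv : (y i + M * (v i : ℝ)) / M = y i / M + (v i : ℝ) := by field_simp
    rw [hdiv]
    have h1 : 0 ≤ y i / M := div_nonneg hyi.1 hMpos.le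
    have h2 : y i / M < 1 := by
      rw [div_lt_one hMpos]; linarith [hyi.2]
    push_cast
    constructor <;> linarith
  have hw'm : Measurable (Function.uncurry w') := by
    rw [hw']
    refine Measurable.ite ?_ (measurable_wt ht h0) measurable_const
    exact measurableSet_eq_fun ((measurable_gidx M).comp measurable_fst)
      ((measurable_gidx M).comp measurable_snd)
  have hdisj : ∀ b ∈ (Finset.univ : Finset (Fin 3 → Fin n)),
      ∀ c ∈ (Finset.univ : Finset (Fin 3 → Fin n)), b ≠ c → Disjoint (B b) (B c) := by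
    intro b _ c _ hbc
    rw [Set.disjoint_left]
    intro x hxb hxc
    apply hbc
    have := (hidx b x hxb).symm.trans (hidx c x hxc)
    funext i
    have hi := congrFun this i
    exact Fin.ext (by exact_mod_cast hi)
  have hcross : ∀ b ∈ (Finset.univ : Finset (Fin 3 → Fin n)),
      ∀ c ∈ (Finset.univ : Finset (Fin 3 → Fin n)), b ≠ c →
      ∀ x ∈ B b, ∀ y ∈ B c, w' x y = 0 := by
    intro b _ c _ hbc x hx y hy
    rw [hw']
    simp only
    rw [if_neg]
    rw [hidx b x hx, hidx c y hy]
    intro hh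
    apply hbc
    funext i
    have hi := congrFun hh i
    exact Fin.ext (by exact_mod_cast hi)
  have hprod := GZ_biUnion (Finset.univ : Finset (Fin 3 → Fin n)) B (fun b _ => hBm b) hdisj hw'm
    hcross μ
  have heach : ∀ v, GZ (B v) w' μ = GZ (box L) (wt t) μ := by
    intro v
    refine GZ_translate (gshift M v) (measurableSet_box L) (fun x hx y hy => ?_) μ
    rw [hw']
    simp only
    rw [if_pos, wt_translate]
    rw [hidx v _ ⟨x, hx, rfl⟩, hidx v _ ⟨y, hy, rfl⟩]
  simp_rw [heach] at hprod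
  rw [Finset.prod_const, Finset.card_univ, Fintype.card_fun, Fintype.card_fin,
    Fintype.card_fin] at hprod
  rw [← hprod]
  have hsub : (⋃ b ∈ (Finset.univ : Finset (Fin 3 → Fin n)), B b) ⊆ box L' := by
    intro x hx
    simp only [Finset.mem_univ, Set.iUnion_true, Set.mem_iUnion] at hx
    obtain ⟨v, y, hy, rfl⟩ := hx
    intro i
    simp only [PiLp.add_apply, gshift_apply]
    have hyi := hy i
    have hv : ((v i : ℕ) : ℝ) + 1 ≤ n := by exact_mod_cast (v i).2
    constructor
    · have := hyi.1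
      positivity
    · have h3 : M * ((v i : ℕ) : ℝ) + M ≤ M * n := by nlinarith
      have := hyi.2
      nlinarith
  have hmU : MeasurableSet (⋃ b ∈ (Finset.univ : Finset (Fin 3 → Fin n)), B b) :=
    Finset.measurableSet_biUnion _ fun b _ => hBm b
  refine le_trans ?_ (GZ_mono_set hsub (wt t) μ)
  have := GZ_le_of_psum_le (A := ⋃ b ∈ (Finset.univ : Finset (Fin 3 → Fin n)), B b) hmU
    (w := w') (w' := wt t) (c := 0) (fun N x _ hxA => ?_) μ
  · simpa using this
  · rw [zero_mul, add_zero]
    unfold psum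
    refine Finset.sum_le_sum fun i _ => Finset.sum_le_sum fun j _ => ?_
    rw [hw']
    simp only
    split_ifs with hij
    · exact le_rfl
    · apply wt_nonneg h0
      have hxi := hxA i
      have hxj := hxA j
      simp only [Finset.mem_univ, Set.iUnion_true, Set.mem_iUnion] at hxi hxj
      obtain ⟨u, hu⟩ := hxi
      obtain ⟨v, hv⟩ := hxj
      rw [hidx u _ hu, hidx v _ hv] at hij
      obtain ⟨k, hk⟩ := Function.ne_iff.1 hij
      have hk' : ((u k : ℕ) : ℤ) ≠ ((v k : ℕ) : ℤ) := hk
      obtain ⟨y, hy, hyx⟩ := hu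
      obtain ⟨z, hz, hzx⟩ := hv
      refine le_trans ?_ (abs_coord_le_norm (x i - x j) k)
      rw [← hyx, ← hzx]
      simp only [PiLp.sub_apply, PiLp.add_apply, gshift_apply]
      have hyk := hy k
      have hzk := hz k
      rcases lt_or_gt_of_ne hk' with h1 | h1
      · have h2 : ((u k : ℕ) : ℝ) + 1 ≤ ((v k : ℕ) : ℝ) := by exact_mod_cast h1
        rw [le_abs]; right
        nlinarith [hyk.1, hyk.2, hzk.1, hzk.2]
      · have h2 : ((v k : ℕ) : ℝ) + 1 ≤ ((u k : ℕ) : ℝ) := by exact_mod_cast h1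
        rw [le_abs]; left
        nlinarith [hyk.1, hyk.2, hzk.1, hzk.2]

end Vale.Agent.P171
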