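import Vale.Agent.P171.Super

open MeasureTheory Filter Topology
open scoped ENNReal

namespace Vale.Agent.P171

/-- indices within distance `D` of `a` in one coordinate -/
def nbI (K D : ℕ) (a : Fin K) : Finset (Fin K) :=
  Finset.univ.filter fun b => (b : ℕ) ≤ a + D ∧ (a : ℕ) ≤ b + D

theorem card_nbI (K D : ℕ) (h : D + 1 ≤ K) (a : Fin K) : D + 1 ≤ (nbI K D a).card := by
  have ha := a.2
  set s := min (a : ℕ) (K - 1 - D) with hs
  have hs1 : s ≤ a := min_le_left _ _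
  have hs2 : s ≤ K - 1 - D := min_le_right _ _
  have hs3 : (a : ℕ) ≤ s + D := by
    rcases le_total (a : ℕ) (K - 1 - D) with h1 | h1
    · rw [hs, min_eq_left h1]; omega
    · rw [hs, min_eq_right h1]; omega
  let f : Fin (D + 1) → Fin K := fun b => ⟨s + b, by have := b.2; omega⟩
  have hf : Function.Injective f := by
    intro b c hbc
    have : s + (b : ℕ) = s + c := congrArg Fin.val hbc
    exact Fin.ext (by omega)
  calc D + 1 = (Finset.univ.image f).card := by
        rw [Finset.card_image_of_injective _ hf]; simp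
    _ ≤ _ := by
        apply Finset.card_le_card
        intro c hc
        obtain ⟨b, -, rfl⟩ := Finset.mem_image.1 hc
        have hb := b.2
        simp only [nbI, Finset.mem_filter, Finset.mem_univ, true_and, f]
        omega

/-- cells near `c` -/
def nb (K D : ℕ) (c : Fin 3 → Fin K) : Finset (Fin 3 → Fin K) :=
  Fintype.piFinset fun i => nbI K D (c i)

theorem card_nb (K D : ℕ) (h : D + 1 ≤ K) (c : Fin 3 → Fin K) : (D + 1) ^ 3 ≤ (nb K D c).card := by
  unfold nb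
  rw [Fintype.card_piFinset]
  calc (D + 1) ^ 3 = ∏ _i : Fin 3, (D + 1) := by simp
    _ ≤ _ := Finset.prod_le_prod' fun i _ => card_nbI K D h (c i)

/-- the subcube attached to a cell -/
def subcube {K : ℕ} (c : Fin 3 → Fin K) : Set R3 :=
  {x | ∀ i, x i ∈ Set.Icc (2 * ((c i : ℕ) : ℝ)) (2 * ((c i : ℕ) : ℝ) + 1)}

theorem volume_subcube {K : ℕ} (c : Fin 3 → Fin K) : volume (subcube c) = 1 := by
  unfold subcube
  rw [volume_coord (fun i => Set.Icc (2 * ((c i : ℕ) : ℝ)) (2 * ((c i : ℕ) : ℝ) + 1))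
    fun _ => measurableSet_Icc]
  simp [Real.volume_Icc]

theorem measurableSet_subcube {K : ℕ} (c : Fin 3 → Fin K) : MeasurableSet (subcube c) :=
  measurableSet_coord (fun i => Set.Icc (2 * ((c i : ℕ) : ℝ)) (2 * ((c i : ℕ) : ℝ) + 1))
    fun _ => measurableSet_Icc

theorem one_le_norm_of_ne {K : ℕ} {c d : Fin 3 → Fin K} (h : c ≠ d) {x y : R3}
    (hx : x ∈ subcube c) (hy : y ∈ subcube d) : 1 ≤ ‖x - y‖ := by
  obtain ⟨k, hk⟩ := Function.ne_iff.1 h
  have hk' : (c k : ℕ) ≠ (d k : ℕ) := fun h => hk (Fin.ext h)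
  refine le_trans ?_ (abs_coord_le_norm (x - y) k)
  have hxk := hx k
  have hyk := hy k
  simp only [PiLp.sub_apply]
  rcases lt_or_gt_of_ne hk' with h1 | h1
  · have h2 : ((c k : ℕ) : ℝ) + 1 ≤ ((d k : ℕ) : ℝ) := by exact_mod_cast h1
    rw [le_abs]; right
    linarith [hxk.1, hxk.2, hyk.1, hyk.2]
  · have h2 : ((d k : ℕ) : ℝ) + 1 ≤ ((c k : ℕ) : ℝ) := by exact_mod_cast h1
    rw [le_abs]; left
    linarith [hxk.1, hxk.2, hyk.1, hyk.2]

theorem norm_le_of_nb {K D : ℕ} (hD : 4 ≤ D) {c d : Fin 3 → Fin K} (h : d ∈ nb K D c) {x y : R3}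
    (hx : x ∈ subcube c) (hy : y ∈ subcube d) : ‖x - y‖ ≤ 4 * D := by
  have hD' : (4 : ℝ) ≤ D := by exact_mod_cast hD
  rw [EuclideanSpace.norm_eq]
  rw [Real.sqrt_le_left (by positivity)]
  have hc : ∀ k, ‖(x - y) k‖ ^ 2 ≤ (2 * (D : ℝ) + 1) ^ 2 := by
    intro k
    have hk : d k ∈ nbI K D (c k) := Fintype.mem_piFinset.1 h k
    simp only [nbI, Finset.mem_filter, Finset.mem_univ, true_and] at hk
    have h1 : ((d k : ℕ) : ℝ) ≤ (c k : ℕ) + D := by exact_mod_cast hk.1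
    have h2 : ((c k : ℕ) : ℝ) ≤ (d k : ℕ) + D := by exact_mod_cast hk.2
    have hxk := hx k
    have hyk := hy k
    rw [Real.norm_eq_abs, sq_abs, PiLp.sub_apply]
    apply sq_le_sq'
    · linarith [hxk.1, hxk.2, hyk.1, hyk.2]
    · linarith [hxk.1, hxk.2, hyk.1, hyk.2]
  calc ∑ k, ‖(x - y) k‖ ^ 2 ≤ ∑ _k : Fin 3, (2 * (D : ℝ) + 1) ^ 2 :=
        Finset.sum_le_sum fun k _ => hc k
    _ = 3 * (2 * (D : ℝ) + 1) ^ 2 := by simp
    _ ≤ (4 * (D : ℝ)) ^ 2 := by nlinarith

theorem chi_trial {K N : ℕ} (D : ℕ) (hD : 4 ≤ D) (hK : D + 1 ≤ K) (σ : Fin N ≃ (Fin 3 → Fin K))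
    (x : Fin N → R3) (hx : ∀ i, x i ∈ subcube (σ i)) (i : Fin N) :
    1 / 64 ≤ ∑ j, chi (4 * D) ‖x i - x j‖ := by
  classical
  set T : Finset (Fin N) := Finset.univ.filter fun j => j ≠ i ∧ σ j ∈ nb K D (σ i) with hT
  have hD0 : (0 : ℝ) < D := by exact_mod_cast (by omega : 0 < D)
  have hval : ∀ j ∈ T, chi (4 * D) ‖x i - x j‖ = ((4 * (D : ℝ)) ^ 3)⁻¹ := by
    intro j hj
    simp only [hT, Finset.mem_filter, Finset.mem_univ, true_and] at hj
    unfold chi
    rw [if_pos]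
    · push_cast; rfl
    · constructor
      · have := one_le_norm_of_ne (c := σ i) (d := σ j)
          (fun h => hj.1 (σ.injective h.symm)) (hx i) (hx j)
        linarith
      · push_cast
        exact norm_le_of_nb hD hj.2 (hx i) (hx j)
  have hcard : D ^ 3 ≤ T.card := by
    have h1 : (Finset.univ.filter fun j => σ j ∈ nb K D (σ i)).card = (nb K D (σ i)).card := by
      rw [← Finset.card_map σ.symm.toEmbedding (s := nb K D (σ i))]
      congr 1
      ext j
      simp only [Finset.mem_filter, Finset.mem_univ, true_and, Finset.mem_map,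
        Equiv.coe_toEmbedding]
      constructor
      · intro h; exact ⟨σ j, h, by simp⟩
      · rintro ⟨c, hc, rfl⟩; simpa using hc
    have h2 : T = (Finset.univ.filter fun j => σ j ∈ nb K D (σ i)).erase i := by
      ext j
      simp [hT, Finset.mem_erase]
    have h3 := card_nb K D hK (σ i)
    have h4 : (Finset.univ.filter fun j => σ j ∈ nb K D (σ i)).card ≤ T.card + 1 := by
      rw [h2]
      have := Finset.pred_card_le_card_erase
        (s := Finset.univ.filter fun j => σ j ∈ nb K D (σ i)) (a := i)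
      omega
    have h5 : (D + 1) ^ 3 = D ^ 3 + 3 * D ^ 2 + 3 * D + 1 := by ring
    rw [h1] at h4
    omega
  have hcard' : (D : ℝ) ^ 3 ≤ T.card := by exact_mod_cast hcard
  calc (1 : ℝ) / 64 = (D : ℝ) ^ 3 * ((4 * (D : ℝ)) ^ 3)⁻¹ := by
        field_simp; norm_num
    _ ≤ T.card * ((4 * (D : ℝ)) ^ 3)⁻¹ := by gcongr
    _ = ∑ j ∈ T, chi (4 * D) ‖x i - x j‖ := by
        rw [Finset.sum_congr rfl hval, Finset.sum_const, nsmul_eq_mul]
    _ ≤ ∑ j, chi (4 * D) ‖x i - x j‖ :=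
        Finset.sum_le_sum_of_subset_of_nonneg (Finset.subset_univ _)
          fun j _ _ => chi_nonneg _ _

theorem Rk_eq (k : ℕ) : ∃ D : ℕ, Rk k = 4 * D ∧ 4 ≤ D := by
  refine ⟨2 ^ ((k + 2) ^ 2 - 2), ?_, ?_⟩
  · unfold Rk
    have h : (k + 2) ^ 2 = 2 + ((k + 2) ^ 2 - 2) := by
      have : 2 ^ 2 ≤ (k + 2) ^ 2 := Nat.pow_le_pow_left (by omega) 2
      omega
    conv_lhs => rw [h]
    rw [pow_add]; norm_num
  · have : 2 ≤ (k + 2) ^ 2 - 2 := by
      have : 2 ^ 2 ≤ (k + 2) ^ 2 := Nat.pow_le_pow_left (by omega) 2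
      omega
    calc 4 = 2 ^ 2 := by norm_num
      _ ≤ _ := Nat.pow_le_pow_right (by norm_num) this

theorem psum_trial {t : ℕ → ℝ} (ht : Summable t) (h0 : ∀ k, 0 ≤ t k) {K N n : ℕ}
    (hn : ∀ k < n, Rk k < K) (σ : Fin N ≃ (Fin 3 → Fin K))
    (x : Fin N → R3) (hx : ∀ i, x i ∈ subcube (σ i)) :
    N * ((∑ k ∈ Finset.range n, t k) / 128) ≤ psum (wt t) x := by
  rw [psum_wt]
  have hphi : ∑ i, ∑ j, phi0 ‖x i - x j‖ = 0 := by
    refine Finset.sum_eq_zero fun i _ => Finset.sum_eq_zero fun j _ => ?_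
    by_cases hij : i = j
    · subst hij; simp [phi0_zero]
    · exact phi0_of_one_le (one_le_norm_of_ne (fun h => hij (σ.injective h)) (hx i) (hx j))
  rw [hphi, sum_psi ht h0]
  have hterm : ∀ k ∈ Finset.range n, t k * (N * (1 / 64)) ≤
      t k * ∑ i, ∑ j, chi (Rk k) ‖x i - x j‖ := by
    intro k hk
    refine mul_le_mul_of_nonneg_left ?_ (h0 k)
    obtain ⟨D, hD, hD4⟩ := Rk_eq k
    have hK : D + 1 ≤ K := by
      have := hn k (Finset.mem_range.1 hk)
      omega
    rw [hD]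
    calc (N : ℝ) * (1 / 64) = ∑ _i : Fin N, (1 : ℝ) / 64 := by simp
      _ ≤ _ := Finset.sum_le_sum fun i _ => chi_trial D hD4 hK σ x hx i
  have hsum : Summable fun k => t k * ∑ i, ∑ j, chi (Rk k) ‖x i - x j‖ := by
    refine Summable.of_nonneg_of_le (fun k => mul_nonneg (h0 k) (Finset.sum_nonneg fun i _ =>
      Finset.sum_nonneg fun j _ => chi_nonneg _ _)) (fun k => ?_) (ht.mul_right (27 * S x))
    exact mul_le_mul_of_nonneg_left (chi_sum_le _ (Rk_pos k) x) (h0 k)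
  have h1 : ∑ k ∈ Finset.range n, t k * (N * (1 / 64)) ≤
      ∑' k, t k * ∑ i, ∑ j, chi (Rk k) ‖x i - x j‖ := by
    refine (Finset.sum_le_sum hterm).trans ?_
    exact hsum.sum_le_tsum _ fun k _ => mul_nonneg (h0 k) (Finset.sum_nonneg fun i _ =>
      Finset.sum_nonneg fun j _ => chi_nonneg _ _)
  rw [← Finset.sum_mul] at h1
  linarith

theorem GZ_trial {t : ℕ → ℝ} (ht : Summable t) (h0 : ∀ k, 0 ≤ t k) (μ : ℝ) {K n : ℕ}
    (hn : ∀ k < n, Rk k < K) {L : ℝ} (hL : 2 * (K : ℝ) ≤ L) :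
    ENNReal.ofReal (Real.exp ((K : ℝ) ^ 3 * (μ + (∑ k ∈ Finset.range n, t k) / 128))) ≤
      GZ (box L) (wt t) μ := by
  classical
  set N := K ^ 3 with hN
  have hcard : Fintype.card (Fin N) = Fintype.card (Fin 3 → Fin K) := by simp [hN]
  let e : Fin N ≃ (Fin 3 → Fin K) := Fintype.equivOfCardEq hcard
  set v : ℝ := N * ((∑ k ∈ Finset.range n, t k) / 128) with hv
  let Eσ : Equiv.Perm (Fin N) → Set (Fin N → R3) := fun τ =>
    Set.pi Set.univ fun i => subcube (e (τ i))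
  have hEm : ∀ τ, MeasurableSet (Eσ τ) := fun τ =>
    MeasurableSet.univ_pi fun i => measurableSet_subcube _
  have hEvol : ∀ τ, volume (Eσ τ) = 1 := by
    intro τ
    simp only [Eσ]
    rw [volume_pi_pi]
    simp [volume_subcube]
  have hdisj : Set.PairwiseDisjoint (↑(Finset.univ : Finset (Equiv.Perm (Fin N)))) Eσ := by
    intro τ _ ρ _ hne
    rw [Function.onFun, Set.disjoint_left]
    intro x hx hx'
    apply hne
    ext i
    by_contra hi
    have h1 : e (τ i) ≠ e (ρ i) := fun h => hi (by rw [e.injective h])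
    have hxi := (Set.mem_univ_pi.1 hx) i
    have hxi' := (Set.mem_univ_pi.1 hx') i
    have := one_le_norm_of_ne h1 hxi hxi'
    simp at this
    linarith
  have hvolU : volume (⋃ τ ∈ (Finset.univ : Finset (Equiv.Perm (Fin N))), Eσ τ)
      = (N.factorial : ℝ≥0∞) := by
    rw [measure_biUnion_finset hdisj fun τ _ => hEm τ]
    simp [hEvol, Fintype.card_perm]
  have hsub : (⋃ τ ∈ (Finset.univ : Finset (Equiv.Perm (Fin N))), Eσ τ) ⊆
      Set.pi Set.univ (fun _ : Fin N => box L) := by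
    intro x hx
    simp only [Finset.mem_univ, Set.iUnion_true, Set.mem_iUnion] at hx
    obtain ⟨τ, hτ⟩ := hx
    rw [Set.mem_univ_pi]
    intro i k
    have h1 := (Set.mem_univ_pi.1 hτ) i k
    have h2 : ((e (τ i) k : ℕ) : ℝ) + 1 ≤ K := by exact_mod_cast (e (τ i) k).2
    constructor
    · refine le_trans ?_ h1.1
      positivity
    · linarith [h1.2]
  have hint : (N.factorial : ℝ≥0∞) * ENNReal.ofReal (Real.exp v) ≤
      ∫⁻ x in Set.pi Set.univ (fun _ : Fin N => box L),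
        ENNReal.ofReal (Real.exp (psum (wt t) x)) := by
    calc (N.factorial : ℝ≥0∞) * ENNReal.ofReal (Real.exp v)
        = ∫⁻ x in (⋃ τ ∈ (Finset.univ : Finset (Equiv.Perm (Fin N))), Eσ τ),
          ENNReal.ofReal (Real.exp v) := by
          rw [setLIntegral_const, hvolU, mul_comm]
      _ ≤ ∫⁻ x in (⋃ τ ∈ (Finset.univ : Finset (Equiv.Perm (Fin N))), Eσ τ),
          ENNReal.ofReal (Real.exp (psum (wt t) x)) := by
          refine setLIntegral_mono' (Finset.measurableSet_biUnion _ fun τ _ => hEm τ)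
            fun x hx => ?_
          simp only [Finset.mem_univ, Set.iUnion_true, Set.mem_iUnion] at hx
          obtain ⟨τ, hτ⟩ := hx
          refine ENNReal.ofReal_le_ofReal (Real.exp_le_exp.2 ?_)
          exact psum_trial ht h0 hn (τ.trans e) x fun i => (Set.mem_univ_pi.1 hτ) i
      _ ≤ _ := lintegral_mono_set hsub
  have hZ : ENNReal.ofReal (Real.exp v) ≤ Zc (box L) (wt t) N := by
    unfold Zc
    calc ENNReal.ofReal (Real.exp v)
        = (N.factorial : ℝ≥0∞)⁻¹ * ((N.factorial : ℝ≥0∞) * ENNReal.ofReal (Real.exp v)) := by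
          rw [← mul_assoc, ENNReal.inv_mul_cancel, one_mul]
          · exact_mod_cast N.factorial_ne_zero
          · exact ENNReal.natCast_ne_top _
      _ ≤ _ := by gcongr
  calc ENNReal.ofReal (Real.exp ((K : ℝ) ^ 3 * (μ + (∑ k ∈ Finset.range n, t k) / 128)))
      = ENNReal.ofReal (Real.exp (μ * N)) * ENNReal.ofReal (Real.exp v) := by
        rw [← ENNReal.ofReal_mul (Real.exp_pos _).le, ← Real.exp_add]
        congr 2
        rw [hv, hN]; push_cast; ring
    _ ≤ ENNReal.ofReal (Real.exp (μ * N)) * Zc (box L) (wt t) N := by gcongr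
    _ ≤ _ := ENNReal.le_tsum N

end Vale.Agent.P171
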